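import Vale.Agent.P278.Osg2

/-!
P278 task Ident: identity principle for holomorphic maps between complex manifolds.

Plan. `T = {y | f =ᶠ[𝓝 y] g}` is open (`eventually_eventually_nhds`). Use
`IsPreconnected.subset_of_closure_inter_subset`: let `y ∈ S ∩ closure T`. Then `f y = g y`
(`T2Space`, continuity). With `e = extChartAt I y`, `ψ = chartAt V (f y)`, the maps
`F = ψ ∘ f ∘ e.symm`, `G = ψ ∘ g ∘ e.symm` are differentiable on a ball around `e y`
(`extChartAt_target_mem_nhds`/`isOpen_extChartAt_target` for boundaryless models,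
`mdifferentiableWithinAt_extChartAt_symm` or `contMDiffOn_extChartAt_symm`, `mdifferentiableAt_atlas`,
`mdifferentiableAt_iff_differentiableAt`), hence analytic there (`osgood`), they agree near a point
`e y'` of the ball (`y' ∈ T` close to `y`), so on the ball
(`AnalyticOnNhd.eqOn_of_preconnected_of_eventuallyEq`); injectivity of `ψ` on its source gives `y ∈ T`.
Auxiliary names: start with `ident_`.
-/

namespace Vale.Agent.P278

open scoped Manifold ContDiff Topology

theorem ident_diff {A H N V X : Type*} [NormedAddCommGroup A] [NormedSpace ℂ A]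
    [TopologicalSpace H] (I : ModelWithCorners ℂ A H) [I.Boundaryless] [TopologicalSpace N]
    [ChartedSpace H N] [IsManifold I ω N] [NormedAddCommGroup V] [NormedSpace ℂ V]
    [TopologicalSpace X] [ChartedSpace V X] [IsManifold 𝓘(ℂ, V) ω X] {f : N → X} {y : N}
    (hf : ∀ᶠ z in 𝓝 y, MDifferentiableAt I 𝓘(ℂ, V) f z) {ψ : OpenPartialHomeomorph X V}
    (hψ : ψ ∈ atlas V X) (hy : ∀ᶠ z in 𝓝 y, f z ∈ ψ.source) :
    ∀ᶠ v in 𝓝 (extChartAt I y y), DifferentiableAt ℂ (ψ ∘ f ∘ (extChartAt I y).symm) v := by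
  have ht := (continuousAt_extChartAt_symm (I := I) y).tendsto
  rw [extChartAt_to_inv] at ht
  filter_upwards [extChartAt_target_mem_nhds (I := I) y, ht.eventually hf, ht.eventually hy]
    with v h1 h2 h3
  have h4 := mdifferentiableWithinAt_extChartAt_symm h1
  rw [I.range_eq_univ, mdifferentiableWithinAt_univ] at h4
  exact mdifferentiableAt_iff_differentiableAt.1
    ((mdifferentiableAt_atlas (I := 𝓘(ℂ, V)) hψ h3).comp v (h2.comp v h4))

theorem ident {A H N V X : Type*} [NormedAddCommGroup A] [NormedSpace ℂ A] [FiniteDimensional ℂ A]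
    [TopologicalSpace H] (I : ModelWithCorners ℂ A H) [I.Boundaryless] [TopologicalSpace N]
    [ChartedSpace H N] [IsManifold I ω N] [NormedAddCommGroup V] [NormedSpace ℂ V] [CompleteSpace V]
    [TopologicalSpace X] [T2Space X] [ChartedSpace V X] [IsManifold 𝓘(ℂ, V) ω X]
    {f g : N → X} {S : Set N} (hS : IsPreconnected S)
    (hf : ∀ y ∈ S, ∀ᶠ z in 𝓝 y, MDifferentiableAt I 𝓘(ℂ, V) f z)
    (hg : ∀ y ∈ S, ∀ᶠ z in 𝓝 y, MDifferentiableAt I 𝓘(ℂ, V) g z)
    {x : N} (hx : x ∈ S) (h : f =ᶠ[𝓝 x] g) : ∀ y ∈ S, f =ᶠ[𝓝 y] g := by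
  refine fun y hy => hS.subset_of_closure_inter_subset (u := {y | f =ᶠ[𝓝 y] g})
    isOpen_setOfPred_eventually_nhds ⟨x, hx, h⟩ ?_ hy
  rintro y ⟨h1, hy⟩
  have h2 := mem_closure_iff_frequently.1 h1
  have cf := (hf y hy).self_of_nhds.continuousAt
  have cg := (hg y hy).self_of_nhds.continuousAt
  have e : f y = g y := tendsto_nhds_unique_of_frequently_eq cf cg (h2.mono fun z hz => hz.eq_of_nhds)
  have sf : ∀ᶠ z in 𝓝 y, f z ∈ (chartAt V (f y)).source := cf (chart_source_mem_nhds V _)
  have sg : ∀ᶠ z in 𝓝 y, g z ∈ (chartAt V (f y)).source := cg (e ▸ chart_source_mem_nhds V _)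
  obtain ⟨r, hr, hb⟩ := Metric.eventually_nhds_iff_ball.1
    ((ident_diff I (hf y hy) (chart_mem_atlas V _) sf).and
      (ident_diff I (hg y hy) (chart_mem_atlas V _) sg))
  have sb : ∀ᶠ z in 𝓝 y, z ∈ (extChartAt I y).source ∧
      extChartAt I y z ∈ Metric.ball (extChartAt I y y) r :=
    Filter.Eventually.and (extChartAt_source_mem_nhds y)
      (continuousAt_extChartAt y (Metric.ball_mem_nhds _ hr))
  obtain ⟨y', h3, h4, h5⟩ := (h2.and_eventually sb).exists
  have ht := (continuousAt_extChartAt_symm' h4).tendsto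
  rw [(extChartAt I y).left_inv h4] at ht
  have h6 := (osgood Metric.isOpen_ball fun v hv =>
    (hb v hv).1.differentiableWithinAt).eqOn_of_preconnected_of_eventuallyEq
    (osgood Metric.isOpen_ball fun v hv => (hb v hv).2.differentiableWithinAt)
    (convex_ball _ _).isPreconnected h5 ((ht.eventually h3).mono fun v hv => congrArg _ hv)
  filter_upwards [sf, sg, sb] with z z1 z2 z3
  have h7 := h6 z3.2
  simp only [Function.comp, (extChartAt I y).left_inv z3.1] at h7
  exact (chartAt V (f y)).injOn z1 z2 h7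

theorem ident_univ {A H N V X : Type*} [NormedAddCommGroup A] [NormedSpace ℂ A]
    [FiniteDimensional ℂ A] [TopologicalSpace H] (I : ModelWithCorners ℂ A H) [I.Boundaryless]
    [TopologicalSpace N] [PreconnectedSpace N] [ChartedSpace H N] [IsManifold I ω N]
    [NormedAddCommGroup V] [NormedSpace ℂ V] [CompleteSpace V] [TopologicalSpace X] [T2Space X]
    [ChartedSpace V X] [IsManifold 𝓘(ℂ, V) ω X] {f g : N → X}
    (hf : MDifferentiable I 𝓘(ℂ, V) f) (hg : MDifferentiable I 𝓘(ℂ, V) g) {x : N}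
    (h : f =ᶠ[𝓝 x] g) : f = g :=
  funext fun y => (ident I isPreconnected_univ
    (fun _ _ => Filter.Eventually.of_forall hf) (fun _ _ => Filter.Eventually.of_forall hg)
    (Set.mem_univ x) h y (Set.mem_univ y)).eq_of_nhds

end Vale.Agent.P278
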