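import Mathlib

/-!
P278 task Ann3: three-annulus estimate for the derivative of a holomorphic function.

Plan. `g = deriv h` is analytic on the closed annulus. `φ = dslope g u` is differentiable at every
point of the closed annulus (at `u`: `DifferentiableOn.dslope`-type lemma
`Complex.differentiableOn_dslope`, or `HasFPowerSeriesAt.has_fpower_series_dslope_fslope`; elsewhere
`differentiableAt_dslope_of_ne`), so
`Complex.circleIntegral_eq_of_differentiable_on_annulus_off_countable` (or
`circleIntegral_sub_center_inv_smul_eq_of_differentiable_on_annulus_off_countable`) gives equal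
integrals of `φ` over the circles `|v| = r L` and `|v| = r / L`. On the circles
`φ v = (v - u)⁻¹ • (g v - g u)`; `∮ (v - u)⁻¹ = 2πi` on the outer circle
(`circleIntegral.integral_sub_inv_of_mem_ball`) and `0` on the inner one (Cauchy,
`Complex.circleIntegral_eq_zero_of_differentiable_on_off_countable`). So
`2πi • g u = ∮_out (v-u)⁻¹ • g v - ∮_in (v-u)⁻¹ • g v`. Multiply by `u`; on the inner circle
`u (v-u)⁻¹ = -1 + v (v-u)⁻¹` and `∮_in g = 0` (`circleIntegral.integral_eq_zero_of_hasDerivWithinAt`).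
Bounds (`circleIntegral.norm_integral_le_of_norm_le_const`): outer `2π · 2τ/(L-2) ≤ 2π · 4τ/L`,
inner `2π · (r/L) τ / (r/2 - r/L) ≤ 2π · 4τ/L`.
Auxiliary names: start with `ann3_`.
-/

namespace Vale.Agent.P278

open Metric Complex in
theorem ann3_cauchy {V : Type*} [NormedAddCommGroup V] [NormedSpace ℂ V] [CompleteSpace V]
    {g : ℂ → V} {a b : ℝ} (ha : 0 < a)
    (hg : ∀ v : ℂ, a ≤ ‖v‖ → ‖v‖ ≤ b → DifferentiableAt ℂ g v)
    {u : ℂ} (hu₁ : a < ‖u‖) (hu₂ : ‖u‖ < b) :
    (2 * Real.pi * I : ℂ) • g u =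
      (∮ v in C(0, b), (v - u)⁻¹ • g v) - ∮ v in C(0, a), (v - u)⁻¹ • g v := by
  have hab : a ≤ b := (hu₁.trans hu₂).le
  have hb : 0 ≤ b := ha.le.trans hab
  have h1 : (∮ v in C(0, b), dslope g u v) = ∮ v in C(0, a), dslope g u v := by
    refine circleIntegral_eq_of_differentiable_on_annulus_off_countable ha hab
      (Set.countable_singleton u) (fun v hv => ?_) (fun v hv => ?_)
    · have hv1 : ‖v‖ ≤ b := by simpa using hv.1
      have hv2 : a ≤ ‖v‖ := by simpa using hv.2
      rcases eq_or_ne v u with rfl | hne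
      · exact (continuousAt_dslope_same.2 (hg v hv2 hv1)).continuousWithinAt
      · exact ((continuousAt_dslope_of_ne hne).2 (hg v hv2 hv1).continuousAt).continuousWithinAt
    · have hv1 : ‖v‖ < b := by simpa using hv.1.1
      have hv2 : a < ‖v‖ := by simpa using hv.1.2
      exact (differentiableAt_dslope_of_ne hv.2).2 (hg v hv2.le hv1.le)
  have key : ∀ R : ℝ, a ≤ R → R ≤ b → R ≠ ‖u‖ → (∮ v in C(0, R), dslope g u v) =
      (∮ v in C(0, R), (v - u)⁻¹ • g v) - (∮ v in C(0, R), (v - u)⁻¹) • g u := by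
    intro R h1 h2 h3
    have hR : 0 ≤ R := ha.le.trans h1
    have hne : ∀ v ∈ sphere (0 : ℂ) R, v ≠ u := by
      intro v hv e
      have : ‖v‖ = R := by simpa using hv
      exact h3 (by rw [← this, e])
    have hc : ContinuousOn (fun v : ℂ => (v - u)⁻¹) (sphere (0 : ℂ) R) :=
      (continuousOn_id.sub continuousOn_const).inv₀ fun v hv => sub_ne_zero.2 (hne v hv)
    have hcg : ContinuousOn g (sphere (0 : ℂ) R) := fun v hv => by
      have : ‖v‖ = R := by simpa using hv
      exact (hg v (by rw [this]; exact h1) (by rw [this]; exact h2)).continuousAt.continuousWithinAt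
    have i1 : CircleIntegrable (fun v : ℂ => (v - u)⁻¹ • g v) 0 R :=
      (hc.smul hcg).circleIntegrable hR
    have i2 : CircleIntegrable (fun v : ℂ => (v - u)⁻¹ • g u) 0 R :=
      (hc.smul continuousOn_const).circleIntegrable hR
    rw [← circleIntegral.integral_smul_const, ← circleIntegral.integral_sub i1 i2]
    refine circleIntegral.integral_congr hR fun v hv => ?_
    simp only [dslope_of_ne g (hne v hv), slope_def_module, smul_sub]
  have h2 : (∮ v in C(0, b), (v - u)⁻¹) = 2 * Real.pi * I :=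
    circleIntegral.integral_sub_inv_of_mem_ball (by simpa using hu₂)
  have h3 : (∮ v in C(0, a), (v - u)⁻¹) = 0 := by
    have hne : ∀ v ∈ closedBall (0 : ℂ) a, v - u ≠ 0 := by
      intro v hv e
      have h4 : ‖v‖ ≤ a := by simpa using hv
      rw [sub_eq_zero.1 e] at h4
      linarith
    refine circleIntegral_eq_zero_of_differentiable_on_off_countable ha.le Set.countable_empty
      ((continuousOn_id.sub continuousOn_const).inv₀ hne) fun v hv => ?_
    exact (differentiableAt_id.sub_const u).inv (hne v (ball_subset_closedBall hv.1))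
  rw [key b hab le_rfl hu₂.ne', key a le_rfl hab hu₁.ne, h2, h3, zero_smul, sub_zero] at h1
  rw [← h1]
  abel

open Metric Complex in
theorem three_annulus {V : Type*} [NormedAddCommGroup V] [NormedSpace ℂ V] [CompleteSpace V]
    {h : ℂ → V} {r L τ : ℝ} (hr : 0 < r) (hL : 4 ≤ L)
    (hh : ∀ v : ℂ, r / L ≤ ‖v‖ → ‖v‖ ≤ r * L → AnalyticAt ℂ h v)
    (hτ : ∀ v : ℂ, r / L ≤ ‖v‖ → ‖v‖ ≤ r * L → ‖v‖ * ‖deriv h v‖ ≤ τ)
    {u : ℂ} (hu₁ : r / 2 ≤ ‖u‖) (hu₂ : ‖u‖ ≤ 2 * r) : ‖u‖ * ‖deriv h u‖ ≤ 8 * τ / L := by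
  have hL0 : 0 < L := by linarith
  have ha : 0 < r / L := by positivity
  have ha4 : r / L ≤ r / 4 := div_le_div_of_nonneg_left hr.le (by norm_num) hL
  have hb4 : 4 * r ≤ r * L := by nlinarith
  have hu3 : r / L < ‖u‖ := by linarith
  have hu4 : ‖u‖ < r * L := by linarith
  have hτ0 : 0 ≤ τ := le_trans (by positivity) (hτ u hu3.le hu4.le)
  have hg : ∀ v : ℂ, r / L ≤ ‖v‖ → ‖v‖ ≤ r * L → DifferentiableAt ℂ (deriv h) v :=
    fun v h1 h2 => (hh v h1 h2).deriv.differentiableAt
  have h1 := ann3_cauchy ha hg hu3 hu4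
  have hout : ‖u • ∮ v in C(0, r * L), (v - u)⁻¹ • deriv h v‖ ≤ 2 * Real.pi * (4 * τ / L) := by
    rw [← circleIntegral.integral_smul]
    refine (circleIntegral.norm_integral_le_of_norm_le_const (C := 4 * τ / L / (r * L))
      (by positivity) fun v hv => ?_).trans (le_of_eq (by field_simp))
    have hv1 : ‖v‖ = r * L := by simpa using hv
    have h2 := hτ v (by rw [hv1]; linarith) hv1.le
    have h3 : r * L / 2 ≤ ‖v - u‖ := by
      have := norm_sub_norm_le v u
      linarith
    have h4 : 0 < r * L / 2 := by positivity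
    rw [hv1] at h2
    have h5 : ‖deriv h v‖ ≤ τ / (r * L) := by
      rw [le_div_iff₀ (by positivity)]
      linarith
    rw [norm_smul, norm_smul, norm_inv]
    calc ‖u‖ * (‖v - u‖⁻¹ * ‖deriv h v‖) ≤ 2 * r * ((r * L / 2)⁻¹ * (τ / (r * L))) := by
          gcongr
      _ = 4 * τ / L / (r * L) := by field_simp; ring
  have hin : ‖u • ∮ v in C(0, r / L), (v - u)⁻¹ • deriv h v‖ ≤ 2 * Real.pi * (4 * τ / L) := by
    have hsp : ∀ v ∈ sphere (0 : ℂ) (r / L), ‖v‖ = r / L := fun v hv => by simpa using hv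
    have hlo : ∀ v ∈ sphere (0 : ℂ) (r / L), r / 4 ≤ ‖v - u‖ := fun v hv => by
      have := norm_sub_norm_le u v
      rw [norm_sub_rev] at this
      linarith [hsp v hv]
    have hne : ∀ v ∈ sphere (0 : ℂ) (r / L), v - u ≠ 0 := fun v hv e => by
      have := hlo v hv
      rw [e, norm_zero] at this
      linarith
    have hc : ContinuousOn (fun v : ℂ => v * (v - u)⁻¹) (sphere (0 : ℂ) (r / L)) :=
      continuousOn_id.mul ((continuousOn_id.sub continuousOn_const).inv₀ hne)
    have hcg : ContinuousOn (deriv h) (sphere (0 : ℂ) (r / L)) := fun v hv =>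
      (hg v (hsp v hv).ge (by rw [hsp v hv]; linarith)).continuousAt.continuousWithinAt
    have hz : (∮ v in C(0, r / L), deriv h v) = 0 :=
      circleIntegral.integral_eq_zero_of_hasDerivWithinAt (f := h) ha.le fun v hv =>
        (hh v (hsp v hv).ge (by rw [hsp v hv]; linarith)).differentiableAt.hasDerivAt.hasDerivWithinAt
    have e : u • (∮ v in C(0, r / L), (v - u)⁻¹ • deriv h v) =
        ∮ v in C(0, r / L), (v * (v - u)⁻¹) • deriv h v := by
      have i1 : CircleIntegrable (fun v : ℂ => (v * (v - u)⁻¹) • deriv h v) 0 (r / L) :=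
        (hc.smul hcg).circleIntegrable ha.le
      rw [← sub_zero (∮ v in C(0, r / L), (v * (v - u)⁻¹) • deriv h v), ← hz,
        ← circleIntegral.integral_smul, ← circleIntegral.integral_sub i1
        (hcg.circleIntegrable ha.le)]
      refine circleIntegral.integral_congr ha.le fun v hv => ?_
      have h6 : u * (v - u)⁻¹ = v * (v - u)⁻¹ - 1 := by
        have := hne v hv
        field_simp
        ring
      simp only [smul_smul, h6, sub_smul, one_smul]
    rw [e]
    refine (circleIntegral.norm_integral_le_of_norm_le_const (C := 4 * τ / r)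
      ha.le fun v hv => ?_).trans (le_of_eq (by field_simp))
    have h2 := hτ v (hsp v hv).ge (by rw [hsp v hv]; linarith)
    have h3 := hlo v hv
    rw [norm_smul, norm_mul, norm_inv]
    calc ‖v‖ * ‖v - u‖⁻¹ * ‖deriv h v‖ = ‖v - u‖⁻¹ * (‖v‖ * ‖deriv h v‖) := by ring
      _ ≤ (r / 4)⁻¹ * τ := by gcongr
      _ = 4 * τ / r := by field_simp
  have h7 : 2 * Real.pi * (‖u‖ * ‖deriv h u‖) = ‖u • (2 * Real.pi * I : ℂ) • deriv h u‖ := by
    rw [norm_smul, norm_smul]
    simp only [norm_mul, Complex.norm_ofNat, Complex.norm_real, Real.norm_eq_abs,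
      abs_of_pos Real.pi_pos, Complex.norm_I]
    ring
  rw [h1, smul_sub] at h7
  have h8 := norm_sub_le (u • ∮ v in C(0, r * L), (v - u)⁻¹ • deriv h v)
    (u • ∮ v in C(0, r / L), (v - u)⁻¹ • deriv h v)
  have h9 : 2 * Real.pi * (‖u‖ * ‖deriv h u‖) ≤ 2 * Real.pi * (8 * τ / L) := by
    have : 8 * τ / L = 4 * τ / L + 4 * τ / L := by ring
    rw [this]
    linarith
  exact le_of_mul_le_mul_left h9 (by positivity)

end Vale.Agent.P278
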