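import Vale.Agent.P278.Defs

/-!
P278: definitions used in the proof (product atlases, maps of product type, tamed closed forms).
-/

namespace Vale.Agent.P278

open scoped Manifold ContDiff Topology
open Set Metric

section

variable {V : Type*} [NormedAddCommGroup V] [NormedSpace ℂ V]

/-- The derivatives of the transition maps of the atlas commute with `p`. -/
def PAtl (p : V →L[ℂ] V) (X : Type*) [TopologicalSpace X] [ChartedSpace V X] : Prop :=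
  ∀ ψ ∈ atlas V X, ∀ φ ∈ atlas V X, ∀ y ∈ ψ.target, ψ.symm y ∈ φ.source →
    ∀ v, fderiv ℂ (φ ∘ ψ.symm) y (p v) = p (fderiv ℂ (φ ∘ ψ.symm) y v)

variable {X : Type*} [TopologicalSpace X] [ChartedSpace V X]

/-- The differential of `f` at `x` takes values in the fixed space of `p`. -/
def Tang (A : Type*) [NormedAddCommGroup A] [NormedSpace ℂ A] {N : Type*} [TopologicalSpace N]
    [ChartedSpace A N] (p : V →L[ℂ] V) (f : N → X) (x : N) : Prop :=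
  ∀ v, p (mfderiv 𝓘(ℂ, A) 𝓘(ℂ, V) f x v) = mfderiv 𝓘(ℂ, A) 𝓘(ℂ, V) f x v

/-- `R` is of product type at `q`. -/
def PT (A B : Type*) [NormedAddCommGroup A] [NormedSpace ℂ A] [NormedAddCommGroup B]
    [NormedSpace ℂ B] {N₁ N₂ : Type*} [TopologicalSpace N₁] [ChartedSpace A N₁]
    [TopologicalSpace N₂] [ChartedSpace B N₂] (p : V →L[ℂ] V) (R : N₁ × N₂ → X) (q : N₁ × N₂) :
    Prop :=
  MDifferentiableAt (𝓘(ℂ, A).prod 𝓘(ℂ, B)) 𝓘(ℂ, V) R q ∧ Tang A p (fun x => R (x, q.2)) q.1 ∧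
    Tang B (1 - p) (fun y => R (q.1, y)) q.2

/-- The local bracket in a chart. -/
noncomputable def br (p : V →L[ℂ] V) (ψ : OpenPartialHomeomorph X V) (q : X × X) : X :=
  ψ.symm (p (ψ q.1) + (1 - p) (ψ q.2))

/-- Rectangles with prescribed holomorphic sides on balls exist. -/
def EXT (p : V →L[ℂ] V) (X : Type*) [TopologicalSpace X] [ChartedSpace V X] : Prop :=
  ∀ (z₀ w₀ : V) (σ ρ : ℝ) (f g : V → X), 0 < σ → 0 < ρ →
    (∀ z ∈ ball z₀ σ, MDifferentiableAt 𝓘(ℂ, V) 𝓘(ℂ, V) f z ∧ Tang V p f z) →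
    (∀ w ∈ ball w₀ ρ, MDifferentiableAt 𝓘(ℂ, V) 𝓘(ℂ, V) g w ∧ Tang V (1 - p) g w) →
    f z₀ = g w₀ →
    ∃ R : V × V → X, (∀ q ∈ ball z₀ σ ×ˢ ball w₀ ρ, PT V V p R q) ∧
      (∀ z ∈ ball z₀ σ, R (z, w₀) = f z) ∧ ∀ w ∈ ball w₀ ρ, R (z₀, w) = g w

/-- A closed 2-form taming the complex structure, given by its expressions in the charts. -/
structure Kah (V : Type*) [NormedAddCommGroup V] [NormedSpace ℂ V] (X : Type*)
    [TopologicalSpace X] [ChartedSpace V X] where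
  w : OpenPartialHomeomorph X V → V → V →L[ℝ] V →L[ℝ] ℝ
  smooth : ∀ ψ ∈ atlas V X, ContDiffOn ℝ 1 (w ψ) ψ.target
  alt : ∀ ψ ∈ atlas V X, ∀ y ∈ ψ.target, ∀ a b, w ψ y a b = -w ψ y b a
  pos : ∀ ψ ∈ atlas V X, ∀ y ∈ ψ.target, ∀ a, a ≠ 0 → 0 < w ψ y a (Complex.I • a)
  closed : ∀ ψ ∈ atlas V X, ∀ y ∈ ψ.target, ∀ a b c,
    fderiv ℝ (fun y => w ψ y b c) y a + fderiv ℝ (fun y => w ψ y c a) y b +
      fderiv ℝ (fun y => w ψ y a b) y c = 0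
  compat : ∀ ψ ∈ atlas V X, ∀ φ ∈ atlas V X, ∀ y ∈ ψ.target, ψ.symm y ∈ φ.source → ∀ a b,
    w ψ y a b = w φ (φ (ψ.symm y)) (fderiv ℂ (φ ∘ ψ.symm) y a) (fderiv ℂ (φ ∘ ψ.symm) y b)

/-- Uniformly good charts. -/
def Unif (K : Kah V X) (p : V →L[ℂ] V) (δ Λ : ℝ) : Prop :=
  0 < δ ∧ 1 ≤ Λ ∧ ‖p‖ ≤ Λ ∧ ‖1 - p‖ ≤ Λ ∧ ∀ x : X, ∃ ψ ∈ atlas V X, x ∈ ψ.source ∧
    closedBall (ψ x) δ ⊆ ψ.target ∧ ∀ y ∈ closedBall (ψ x) δ, ∀ a b,
      ‖a‖ ^ 2 ≤ Λ * K.w ψ y a (Complex.I • a) ∧ |K.w ψ y a b| ≤ Λ * ‖a‖ * ‖b‖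

/-- A covering map which is the identity in suitable charts. -/
def PCov (V : Type*) [NormedAddCommGroup V] [NormedSpace ℂ V] {M X : Type*} [TopologicalSpace M]
    [ChartedSpace V M] [TopologicalSpace X] [ChartedSpace V X] (π : M → X) : Prop :=
  IsCoveringMap π ∧ ∀ m, ∃ φ ∈ atlas V M, ∃ ψ ∈ atlas V X, m ∈ φ.source ∧
    ∀ m' ∈ φ.source, π m' ∈ ψ.source ∧ φ m' = ψ (π m')

/-- A global bracket: of product type everywhere, and the local bracket near `(x₀, x₀)`. -/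
def Brk (p : V →L[ℂ] V) (x₀ : X) (S : X × X → X) : Prop :=
  (∀ q, PT V V p S q) ∧ S =ᶠ[𝓝 (x₀, x₀)] br p (chartAt V x₀)

end

/-- The projector onto the `i`-th factor. -/
noncomputable def pr {ι : Type*} [Fintype ι] [DecidableEq ι] (W : ι → Type*)
    [∀ i, NormedAddCommGroup (W i)] [∀ i, NormedSpace ℂ (W i)] (i : ι) :
    (∀ j, W j) →L[ℂ] ∀ j, W j :=
  (ContinuousLinearMap.single ℂ W i).comp (ContinuousLinearMap.proj i)

/-- A holomorphic chart with values in a product which maps `D i` into the `i`-th factor. -/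
def Adapted {ι : Type*} [Fintype ι] [DecidableEq ι] {W : ι → Type*}
    [∀ i, NormedAddCommGroup (W i)] [∀ i, NormedSpace ℂ (W i)] {E : Type*} [NormedAddCommGroup E]
    [NormedSpace ℂ E] {N : Type*} [TopologicalSpace N] [ChartedSpace E N]
    (D : ι → N → Submodule ℂ E) (ψ : OpenPartialHomeomorph N (∀ j, W j)) : Prop :=
  (∀ x ∈ ψ.source, MDifferentiableAt 𝓘(ℂ, E) 𝓘(ℂ, ∀ j, W j) ψ x) ∧
    (∀ y ∈ ψ.target, MDifferentiableAt 𝓘(ℂ, ∀ j, W j) 𝓘(ℂ, E) ψ.symm y) ∧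
    ∀ x ∈ ψ.source, ∀ i, ∀ v ∈ D i x,
      pr W i (mfderiv 𝓘(ℂ, E) 𝓘(ℂ, ∀ j, W j) ψ x v) = mfderiv 𝓘(ℂ, E) 𝓘(ℂ, ∀ j, W j) ψ x v

/-- The subspaces `D i x` span. -/
def Spans {ι E N : Type*} [Fintype ι] [NormedAddCommGroup E] [NormedSpace ℂ E]
    (D : ι → N → Submodule ℂ E) : Prop :=
  ∀ x v, ∃ u : ι → E, (∀ i, u i ∈ D i x) ∧ ∑ i, u i = v

end Vale.Agent.P278
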