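import Vale.Agent.P278.Base

/-!
P278 task Basic: elementary facts on `PAtl`, `Tang` and `PT`, part 1.

Plan. `tang_iff`: with `φ = chartAt V (f x)`, near `x` we have `ψ ∘ f = (ψ ∘ φ.symm) ∘ (φ ∘ f)`;
`mfderiv f x = mfderiv (φ ∘ f) x` (unfold `mfderiv`, `writtenInExtChartAt`; or use
`mfderiv_chartAt_eq_tangentCoordChange` and `tangentCoordChange_self`), `T = fderiv ℂ (ψ ∘ φ.symm) (φ (f x))`
commutes with `p` and is injective (`OpenPartialHomeomorph.MDifferentiable.mfderiv_injective` for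
`mdifferentiable_of_mem_atlas`, or the chain rule for `φ ∘ ψ.symm ∘ ψ ∘ φ.symm =ᶠ id`).
`md_prod_iff`: `modelWithCornersSelf_prod`, `chartedSpaceSelf_prod`.
`congr` lemmas: `Filter.EventuallyEq.mfderiv_eq`, `MDifferentiableAt.congr_of_eventuallyEq`, and
`ContinuousAt.tendsto.eventually` along `x ↦ (x, q.2)`. `comp` lemmas: `mfderiv_comp`.
Auxiliary names: start with `basic_`.
-/

namespace Vale.Agent.P278

open scoped Manifold ContDiff Topology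

variable {V : Type*} [NormedAddCommGroup V] [NormedSpace ℂ V]
  {X : Type*} [TopologicalSpace X] [ChartedSpace V X]
  {A B A' B' : Type*} [NormedAddCommGroup A] [NormedSpace ℂ A] [NormedAddCommGroup B]
  [NormedSpace ℂ B] [NormedAddCommGroup A'] [NormedSpace ℂ A'] [NormedAddCommGroup B']
  [NormedSpace ℂ B'] {N N₁ N₂ N' N₁' N₂' : Type*} [TopologicalSpace N] [ChartedSpace A N]
  [TopologicalSpace N₁] [ChartedSpace A N₁] [TopologicalSpace N₂] [ChartedSpace B N₂]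
  [TopologicalSpace N'] [ChartedSpace A' N'] [TopologicalSpace N₁'] [ChartedSpace A' N₁']
  [TopologicalSpace N₂'] [ChartedSpace B' N₂'] {p : V →L[ℂ] V}

theorem PAtl.one_sub (h : PAtl p X) : PAtl (1 - p) X := by
  intro ψ hψ φ hφ y hy hy' v
  simp only [ContinuousLinearMap.sub_apply, ContinuousLinearMap.one_apply, map_sub,
    h ψ hψ φ hφ y hy hy' v]

theorem tang_iff [IsManifold 𝓘(ℂ, V) ω X] (hP : PAtl p X) {ψ : OpenPartialHomeomorph X V}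
    (hψ : ψ ∈ atlas V X) {f : N → X} {x : N} (hx : f x ∈ ψ.source)
    (hf : MDifferentiableAt 𝓘(ℂ, A) 𝓘(ℂ, V) f x) :
    Tang A p f x ↔ ∀ v, p (mfderiv 𝓘(ℂ, A) 𝓘(ℂ, V) (ψ ∘ f) x v) =
      mfderiv 𝓘(ℂ, A) 𝓘(ℂ, V) (ψ ∘ f) x v := by
  have hd : MDifferentiableAt 𝓘(ℂ, V) 𝓘(ℂ, V) ψ (f x) := mdifferentiableAt_atlas hψ hx
  have h1 : ∀ v, mfderiv 𝓘(ℂ, A) 𝓘(ℂ, V) (ψ ∘ f) x v =
      mfderiv 𝓘(ℂ, V) 𝓘(ℂ, V) ψ (f x) (mfderiv 𝓘(ℂ, A) 𝓘(ℂ, V) f x v) := fun v => by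
    rw [mfderiv_comp x hd hf]
    rfl
  have h2 : mfderiv 𝓘(ℂ, V) 𝓘(ℂ, V) ψ (f x) =
      fderiv ℂ (ψ ∘ (chartAt V (f x)).symm) (chartAt V (f x) (f x)) := by
    rw [hd.mfderiv]
    simp only [mfld_simps, fderivWithin_univ]
    rfl
  have h3 : ∀ w : V, p (mfderiv 𝓘(ℂ, V) 𝓘(ℂ, V) ψ (f x) w) =
      mfderiv 𝓘(ℂ, V) 𝓘(ℂ, V) ψ (f x) (p w) := fun w => by
    rw [h2]
    exact (hP _ (chart_mem_atlas V (f x)) ψ hψ _ (mem_chart_target V (f x))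
      (by rw [(chartAt V (f x)).left_inv (mem_chart_source V (f x))]; exact hx) w).symm
  have h4 := (mdifferentiable_of_mem_atlas (I := 𝓘(ℂ, V)) hψ).mfderiv_injective hx
  refine forall_congr' fun v => ?_
  rw [h1]
  exact h4.eq_iff.symm.trans (Eq.congr_left (h3 _).symm)

theorem Tang.congr {f g : N → X} {x : N} (h : Tang A p f x) (hfg : g =ᶠ[𝓝 x] f) :
    Tang A p g x := by
  intro v
  rw [hfg.mfderiv_eq]
  exact h v

theorem Tang.comp {f : N → X} {α : N' → N} {x : N'} (h : Tang A p f (α x))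
    (hf : MDifferentiableAt 𝓘(ℂ, A) 𝓘(ℂ, V) f (α x))
    (hα : MDifferentiableAt 𝓘(ℂ, A') 𝓘(ℂ, A) α x) : Tang A' p (f ∘ α) x := by
  intro v
  rw [mfderiv_comp x hf hα]
  exact h _

theorem PT.md1 {R : N₁ × N₂ → X} {q : N₁ × N₂} (h : PT A B p R q) :
    MDifferentiableAt 𝓘(ℂ, A) 𝓘(ℂ, V) (fun x => R (x, q.2)) q.1 := by
  exact h.1.comp q.1 (f := fun x => (x, q.2)) (mdifferentiableAt_id.prodMk mdifferentiableAt_const)

theorem PT.md2 {R : N₁ × N₂ → X} {q : N₁ × N₂} (h : PT A B p R q) :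
    MDifferentiableAt 𝓘(ℂ, B) 𝓘(ℂ, V) (fun y => R (q.1, y)) q.2 := by
  exact h.1.comp q.2 (f := fun y => (q.1, y)) (mdifferentiableAt_const.prodMk mdifferentiableAt_id)

theorem PT.congr {R R' : N₁ × N₂ → X} {q : N₁ × N₂} (h : PT A B p R q) (hR : R' =ᶠ[𝓝 q] R) :
    PT A B p R' q := by
  exact ⟨h.1.congr_of_eventuallyEq hR,
    h.2.1.congr ((Continuous.prodMk_left q.2).continuousAt.tendsto.eventually hR),
    h.2.2.congr ((Continuous.prodMk_right q.1).continuousAt.tendsto.eventually hR)⟩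

theorem PT.comp {R : N₁ × N₂ → X} {α : N₁' → N₁} {β : N₂' → N₂} {q : N₁' × N₂'}
    (h : PT A B p R (α q.1, β q.2)) (hα : MDifferentiableAt 𝓘(ℂ, A') 𝓘(ℂ, A) α q.1)
    (hβ : MDifferentiableAt 𝓘(ℂ, B') 𝓘(ℂ, B) β q.2) :
    PT A' B' p (fun z => R (α z.1, β z.2)) q := by
  exact ⟨h.1.comp q (f := fun z => (α z.1, β z.2))
      ((hα.comp q mdifferentiableAt_fst).prodMk (hβ.comp q mdifferentiableAt_snd)),
    Tang.comp (f := fun x => R (x, β q.2)) h.2.1 h.md1 hα,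
    Tang.comp (f := fun y => R (α q.1, y)) h.2.2 h.md2 hβ⟩

theorem PT.swap {R : N₁ × N₂ → X} {q : N₂ × N₁} (h : PT A B p R (q.2, q.1)) :
    PT B A (1 - p) (fun z => R (z.2, z.1)) q := by
  refine ⟨h.1.comp q (f := fun z => (z.2, z.1))
    (mdifferentiableAt_snd.prodMk mdifferentiableAt_fst), h.2.2, ?_⟩
  rw [sub_sub_cancel]
  exact h.2.1

theorem EXT.swap (h : EXT p X) : EXT (1 - p) X := by
  intro z₀ w₀ σ ρ f g hσ hρ hf hg hfg
  rw [sub_sub_cancel] at hg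
  obtain ⟨R, h1, h2, h3⟩ := h w₀ z₀ ρ σ g f hρ hσ hg hf hfg.symm
  exact ⟨fun z => R (z.2, z.1), fun q hq => (h1 (q.2, q.1) ⟨hq.2, hq.1⟩).swap, h3, h2⟩

theorem md_prod_iff {R : A × B → X} {q : A × B} :
    MDifferentiableAt (𝓘(ℂ, A).prod 𝓘(ℂ, B)) 𝓘(ℂ, V) R q ↔
      MDifferentiableAt 𝓘(ℂ, A × B) 𝓘(ℂ, V) R q := by
  rw [modelWithCornersSelf_prod, ← chartedSpaceSelf_prod]

end Vale.Agent.P278
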