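import Mathlib

/-!
P278 task CDom: an elementary inequality (the region above a paraboloid maps into a superlevel set).

Plan. Put `W = -u - s`, `x = σ ‖1 + a u‖ - σ`, `y = ρ ‖1 + b W‖ - ρ`. From
`‖1 + z‖ ≤ (1 + ‖1 + z‖²)/2 = 1 + z.re + ‖z‖²/2` and `|‖1 + z‖ - 1| ≤ ‖z‖`:
`x (ρ' - ρ) ≤ u.re + a ‖u‖²/2`, `y (σ' - σ) ≤ W.re + b ‖W‖²/2`, `|x y| ≤ σ ρ a b ‖u‖ ‖W‖`, and
`u.re + W.re = -s`, `‖W‖² ≤ 2‖u‖² + 2 s²`. With `c = a/2 + b/2 + σ ρ a b`: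
`(σ' - σ - x)(ρ' - ρ - y) - (σ' - σ)(ρ' - ρ) ≥ s - c (‖u‖² + ‖W‖²) ≥ s - 3c‖u‖² - 2c s² > 0` when
`κ ≥ 6c`, `s < 1/(4c)`. For the first two claims make `σ a ‖u‖ < σ' - σ` and
`ρ b (‖u‖ + s) < ρ' - ρ`: with `κ ≥ 1`, `‖u‖² < s < s₀ ≤ t²`, `t ≤ 1` small, so `‖u‖ < t`, `s < t`.
Auxiliary names: start with `cdom_`.
-/

namespace Vale.Agent.P278

theorem cdom_norm {a : ℝ} (ha : 0 ≤ a) (u : ℂ) :
    ‖1 + a * u‖ - 1 ≤ a * u.re + a ^ 2 * ‖u‖ ^ 2 / 2 ∧ |‖1 + a * u‖ - 1| ≤ a * ‖u‖ := by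
  constructor
  · have h1 : ‖1 + a * u‖ ^ 2 = 1 + 2 * (a * u.re) + a ^ 2 * ‖u‖ ^ 2 := by
      simp only [Complex.sq_norm, Complex.normSq_apply]
      simp
      ring
    nlinarith [sq_nonneg (‖1 + a * u‖ - 1)]
  · have h1 := abs_norm_sub_norm_le (1 + a * u) 1
    rwa [norm_one, add_sub_cancel_left, norm_mul, Complex.norm_real, Real.norm_of_nonneg ha] at h1

theorem cdom_real {σ ρ α β a b p q s x y X Y t c : ℝ} (hσ : 0 < σ) (hρ : 0 < ρ) (hα : 0 < α)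
    (hβ : 0 < β) (ha : σ * β * a = 1) (hb : ρ * α * b = 1) (a0 : 0 < a) (b0 : 0 < b) (p0 : 0 ≤ p)
    (q0 : 0 ≤ q) (hq : q ≤ p + s) (hxy : x + y = -s) (hX : X ≤ a * x + a ^ 2 * p ^ 2 / 2)
    (hX' : |X| ≤ a * p) (hY : Y ≤ b * y + b ^ 2 * q ^ 2 / 2) (hY' : |Y| ≤ b * q)
    (hc : c = a / 2 + b / 2 + σ * ρ * a * b) (h1 : (6 * c + 1) * p ^ 2 < s) (h2 : s < t ^ 2)
    (h3 : 4 * c * s < 1) (t0 : 0 < t) (t1 : t ≤ 1) (t2 : t ≤ α * β / 2) :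
    σ * X < α ∧ ρ * Y < β ∧ α * β < (α - σ * X) * (β - ρ * Y) := by
  have c1 : 0 < σ * ρ * a * b := by positivity
  have c0 : 0 < c := by linarith
  have c2 : 0 ≤ c * p ^ 2 := by positivity
  have s0 : 0 < s := by nlinarith
  have p1 : p < t := lt_of_pow_lt_pow_left₀ 2 t0.le (by linarith)
  have s1 : s < t := by nlinarith
  have e1 : β * (σ * (a * p)) = p := by linear_combination p * ha
  have e2 : α * (ρ * (b * q)) = q := by linear_combination q * hb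
  refine ⟨?_, ?_, ?_⟩
  · refine (mul_le_mul_of_nonneg_left ((le_abs_self X).trans hX') hσ.le).trans_lt
      (lt_of_mul_lt_mul_left ?_ hβ.le)
    linarith
  · refine (mul_le_mul_of_nonneg_left ((le_abs_self Y).trans hY') hρ.le).trans_lt
      (lt_of_mul_lt_mul_left ?_ hα.le)
    linarith
  have f1 : σ * β * X ≤ x + a * p ^ 2 / 2 :=
    (mul_le_mul_of_nonneg_left hX (by positivity)).trans_eq (by
      linear_combination (x + a * p ^ 2 / 2) * ha)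
  have f2 : ρ * α * Y ≤ y + b * q ^ 2 / 2 :=
    (mul_le_mul_of_nonneg_left hY (by positivity)).trans_eq (by
      linear_combination (y + b * q ^ 2 / 2) * hb)
  have f3 : -(X * Y) ≤ a * p * (b * q) := (neg_le_abs _).trans (by
    rw [abs_mul]
    exact mul_le_mul hX' hY' (abs_nonneg _) (by positivity))
  have f4 := mul_le_mul_of_nonneg_left f3 (mul_pos hσ hρ).le
  have f5 : p * q ≤ p ^ 2 + q ^ 2 := by nlinarith
  have f6 := mul_le_mul_of_nonneg_left f5 c1.le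
  have f7 : q ^ 2 ≤ 2 * p ^ 2 + 2 * s ^ 2 := by nlinarith [sq_nonneg (p - s)]
  have f8 := mul_le_mul_of_nonneg_left f7 c0.le
  have f9 := mul_lt_mul_of_pos_right h3 s0
  have g1 : 0 ≤ b * p ^ 2 := by positivity
  have g2 : 0 ≤ a * q ^ 2 := by positivity
  have g3 : c * p ^ 2 + c * q ^ 2 = (a / 2 + b / 2 + σ * ρ * a * b) * (p ^ 2 + q ^ 2) := by
    rw [hc]
    ring
  linarith [sq_nonneg p]

theorem corner_dom {σ ρ σ' ρ' a b : ℝ} (hσ : 0 < σ) (hρ : 0 < ρ) (hσ' : σ < σ') (hρ' : ρ < ρ')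
    (ha : a = 1 / (σ * (ρ' - ρ))) (hb : b = 1 / (ρ * (σ' - σ))) :
    ∃ κ > 0, ∃ s₀ > 0, ∀ (u : ℂ) (s : ℝ), κ * ‖u‖ ^ 2 < s → s < s₀ →
      σ * ‖1 + a * u‖ < σ' ∧ ρ * ‖1 + b * (-u - s)‖ < ρ' ∧
      (σ' - σ) * (ρ' - ρ) < (σ' - σ * ‖1 + a * u‖) * (ρ' - ρ * ‖1 + b * (-u - s)‖) := by
  have hα := sub_pos.2 hσ'
  have hβ := sub_pos.2 hρ'
  have a0 : 0 < a := ha ▸ by positivity
  have b0 : 0 < b := hb ▸ by positivity
  set c := a / 2 + b / 2 + σ * ρ * a * b with hc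
  have c0 : 0 < c := by positivity
  have t0 : 0 < min 1 ((σ' - σ) * (ρ' - ρ) / 2) := by positivity
  refine ⟨6 * c + 1, by positivity, min (min 1 ((σ' - σ) * (ρ' - ρ) / 2) ^ 2) (1 / (4 * c)),
    by positivity, fun u s h1 h2 => ?_⟩
  obtain ⟨h3, h4⟩ := lt_min_iff.1 h2
  have s0 : 0 < s := lt_of_le_of_lt (by positivity) h1
  obtain ⟨k1, k2, k3⟩ := cdom_real (s := s) hσ hρ hα hβ (by rw [ha]; field_simp)
    (by rw [hb]; field_simp) a0 b0 (norm_nonneg u) (norm_nonneg (-u - s))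
    ((norm_sub_le _ _).trans_eq (by rw [norm_neg, Complex.norm_real, Real.norm_of_nonneg s0.le]))
    (by simp; ring) (cdom_norm a0.le u).1 (cdom_norm a0.le u).2 (cdom_norm b0.le (-u - s)).1
    (cdom_norm b0.le (-u - s)).2 hc h1 h3 ((lt_div_iff₀' (by positivity)).1 h4) t0
    (min_le_left _ _) (min_le_right _ _)
  exact ⟨by linarith, by linarith, k3.trans_eq (by ring)⟩

end Vale.Agent.P278
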