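import Vale.Agent.P278.Defs

/-!
P278 task ChartA: holomorphic vector fields in a chart.

Plan. `φ = chartAt E x₀`, `e = trivializationAt E (TangentSpace 𝓘(ℂ, E)) x₀` has base set `φ.source`, and
`(e ⟨x, v⟩).2 = mfderiv φ x v` for `x ∈ φ.source` (`TangentBundle.continuousLinearMapAt_trivializationAt`,
`TangentBundle.trivializationAt_apply`, `mfderiv_chartAt_eq_tangentCoordChange`,
`extChartAt` is `φ` for the model `𝓘(ℂ, E)`). Use `Trivialization.mdifferentiableOn_section_iff` /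
`mdifferentiableWithinAt_section_iff` (file `Mathlib/Geometry/Manifold/VectorBundle/MDifferentiable.lean`)
and compose with `φ.symm` resp. `φ` (`mdifferentiableOn_atlas_symm`, `mdifferentiableOn_atlas`,
`mdifferentiableOn_iff_differentiableOn`). `mfderiv φ x ∘ mfderiv φ.symm (φ x) = id` and the reverse:
`OpenPartialHomeomorph.MDifferentiable.comp_symm_deriv`, `symm_comp_deriv` with
`mdifferentiable_chart`.
Auxiliary names: start with `charta_`.
-/

namespace Vale.Agent.P278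

open scoped Manifold ContDiff Topology

variable {E : Type*} [NormedAddCommGroup E] [NormedSpace ℂ E]
  {X : Type*} [TopologicalSpace X] [ChartedSpace E X] [IsManifold 𝓘(ℂ, E) ω X]

theorem charta_triv (x₀ : X) {x : X} (hx : x ∈ (chartAt E x₀).source)
    (v : TangentSpace 𝓘(ℂ, E) x) :
    (trivializationAt E (TangentSpace 𝓘(ℂ, E)) x₀ ⟨x, v⟩).2 =
      mfderiv 𝓘(ℂ, E) 𝓘(ℂ, E) (chartAt E x₀) x v := by
  have h1 := TangentBundle.continuousLinearMapAt_trivializationAt (I := 𝓘(ℂ, E)) hx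
  have h2 := (trivializationAt E (TangentSpace 𝓘(ℂ, E)) x₀).continuousLinearMapAt_apply_of_mem ℂ
    (b := x) hx v
  rw [← h2, h1]
  rfl

theorem charta_iff (x₀ : X) (s : (x : X) → TangentSpace 𝓘(ℂ, E) x) {x : X}
    (hx : x ∈ (chartAt E x₀).source) :
    MDifferentiableAt 𝓘(ℂ, E) 𝓘(ℂ, E).tangent
        (fun x => (⟨x, s x⟩ : TangentBundle 𝓘(ℂ, E) X)) x ↔
      MDifferentiableAt 𝓘(ℂ, E) 𝓘(ℂ, E)
        (fun x => (mfderiv 𝓘(ℂ, E) 𝓘(ℂ, E) (chartAt E x₀) x (s x) : E)) x := by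
  refine ((trivializationAt E (TangentSpace 𝓘(ℂ, E)) x₀).mdifferentiableAt_section_iff 𝓘(ℂ, E) s
    hx).trans (Filter.EventuallyEq.mdifferentiableAt_iff ?_)
  filter_upwards [(chartAt E x₀).open_source.mem_nhds hx] with z hz
  exact charta_triv x₀ hz (s z)

theorem HolField.chart {s : (x : X) → TangentSpace 𝓘(ℂ, E) x} {U : Set X} (hs : HolField s U)
    (hU : IsOpen U) (x₀ : X) :
    DifferentiableOn ℂ (fun y : E => (mfderiv 𝓘(ℂ, E) 𝓘(ℂ, E) (chartAt E x₀) ((chartAt E x₀).symm y)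
      (s ((chartAt E x₀).symm y)) : E)) ((chartAt E x₀).target ∩ (chartAt E x₀).symm ⁻¹' U) := by
  intro y hy
  have hx : (chartAt E x₀).symm y ∈ (chartAt E x₀).source := (chartAt E x₀).map_target hy.1
  have h1 := (charta_iff x₀ s hx).1 ((hs _ hy.2).mdifferentiableAt (hU.mem_nhds hy.2))
  have h2 := h1.comp y (mdifferentiableAt_atlas_symm (I := 𝓘(ℂ, E)) (chart_mem_atlas E x₀) hy.1)
  exact (mdifferentiableAt_iff_differentiableAt.1 h2).differentiableWithinAt

theorem holField_of_chart (x₀ : X) {t : E → E} {O : Set E} (hO : IsOpen O)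
    (ht : DifferentiableOn ℂ t O) :
    HolField (fun x : X => (mfderiv 𝓘(ℂ, E) 𝓘(ℂ, E) (chartAt E x₀).symm (chartAt E x₀ x)
      (t (chartAt E x₀ x)) : E)) ((chartAt E x₀).source ∩ chartAt E x₀ ⁻¹' O) := by
  intro x hx
  refine ((charta_iff x₀ _ hx.1).2 ?_).mdifferentiableWithinAt
  have h1 : MDifferentiableAt 𝓘(ℂ, E) 𝓘(ℂ, E) t (chartAt E x₀ x) :=
    mdifferentiableAt_iff_differentiableAt.2 (ht.differentiableAt (hO.mem_nhds hx.2))
  have h2 := h1.comp x (mdifferentiableAt_atlas (I := 𝓘(ℂ, E)) (chart_mem_atlas E x₀) hx.1)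
  refine h2.congr_of_eventuallyEq ?_
  filter_upwards [(chartAt E x₀).open_source.mem_nhds hx.1] with z hz
  have h3 := (mdifferentiable_chart (I := 𝓘(ℂ, E)) x₀).comp_symm_deriv
    ((chartAt E x₀).map_source hz)
  rw [(chartAt E x₀).left_inv hz] at h3
  exact DFunLike.congr_fun h3 (t (chartAt E x₀ z))

end Vale.Agent.P278
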