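import Vale.Agent.P278.ChartA
import Vale.Agent.P278.Osg2

/-!
P278 task ChartB: integrability in a chart.

Plan. `φ = chartAt E x₀`, `s' x = mfderiv φ.symm (φ x) (s (φ x))`, `t'` likewise; they are holomorphic on
`U = φ.source ∩ φ ⁻¹' O` (`holField_of_chart`) with values in `D`, so `mlieBracket s' t' x ∈ D x`. On
`φ.source`, `s' = VectorField.mpullback 𝓘(ℂ, E) 𝓘(ℂ, E) φ s` (the inverse of `mfderiv φ x` is
`mfderiv φ.symm (φ x)`: `ContinuousLinearMap.inverse_eq` / `IsInvertible`), and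
`VectorField.mpullback_mlieBracket` (with `f = φ`, `contMDiffAt_of_mem_maximalAtlas` or
`contMDiffOn_chart`, `n = ω` or `2`, `minSmoothness_of_isRCLikeNormedField`; `E` is complete) together with
`VectorField.mlieBracket_eq_lieBracket` and `Filter.EventuallyEq.mlieBracket_vectorField_eq` gives
`mlieBracket s' t' x = mfderiv φ.symm (φ x) (lieBracket ℂ s t (φ x))`. The differentiability of `s, t` as
sections of the tangent bundle of the vector space `E`: `mdifferentiableAt_section`,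
`trivializationAt_model_space_apply` (or `contMDiffAt_vectorSpace_iff_contDiffAt` with `osgood`).
Auxiliary names: start with `chartb_`.
-/

namespace Vale.Agent.P278

open scoped Manifold ContDiff Topology

theorem chartb_inv {E : Type*} [NormedAddCommGroup E] [NormedSpace ℂ E]
    {X : Type*} [TopologicalSpace X] [ChartedSpace E X]
    [IsManifold 𝓘(ℂ, E) ω X] (x₀ : X) {x : X} (hx : x ∈ (chartAt E x₀).source) :
    (mfderiv 𝓘(ℂ, E) 𝓘(ℂ, E) (chartAt E x₀) x).inverse =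
      mfderiv 𝓘(ℂ, E) 𝓘(ℂ, E) (chartAt E x₀).symm (chartAt E x₀ x) := by
  have hm : (chartAt E x₀).MDifferentiable 𝓘(ℂ, E) 𝓘(ℂ, E) := mdifferentiable_chart x₀
  have h1 := hm.symm_comp_deriv hx
  have h2 := hm.comp_symm_deriv ((chartAt E x₀).map_source hx)
  rw [(chartAt E x₀).left_inv hx] at h2
  exact ContinuousLinearMap.inverse_eq h2 h1

theorem chartb_sec {E : Type*} [NormedAddCommGroup E] [NormedSpace ℂ E]
    [FiniteDimensional ℂ E] {O : Set E} (hO : IsOpen O) {s : E → E}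
    (hs : DifferentiableOn ℂ s O) {y : E} (hy : y ∈ O) :
    MDifferentiableAt 𝓘(ℂ, E) 𝓘(ℂ, E).tangent
      (fun z : E => (⟨z, s z⟩ : TangentBundle 𝓘(ℂ, E) E)) y := by
  haveI : CompleteSpace E := FiniteDimensional.complete ℂ E
  have h1 : ContDiffAt ℂ 1 s y := (osgood hO hs y hy).contDiffAt
  have h2 : ContMDiffAt 𝓘(ℂ, E) 𝓘(ℂ, E).tangent 1
      (fun z : E => (⟨z, s z⟩ : TangentBundle 𝓘(ℂ, E) E)) y :=
    contMDiffAt_vectorSpace_iff_contDiffAt.2 h1
  exact h2.mdifferentiableAt one_ne_zero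

theorem IsIntegrable.chart {E : Type*} [NormedAddCommGroup E] [NormedSpace ℂ E]
    [FiniteDimensional ℂ E] {X : Type*} [TopologicalSpace X] [ChartedSpace E X]
    [IsManifold 𝓘(ℂ, E) ω X] {D : X → Submodule ℂ E} (hD : IsIntegrable (E := E) D) (x₀ : X)
    {O : Set E} (hO : IsOpen O) (hOt : O ⊆ (chartAt E x₀).target) {s t : E → E}
    (hs : DifferentiableOn ℂ s O) (ht : DifferentiableOn ℂ t O)
    (hsD : ∀ y ∈ O, (mfderiv 𝓘(ℂ, E) 𝓘(ℂ, E) (chartAt E x₀).symm y (s y) : E) ∈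
      D ((chartAt E x₀).symm y))
    (htD : ∀ y ∈ O, (mfderiv 𝓘(ℂ, E) 𝓘(ℂ, E) (chartAt E x₀).symm y (t y) : E) ∈
      D ((chartAt E x₀).symm y)) :
    ∀ y ∈ O, (mfderiv 𝓘(ℂ, E) 𝓘(ℂ, E) (chartAt E x₀).symm y
      (VectorField.lieBracket (E := E) ℂ s t y) : E) ∈ D ((chartAt E x₀).symm y) := by
  intro y hy
  haveI : CompleteSpace E := FiniteDimensional.complete ℂ E
  haveI : IsManifold 𝓘(ℂ, E) (minSmoothness ℂ 2) X := IsManifold.of_le (n := ω) le_top
  have hU : IsOpen ((chartAt E x₀).source ∩ chartAt E x₀ ⁻¹' O) :=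
    (chartAt E x₀).isOpen_inter_preimage hO
  have hxs : (chartAt E x₀).symm y ∈ (chartAt E x₀).source := (chartAt E x₀).map_target (hOt hy)
  have hr : chartAt E x₀ ((chartAt E x₀).symm y) = y := (chartAt E x₀).right_inv (hOt hy)
  have hxU : (chartAt E x₀).symm y ∈ (chartAt E x₀).source ∩ chartAt E x₀ ⁻¹' O :=
    ⟨hxs, by rw [Set.mem_preimage, hr]; exact hy⟩
  have key := hD _ hU _ _ (holField_of_chart x₀ hO hs) (holField_of_chart x₀ hO ht)
    (fun x hx => by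
      have h := hsD _ hx.2
      rw [(chartAt E x₀).left_inv hx.1] at h
      exact h)
    (fun x hx => by
      have h := htD _ hx.2
      rw [(chartAt E x₀).left_inv hx.1] at h
      exact h) _ hxU
  have ev : ∀ u : E → E, (fun x : X => (mfderiv 𝓘(ℂ, E) 𝓘(ℂ, E) (chartAt E x₀).symm
      (chartAt E x₀ x) (u (chartAt E x₀ x)) : E)) =ᶠ[𝓝 ((chartAt E x₀).symm y)]
      VectorField.mpullback 𝓘(ℂ, E) 𝓘(ℂ, E) (chartAt E x₀) u := fun u => by
    filter_upwards [(chartAt E x₀).open_source.mem_nhds hxs] with x hx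
    show _ = (mfderiv 𝓘(ℂ, E) 𝓘(ℂ, E) (chartAt E x₀) x).inverse (u (chartAt E x₀ x))
    rw [chartb_inv x₀ hx]
    rfl
  have e1 := Filter.EventuallyEq.mlieBracket_vectorField_eq (I := 𝓘(ℂ, E)) (ev s) (ev t)
  have hc : ContMDiffAt 𝓘(ℂ, E) 𝓘(ℂ, E) ω (chartAt E x₀) ((chartAt E x₀).symm y) :=
    (contMDiffOn_chart (I := 𝓘(ℂ, E)) (n := ω) (x := x₀)).contMDiffAt
      ((chartAt E x₀).open_source.mem_nhds hxs)
  have hy' : chartAt E x₀ ((chartAt E x₀).symm y) ∈ O := hxU.2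
  have e2 := VectorField.mpullback_mlieBracket (I := 𝓘(ℂ, E)) (I' := 𝓘(ℂ, E))
    (f := chartAt E x₀) (V := s) (W := t) (x₀ := (chartAt E x₀).symm y)
    (chartb_sec hO hs hy') (chartb_sec hO ht hy') hc le_top
  have e3 : VectorField.mlieBracket 𝓘(ℂ, E) s t = VectorField.lieBracket (E := E) ℂ s t := by
    have a1 := VectorField.mlieBracketWithin_univ (I := 𝓘(ℂ, E)) (M := E) (V := s) (W := t)
    have a2 := VectorField.mlieBracketWithin_eq_lieBracketWithin (𝕜 := ℂ) (E := E) (V := s)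
      (W := t) (s := Set.univ)
    have a3 := VectorField.lieBracketWithin_univ (𝕜 := ℂ) (E := E) (V := s) (W := t)
    exact (a1.symm.trans a2).trans a3
  have k2 := (e1.trans e2.symm) ▸ key
  have k3 : ((mfderiv 𝓘(ℂ, E) 𝓘(ℂ, E) (chartAt E x₀) ((chartAt E x₀).symm y)).inverse
      (VectorField.mlieBracket 𝓘(ℂ, E) s t (chartAt E x₀ ((chartAt E x₀).symm y))) : E) ∈
      D ((chartAt E x₀).symm y) := k2
  rw [chartb_inv x₀ hxs, e3] at k3
  have k4 : ∀ z : E, z = y → (mfderiv 𝓘(ℂ, E) 𝓘(ℂ, E) (chartAt E x₀).symm z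
      (VectorField.lieBracket (E := E) ℂ s t z) : E) ∈ D ((chartAt E x₀).symm y) →
      (mfderiv 𝓘(ℂ, E) 𝓘(ℂ, E) (chartAt E x₀).symm y
      (VectorField.lieBracket (E := E) ℂ s t y) : E) ∈ D ((chartAt E x₀).symm y) := by
    intro z hz h
    subst hz
    exact h
  exact k4 _ hr k3

end Vale.Agent.P278
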