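import Vale.Agent.P278.Step

/-!
P278 task Cone: a thick cone with vertex at the corner maps into a small ball of one good chart.

Plan. `L = 48 Λ³`, `η = min δ₁ (δ/2) / (Λ (6 (L + 4) + 1))`. Apply `hSD` with `η`, `4 L²`, `K₀ = 3` to get
`K', d₁`; put `K = 2K'`, `ρ₀ = K' d₁ / 4`. Then the hypothesis `hη` of `Ctx.step` holds (`K' σ ≤ ‖v‖ ≤ 2ρ₀`
forces `σ < d₁`), and by induction on `n` with `Ctx.step`: `‖v‖ m (pt v σ) ≤ η / 2^n` whenever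
`‖v‖ ≤ ρ₀ / L^n`, `K σ ≤ ‖v‖ ≤ K L² σ`. Let `P v = pt v (‖v‖/(2K))`, `x = c.Q (P ρ₀)`.
Cone path lemma: if `‖v₁‖ ≤ ρ₀/L^n`, `‖v₁‖/L ≤ ‖v₂‖ ≤ ‖v₁‖`, `v₁ ≠ 0`, `P v₁` is in the source with
displacement `≤ A` from the centre and `A + Λ 2(L+4) η/2^n < δ`, then `P v₂` is in the source with
displacement `≤ A + Λ 2(L+4) η/2^n`: `Ctx.escape` along `γ t = pt (v₁ exp (t k)) (‖v₁‖ exp (t k.re)/(2K))`,
`k = Complex.log (v₂/v₁)`, `‖k‖ ≤ L + 4`, `‖γ' t‖ ≤ 2 ‖k‖ ‖v₁ exp (t k)‖`.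
By induction `P (ρ₀/L^n)` has displacement `≤ 4Λ(L+4)η (1 - 1/2^n)`. For `0 < ‖u‖ ≤ ρ₀` choose `n` with
`ρ₀/L^(n+1) ≤ ‖u‖ ≤ ρ₀/L^n` (`exists_nat_pow_near`-like, or `Nat.find`), use the cone path lemma once more,
then `Ctx.escape_seg` from `P u` in direction `(0, -(s - ‖u‖/(2K)))` with `μ = η`.
Auxiliary names: start with `cone_`.
-/

namespace Vale.Agent.P278

open Set

theorem cone_log {v₁ v₂ : ℂ} {L : ℝ} (hL : 1 ≤ L) (h0 : v₁ ≠ 0) (h2 : ‖v₁‖ / L ≤ ‖v₂‖)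
    (h3 : ‖v₂‖ ≤ ‖v₁‖) : ∃ k : ℂ, v₁ * Complex.exp k = v₂ ∧ k.re ≤ 0 ∧ ‖k‖ ≤ L + 4 := by
  have hn : 0 < ‖v₁‖ := norm_pos_iff.2 h0
  have hL0 : 0 < L := by linarith
  have hn2 : 0 < ‖v₂‖ := lt_of_lt_of_le (by positivity) h2
  have h02 : v₂ ≠ 0 := norm_pos_iff.1 hn2
  have hre : (Complex.log (v₂ / v₁)).re = Real.log (‖v₂‖ / ‖v₁‖) := by
    rw [Complex.log_re, norm_div]
  have h4 : Real.log (‖v₂‖ / ‖v₁‖) ≤ 0 :=
    Real.log_nonpos (by positivity) ((div_le_one hn).2 h3)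
  have h5 : -L ≤ Real.log (‖v₂‖ / ‖v₁‖) := by
    have h6 : L⁻¹ ≤ ‖v₂‖ / ‖v₁‖ := by
      rw [le_div_iff₀ hn, mul_comm, ← div_eq_mul_inv]
      exact h2
    have h7 := Real.log_le_log (by positivity) h6
    rw [Real.log_inv] at h7
    have h8 := Real.log_le_sub_one_of_pos hL0
    linarith
  refine ⟨Complex.log (v₂ / v₁), ?_, by rw [hre]; exact h4, ?_⟩
  · rw [Complex.exp_log (div_ne_zero h02 h0)]
    field_simp
  · refine (Complex.norm_le_abs_re_add_abs_im _).trans ?_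
    have h9 : |(Complex.log (v₂ / v₁)).im| ≤ Real.pi := by
      rw [Complex.log_im]
      exact Complex.abs_arg_le_pi _
    rw [hre, abs_of_nonpos h4]
    linarith [Real.pi_le_four]

theorem cone_path {X V : Type*} [TopologicalSpace X] [T2Space X] [NormedAddCommGroup V]
    [NormedSpace ℂ V] [FiniteDimensional ℂ V] (c : Ctx X V) {K L ρ τ A : ℝ} {x : X} (hK : 1 ≤ K)
    (hL : 1 ≤ L)
    (hP : ∀ w : ℂ, w ≠ 0 → ‖w‖ ≤ ρ →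
      pt w (‖w‖ / (2 * K)) ∈ c.D ∧ ‖w‖ * c.m (pt w (‖w‖ / (2 * K))) ≤ τ)
    {v₁ v₂ : ℂ} (h0 : v₁ ≠ 0) (h1 : ‖v₁‖ ≤ ρ) (h2 : ‖v₁‖ / L ≤ ‖v₂‖) (h3 : ‖v₂‖ ≤ ‖v₁‖)
    (hs : c.Q (pt v₁ (‖v₁‖ / (2 * K))) ∈ (c.ch x).source)
    (hA : ‖c.ch x (c.Q (pt v₁ (‖v₁‖ / (2 * K)))) - c.ch x x‖ ≤ A)
    (hδ : A + c.Λ * (2 * (L + 4) * τ) < c.δ) :
    c.Q (pt v₂ (‖v₂‖ / (2 * K))) ∈ (c.ch x).source ∧
      ‖c.ch x (c.Q (pt v₂ (‖v₂‖ / (2 * K)))) - c.ch x x‖ ≤ A + c.Λ * (2 * (L + 4) * τ) := by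
  obtain ⟨k, hk1, hk2, hk3⟩ := cone_log hL h0 h2 h3
  let w : ℝ → ℂ := fun t => v₁ * Complex.exp (t * k)
  have hw : ∀ t : ℝ, ‖w t‖ = ‖v₁‖ * Real.exp (t * k.re) := fun t => by
    simp only [w, norm_mul, Complex.norm_exp, Complex.re_ofReal_mul]
  have hw0 : w 0 = v₁ := by simp [w]
  have hw1 : w 1 = v₂ := by simp [w, hk1]
  have hγ : ∀ t ∈ Icc (0 : ℝ) 1, HasDerivAt (fun t => pt (w t) (‖w t‖ / (2 * K)))
      ((fun t => ((w t * k, -(w t * k) - ((‖w t‖ * k.re / (2 * K) : ℝ) : ℂ)) : ℂ × ℂ)) t) t ∧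
      (fun t => pt (w t) (‖w t‖ / (2 * K))) t ∈ c.D ∧
      ‖(fun t => ((w t * k, -(w t * k) - ((‖w t‖ * k.re / (2 * K) : ℝ) : ℂ)) : ℂ × ℂ)) t‖ *
        c.m ((fun t => pt (w t) (‖w t‖ / (2 * K))) t) ≤ 2 * (L + 4) * τ := by
    intro t ht
    have hne : w t ≠ 0 := mul_ne_zero h0 (Complex.exp_ne_zero _)
    have hle : ‖w t‖ ≤ ρ := by
      rw [hw t]
      have : Real.exp (t * k.re) ≤ 1 :=
        Real.exp_le_one_iff.2 (mul_nonpos_of_nonneg_of_nonpos ht.1 hk2)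
      nlinarith [norm_nonneg v₁]
    obtain ⟨q1, q2⟩ := hP (w t) hne hle
    refine ⟨?_, q1, ?_⟩
    · have d1 : HasDerivAt w (w t * k) t := by
        have := (((hasDerivAt_id t).ofReal_comp.mul_const k).cexp).const_mul v₁
        simp only [id, Complex.ofReal_one, one_mul] at this
        rw [show w t * k = v₁ * (Complex.exp (t * k) * k) from mul_assoc _ _ _]
        exact this
      have d2 : HasDerivAt (fun t => ‖w t‖ / (2 * K)) (‖w t‖ * k.re / (2 * K)) t := by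
        have := ((((hasDerivAt_id t).mul_const k.re).exp).const_mul ‖v₁‖).div_const (2 * K)
        simp only [id, one_mul] at this
        simp only [hw, mul_assoc]
        exact this
      exact d1.prodMk (d1.neg.sub d2.ofReal_comp)
    · have b1 : ‖w t * k‖ ≤ (L + 4) * ‖w t‖ := by
        rw [norm_mul, mul_comm]
        exact mul_le_mul_of_nonneg_right hk3 (norm_nonneg _)
      have b2 : ‖((‖w t‖ * k.re / (2 * K) : ℝ) : ℂ)‖ ≤ (L + 4) * ‖w t‖ := by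
        rw [Complex.norm_real, Real.norm_eq_abs, abs_div, abs_mul, abs_norm,
          abs_of_pos (by linarith : (0 : ℝ) < 2 * K)]
        have e1 : |k.re| ≤ L + 4 := (Complex.abs_re_le_norm k).trans hk3
        have e2 : ‖w t‖ * |k.re| ≤ (L + 4) * ‖w t‖ := by
          rw [mul_comm]
          exact mul_le_mul_of_nonneg_right e1 (norm_nonneg _)
        exact (div_le_self (by positivity) (by linarith)).trans e2
      have b3 : ‖((w t * k, -(w t * k) - ((‖w t‖ * k.re / (2 * K) : ℝ) : ℂ)) : ℂ × ℂ)‖ ≤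
          2 * (L + 4) * ‖w t‖ := by
        have e0 : 0 ≤ (L + 4) * ‖w t‖ := by positivity
        rw [Prod.norm_mk]
        refine max_le (by linarith) ((norm_sub_le _ _).trans ?_)
        rw [norm_neg]
        linarith
      calc _ ≤ 2 * (L + 4) * ‖w t‖ * c.m (pt (w t) (‖w t‖ / (2 * K))) :=
            mul_le_mul_of_nonneg_right b3 (c.mnn _)
        _ = 2 * (L + 4) * (‖w t‖ * c.m (pt (w t) (‖w t‖ / (2 * K)))) := by ring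
        _ ≤ 2 * (L + 4) * τ := mul_le_mul_of_nonneg_left q2 (by positivity)
  have key := c.escape (x := x) hγ (by simpa only [hw0] using hs)
    (by simp only [hw0]; linarith) 1 ⟨zero_le_one, le_rfl⟩
  simp only [hw0, hw1] at key
  refine ⟨key.1, ?_⟩
  have := norm_sub_le_norm_sub_add_norm_sub (c.ch x (c.Q (pt v₂ (‖v₂‖ / (2 * K)))))
    (c.ch x (c.Q (pt v₁ (‖v₁‖ / (2 * K))))) (c.ch x x)
  linarith [key.2]

theorem cone_seg {X V : Type*} [TopologicalSpace X] [T2Space X] [NormedAddCommGroup V]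
    [NormedSpace ℂ V] [FiniteDimensional ℂ V] (c : Ctx X V) {K L ρ₀ η A : ℝ} {x : X} (hK : 1 ≤ K)
    (hL2 : 2 ≤ L ^ 2)
    (hη : ∀ (v : ℂ) (σ : ℝ), 0 < σ → ‖v‖ ≤ 2 * ρ₀ → K / 2 * σ ≤ ‖v‖ →
      ‖v‖ ≤ 2 * K * L ^ 2 * σ → pt v σ ∈ c.D ∧ ‖v‖ * c.m (pt v σ) ≤ η)
    {u : ℂ} {s : ℝ} (hs : 0 < s) (h1 : ‖u‖ ≤ ρ₀) (h2 : K * s ≤ ‖u‖) (h3 : ‖u‖ ≤ 4 * K * s)
    (b1 : c.Q (pt u (‖u‖ / (2 * K))) ∈ (c.ch x).source)
    (b2 : ‖c.ch x (c.Q (pt u (‖u‖ / (2 * K)))) - c.ch x x‖ ≤ A) (hδ : A + c.Λ * η < c.δ) :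
    pt u s ∈ c.D ∧ c.Q (pt u s) ∈ (c.ch x).source ∧
      ‖c.ch x (c.Q (pt u s)) - c.ch x x‖ ≤ A + c.Λ * η := by
  have hKs : 0 < K * s := by positivity
  have hu : 0 < ‖u‖ := by linarith
  obtain ⟨σ₀, hσ⟩ : ∃ σ₀ : ℝ, σ₀ = ‖u‖ / (2 * K) := ⟨_, rfl⟩
  rw [← hσ] at b1 b2
  have e0 : 0 < σ₀ := by rw [hσ]; positivity
  have e1 : K * σ₀ = ‖u‖ / 2 := by rw [hσ]; field_simp
  have e2 : σ₀ ≤ K * σ₀ := le_mul_of_one_le_left e0.le hK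
  have e3 : s ≤ K * s := le_mul_of_one_le_left hs.le hK
  have hpt : ∀ t : ℝ, pt u σ₀ + t • (((0 : ℂ), -((s - σ₀ : ℝ) : ℂ)) : ℂ × ℂ) =
      pt u (σ₀ + t * (s - σ₀)) := fun t => by
    refine Prod.ext (by simp [pt]) ?_
    simp only [pt, Prod.snd_add, Prod.smul_snd, Complex.real_smul]
    push_cast
    ring
  have hγ : ∀ t ∈ Icc (0 : ℝ) 1,
      pt u σ₀ + t • (((0 : ℂ), -((s - σ₀ : ℝ) : ℂ)) : ℂ × ℂ) ∈ c.D ∧
      ‖(((0 : ℂ), -((s - σ₀ : ℝ) : ℂ)) : ℂ × ℂ)‖ *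
        c.m (pt u σ₀ + t • (((0 : ℂ), -((s - σ₀ : ℝ) : ℂ)) : ℂ × ℂ)) ≤ η := by
    intro t ht
    rw [hpt t]
    have f0 : K * (σ₀ + t * (s - σ₀)) = (1 - t) * (K * σ₀) + t * (K * s) := by ring
    have f1 : K * (σ₀ + t * (s - σ₀)) ≤ ‖u‖ := by
      rw [f0, e1]
      nlinarith [ht.1, ht.2]
    have f2 : ‖u‖ ≤ 4 * (K * (σ₀ + t * (s - σ₀))) := by
      rw [f0, e1]
      nlinarith [ht.1, ht.2]
    have f3 : 0 < K * (σ₀ + t * (s - σ₀)) := by linarith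
    have f4 : 0 < σ₀ + t * (s - σ₀) := (pos_iff_pos_of_mul_pos f3).1 (by linarith)
    have f5 := mul_le_mul_of_nonneg_right hL2 f3.le
    obtain ⟨g1, g2⟩ := hη u _ f4 (by linarith) (by linarith) (by linarith)
    refine ⟨g1, le_trans (mul_le_mul_of_nonneg_right ?_ (c.mnn _)) g2⟩
    rw [Prod.norm_mk, norm_zero, norm_neg, Complex.norm_real, Real.norm_eq_abs]
    refine max_le hu.le (abs_le.2 ⟨?_, ?_⟩) <;> linarith
  have key := c.escape_seg (x := x) hγ b1 (by linarith) 1 ⟨zero_le_one, le_rfl⟩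
  have hs1 : σ₀ + 1 * (s - σ₀) = s := by ring
  have hD := (hγ 1 ⟨zero_le_one, le_rfl⟩).1
  rw [hpt 1, hs1] at key hD
  refine ⟨hD, key.1, ?_⟩
  have := norm_sub_le_norm_sub_add_norm_sub (c.ch x (c.Q (pt u s)))
    (c.ch x (c.Q (pt u σ₀))) (c.ch x x)
  linarith [key.2]

theorem Ctx.cone {X V : Type*} [TopologicalSpace X] [T2Space X] [NormedAddCommGroup V]
    [NormedSpace ℂ V] [FiniteDimensional ℂ V] (c : Ctx X V) (hSD : c.SD) {δ₁ : ℝ} (hδ₁ : 0 < δ₁) :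
    ∃ (x : X) (K ρ₀ d₁ : ℝ), 3 ≤ K ∧ 0 < ρ₀ ∧ 0 < d₁ ∧
      (∀ s ∈ Ioo 0 d₁, ∀ u : ℂ, ‖u‖ ≤ 4 * K * s → pt u s ∈ c.D) ∧
      ∀ (u : ℂ) (s : ℝ), 0 < s → ‖u‖ ≤ ρ₀ → K * s ≤ ‖u‖ → ‖u‖ ≤ 4 * K * s →
        pt u s ∈ c.D ∧ c.Q (pt u s) ∈ (c.ch x).source ∧
          ‖c.ch x (c.Q (pt u s)) - c.ch x x‖ ≤ δ₁ := by
  have hΛ := c.Λge
  have hδ := c.δpos
  obtain ⟨L, hLd⟩ : ∃ L : ℝ, L = 48 * c.Λ ^ 3 := ⟨_, rfl⟩
  have hL : 48 ≤ L := by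
    have : 1 ≤ c.Λ ^ 3 := one_le_pow₀ hΛ
    linarith
  have hL2 : 2 ≤ L ^ 2 := by nlinarith
  obtain ⟨η, hη0, hη1, hη2⟩ : ∃ η : ℝ, 0 < η ∧ c.Λ * (4 * (L + 4) + 1) * η ≤ δ₁ ∧
      c.Λ * (4 * (L + 4) + 1) * η < c.δ := by
    have hp : 0 < c.Λ * (4 * (L + 4) + 1) := by positivity
    refine ⟨min δ₁ (c.δ / 2) / (c.Λ * (4 * (L + 4) + 1)), by positivity, ?_, ?_⟩
    · rw [mul_div_cancel₀ _ hp.ne']
      exact min_le_left _ _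
    · rw [mul_div_cancel₀ _ hp.ne']
      linarith [min_le_right δ₁ (c.δ / 2)]
  obtain ⟨K', hK3, hK0, d₁, hd₁, hsd⟩ := hSD η hη0 (4 * L ^ 2) (by linarith) 3
  obtain ⟨K, hKd⟩ : ∃ K : ℝ, K = 2 * K' := ⟨_, rfl⟩
  obtain ⟨ρ₀, hρd⟩ : ∃ ρ₀ : ℝ, ρ₀ = K' * d₁ / 4 := ⟨_, rfl⟩
  have hK : 6 ≤ K := by linarith
  have hρ : 0 < ρ₀ := by rw [hρd]; positivity
  have hη : ∀ (v : ℂ) (σ : ℝ), 0 < σ → ‖v‖ ≤ 2 * ρ₀ → K / 2 * σ ≤ ‖v‖ →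
      ‖v‖ ≤ 2 * K * L ^ 2 * σ → pt v σ ∈ c.D ∧ ‖v‖ * c.m (pt v σ) ≤ η := by
    intro v σ h1 h2 h3 h4
    have h5 : K' * σ ≤ ‖v‖ := by rw [hKd] at h3; linarith
    have h6 : σ < d₁ := by
      have : K' * σ < K' * d₁ := by
        have : 0 < K' * d₁ := by positivity
        rw [hρd] at h2
        linarith
      exact lt_of_mul_lt_mul_left this hK0.le
    have := hsd σ ⟨h1, h6⟩ v (by rw [hKd] at h4; linarith)
    exact ⟨this.1, this.2 h5⟩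
  have hΛη : 0 < c.Λ * η := by positivity
  have hΛη' : 0 < c.Λ * (L + 4) * η := by positivity
  have hpow : ∀ n : ℕ, ρ₀ / L ^ n ≤ ρ₀ := fun n =>
    div_le_self hρ.le (one_le_pow₀ (by linarith))
  have dec : ∀ n : ℕ, ∀ (v : ℂ) (σ : ℝ), 0 < σ → ‖v‖ ≤ ρ₀ / L ^ n → K * σ ≤ ‖v‖ →
      ‖v‖ ≤ K * L ^ 2 * σ → ‖v‖ * c.m (pt v σ) ≤ η / 2 ^ n := by
    intro n
    induction n with
    | zero =>
      intro v σ h1 h2 h3 h4
      have e1 : 0 < K * σ := by positivity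
      have e2 : 0 < K * L ^ 2 * σ := by positivity
      rw [pow_zero, div_one] at h2 ⊢
      exact (hη v σ h1 (by linarith) (by linarith) (by linarith)).2
    | succ n ih =>
      intro v σ h1 h2 h3 h4
      rw [pow_succ, ← div_div] at h2 ⊢
      exact c.step (by linarith) hLd.ge (by linarith) (hpow n) (by positivity) hη ih h1 h2 h3 h4
  have hP : ∀ n : ℕ, ∀ w : ℂ, w ≠ 0 → ‖w‖ ≤ ρ₀ / L ^ n →
      pt w (‖w‖ / (2 * K)) ∈ c.D ∧ ‖w‖ * c.m (pt w (‖w‖ / (2 * K))) ≤ η / 2 ^ n := by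
    intro n w h0 h1
    have hn : 0 < ‖w‖ := norm_pos_iff.2 h0
    have e0 : 0 < ‖w‖ / (2 * K) := by positivity
    have e1 : K * (‖w‖ / (2 * K)) = ‖w‖ / 2 := by field_simp
    have e2 : ‖w‖ ≤ K * L ^ 2 * (‖w‖ / (2 * K)) := by
      have : K * L ^ 2 * (‖w‖ / (2 * K)) = L ^ 2 * (‖w‖ / 2) := by rw [← e1]; ring
      rw [this]
      nlinarith
    exact ⟨(hη w _ e0 (by linarith [hpow n]) (by linarith) (by linarith)).1,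
      dec n w _ e0 h1 (by linarith) e2⟩
  have hnr : ∀ n : ℕ, ‖((ρ₀ / L ^ n : ℝ) : ℂ)‖ = ρ₀ / L ^ n := fun n => by
    rw [Complex.norm_real, Real.norm_eq_abs, abs_of_pos (by positivity)]
  obtain ⟨x, hx⟩ : ∃ x : X,
      x = c.Q (pt ((ρ₀ / L ^ 0 : ℝ) : ℂ) (‖((ρ₀ / L ^ 0 : ℝ) : ℂ)‖ / (2 * K))) := ⟨_, rfl⟩
  have next : ∀ n : ℕ,
      (c.Q (pt ((ρ₀ / L ^ n : ℝ) : ℂ) (‖((ρ₀ / L ^ n : ℝ) : ℂ)‖ / (2 * K))) ∈ (c.ch x).source ∧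
      ‖c.ch x (c.Q (pt ((ρ₀ / L ^ n : ℝ) : ℂ) (‖((ρ₀ / L ^ n : ℝ) : ℂ)‖ / (2 * K)))) -
        c.ch x x‖ ≤ 4 * (c.Λ * (L + 4) * η) * (1 - 1 / 2 ^ n)) →
      ∀ u : ℂ, ρ₀ / L ^ (n + 1) ≤ ‖u‖ → ‖u‖ ≤ ρ₀ / L ^ n →
        c.Q (pt u (‖u‖ / (2 * K))) ∈ (c.ch x).source ∧
        ‖c.ch x (c.Q (pt u (‖u‖ / (2 * K)))) - c.ch x x‖ ≤
          4 * (c.Λ * (L + 4) * η) * (1 - 1 / 2 ^ (n + 1)) := by
    intro n hn u h1 h2
    have e : 4 * (c.Λ * (L + 4) * η) * (1 - 1 / 2 ^ n) + c.Λ * (2 * (L + 4) * (η / 2 ^ n)) =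
        4 * (c.Λ * (L + 4) * η) * (1 - 1 / 2 ^ (n + 1)) := by
      field_simp
      ring
    have e' : 4 * (c.Λ * (L + 4) * η) * (1 - 1 / 2 ^ (n + 1)) < c.δ := by
      have : 0 < 4 * (c.Λ * (L + 4) * η) * (1 / 2 ^ (n + 1)) := by positivity
      linarith
    rw [← e]
    refine cone_path c (by linarith) (by linarith) (hP n) ?_ (hnr n).le ?_ ?_ hn.1 hn.2
      (by rw [e]; exact e')
    · rw [← norm_pos_iff, hnr]
      positivity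
    · rw [hnr, div_div, ← pow_succ]
      exact h1
    · rw [hnr]
      exact h2
  have ind : ∀ n : ℕ,
      c.Q (pt ((ρ₀ / L ^ n : ℝ) : ℂ) (‖((ρ₀ / L ^ n : ℝ) : ℂ)‖ / (2 * K))) ∈ (c.ch x).source ∧
      ‖c.ch x (c.Q (pt ((ρ₀ / L ^ n : ℝ) : ℂ) (‖((ρ₀ / L ^ n : ℝ) : ℂ)‖ / (2 * K)))) -
        c.ch x x‖ ≤ 4 * (c.Λ * (L + 4) * η) * (1 - 1 / 2 ^ n) := by
    intro n
    induction n with
    | zero =>
      rw [← hx]
      exact ⟨c.mem x, by simp⟩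
    | succ n ih =>
      refine next n ih _ (hnr _).ge ?_
      rw [hnr, pow_succ, ← div_div]
      exact div_le_self (by positivity) (by linarith)
  refine ⟨x, K, ρ₀, d₁, by linarith, hρ, hd₁, fun s hs u hu => ?_, fun u s hs h1 h2 h3 => ?_⟩
  · refine (hsd s hs u (hu.trans ?_)).1
    have : 0 < K' * s := mul_pos hK0 hs.1
    rw [hKd]
    nlinarith
  · have hKs : 0 < K * s := by positivity
    have hu : 0 < ‖u‖ := by linarith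
    obtain ⟨n, hn1, hn2⟩ := exists_nat_pow_near ((one_le_div hu).2 h1) (show 1 < L by linarith)
    have a1 : ‖u‖ ≤ ρ₀ / L ^ n := by
      rw [le_div_iff₀ (by positivity)]
      rw [le_div_iff₀ hu] at hn1
      linarith
    have a2 : ρ₀ / L ^ (n + 1) ≤ ‖u‖ := by
      rw [div_le_iff₀ (by positivity)]
      rw [div_lt_iff₀ hu] at hn2
      linarith
    obtain ⟨b1, b2⟩ := next n (ind n) u a2 a1
    have b3 : 0 < 4 * (c.Λ * (L + 4) * η) * (1 / 2 ^ (n + 1)) := by positivity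
    obtain ⟨c1, c2, c3⟩ := cone_seg c (by linarith) hL2 hη hs h1 h2 h3 b1 b2 (by linarith)
    exact ⟨c1, c2, by linarith⟩

end Vale.Agent.P278
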