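import Mathlib

/-!
P278 task Cont: abstract monodromy theorem (continuation of germs on a simply connected space).

Plan. Let `T = {e : (x : A) × Filter.Germ (𝓝 x) Y // ∃ s, Adm s e.1 ∧ e.2 = ↑s}` with projection
`π : T → A`. Topology on `T`: `O` is open iff for all `x s` (with `Adm s x`, `⟨x, ↑s⟩ ∈ O`)
`∀ᶠ y in 𝓝 x, ∀ h : Adm s y, ⟨y, ↑s⟩ ∈ O` (note `Adm s x → ∀ᶠ y in 𝓝 x, Adm s y` by `hloc` and
`hgerm`). For `c` with its open set `N`, and each `t` in the fibre over `c` choose `S t` with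
`↑(S t) = t` at `c` and `Adm (S t)` on `N`; the sheets `{⟨y, ↑(S t)⟩ | y ∈ N}` are open, pairwise
disjoint, cover `π ⁻¹' N`, and `π` maps each homeomorphically onto `N`. So `π` is a covering map
(`IsOpen.trivializationDiscrete` with `IsCoveringMap.mk`, or build `IsEvenlyCovered` by hand; an empty
fibre over `c` gives `π ⁻¹' N = ∅`, `IsEvenlyCovered.of_preimage_eq_empty`). Lift `id` through `π` by
`IsCoveringMap.existsUnique_continuousMap_lifts` to a continuous section `σ` with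
`σ x₀ = ⟨x₀, ↑s₀⟩`, and set `s x = Filter.Germ.value (σ x).2` (transport along `π (σ x) = x`; it may be
easier to use `T = A × (A → Y)` modulo a `Setoid`, or to define `s x = (rep (σ x)) x`). Near `x`,
`σ y` lies in the open sheet through `σ x`, so `s = S t` near `x`.
Any other proof (for instance `IsLocalHomeomorph.existsUnique_continuousMap_lifts`) is welcome.
Auxiliary names: start with `cont_`.
-/

namespace Vale.Agent.P278

open scoped Topology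

/-- The topology on a space of germs `E`; `R e s` says that `s` represents `e`. -/
abbrev cont_top {A Y E : Type*} [TopologicalSpace A] (p : E → A)
    (R : E → (A → Y) → Prop) : TopologicalSpace E where
  IsOpen O := ∀ e ∈ O, ∀ s, R e s → ∀ᶠ y in 𝓝 (p e), ∀ e', p e' = y → R e' s → e' ∈ O
  isOpen_univ := fun _ _ _ _ => .of_forall fun _ _ _ _ => trivial
  isOpen_inter := fun _ _ h h' e he s hs => ((h e he.1 s hs).and (h' e he.2 s hs)).mono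
    fun _ hy e' h1 h2 => ⟨hy.1 e' h1 h2, hy.2 e' h1 h2⟩
  isOpen_sUnion := fun _ h e ⟨O, hO, he⟩ s hs => (h O hO e he s hs).mono
    fun _ hy e' h1 h2 => ⟨O, hO, hy e' h1 h2⟩

theorem cont_core {A Y E : Type*} [TopologicalSpace A] [SimplyConnectedSpace A]
    [LocallyPathConnectedSpace A] (Adm : (A → Y) → A → Prop)
    (hgerm : ∀ s s' x, s =ᶠ[𝓝 x] s' → Adm s x → Adm s' x)
    (hloc : ∀ c, ∃ N, IsOpen N ∧ c ∈ N ∧
      (∀ x ∈ N, ∀ s, Adm s x → ∃ s', s' =ᶠ[𝓝 x] s ∧ ∀ y ∈ N, Adm s' y) ∧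
      ∀ s s', (∀ y ∈ N, Adm s y) → (∀ y ∈ N, Adm s' y) → ∀ x ∈ N, s =ᶠ[𝓝 x] s' →
        ∀ y ∈ N, s =ᶠ[𝓝 y] s')
    (p : E → A) (R : E → (A → Y) → Prop) (ha : ∀ e, ∃ s, R e s ∧ Adm s (p e))
    (hc : ∀ e s s', R e s → (R e s' ↔ s' =ᶠ[𝓝 (p e)] s))
    (hd : ∀ e e' s, p e = p e' → R e s → R e' s → e = e')
    (he : ∀ s x, Adm s x → ∃ e, p e = x ∧ R e s)
    {s₀ : A → Y} {x₀ : A} (h₀ : Adm s₀ x₀) : ∃ s, s =ᶠ[𝓝 x₀] s₀ ∧ ∀ x, Adm s x := by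
  let _ := cont_top p R
  obtain ⟨e₀, h1, h2⟩ := he s₀ x₀ h₀
  have : Nonempty (A → E) := ⟨fun _ => e₀⟩
  have op : ∀ S W, IsOpen W → IsOpen (p ⁻¹' W ∩ {e | R e S}) := fun S W hW e h s hs =>
    (((hc e s S hs).1 h.2).eventuallyEq_nhds.and (hW.mem_nhds h.1)).mono fun y hy e' h3 h4 => by
      subst h3
      exact ⟨hy.2, (hc e' s S h4).2 hy.1⟩
  have cov : IsCoveringMap p := by
    intro c
    obtain ⟨N, hN, hcN, n1, n2⟩ := hloc c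
    obtain ⟨ι, S, s1, s2, s3⟩ : ∃ (ι : Type _) (S : ι → A → Y), (∀ i, ∀ y ∈ N, Adm (S i) y) ∧
        (∀ i j, S i =ᶠ[𝓝 c] S j → i = j) ∧ ∀ s, Adm s c → ∃ i, S i =ᶠ[𝓝 c] s := by
      have h3 : ∀ t : {t : E // p t = c}, ∃ S, R t S ∧ ∀ y ∈ N, Adm S y := fun t => by
        obtain ⟨s, h3, h4⟩ := ha t
        obtain ⟨S, h5, h6⟩ := n1 _ (t.2.symm ▸ hcN) s h4
        exact ⟨S, (hc _ _ _ h3).2 h5, h6⟩
      choose S h4 h5 using h3
      refine ⟨_, S, h5, fun i j h => Subtype.ext (hd _ _ (S i) (i.2.trans j.2.symm) (h4 i)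
        ((hc _ _ _ (h4 j)).2 (j.2.symm ▸ h))), fun s hs => ?_⟩
      obtain ⟨t, rfl, h7⟩ := he s c hs
      exact ⟨⟨t, rfl⟩, (hc _ _ _ h7).1 (h4 ⟨t, rfl⟩)⟩
    have ex : p ⁻¹' N ⊆ ⋃ i, p ⁻¹' N ∩ {e | R e (S i)} := fun e h => by
      obtain ⟨s, h3, h4⟩ := ha e
      obtain ⟨s', h5, h6⟩ := n1 _ h s h4
      obtain ⟨i, h7⟩ := s3 s' (h6 c hcN)
      exact Set.mem_iUnion.2 ⟨i, h, (hc _ _ _ h3).2 ((n2 _ _ (s1 i) h6 c hcN h7 _ h).trans h5)⟩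
    let _ : TopologicalSpace ι := ⊥
    have : DiscreteTopology ι := ⟨rfl⟩
    refine IsEvenlyCovered.to_isEvenlyCovered_preimage (I := ι) ?_
    rcases isEmpty_or_nonempty ι with h | h
    · exact .of_preimage_eq_empty _ (hN.mem_nhds hcN) (by simpa using ex)
    refine .of_trivialization (t := hN.trivializationDiscrete
      (fun i => p ⁻¹' N ∩ {e | R e (S i)}) N (fun i W hW => ⟨fun h => ?_, fun h => ?_⟩)
      (fun i e h e' h' h3 => hd e e' _ h3 h.2 h'.2) (fun i y hy => ?_)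
      (fun i j h => Set.disjoint_left.2 fun e h3 h4 => h (s2 i j
        (n2 _ _ (s1 i) (s1 j) _ h3.1 ((hc _ _ _ h4.2).1 h3.2) c hcN))) ex) hcN
    · rw [← Set.inter_assoc, ← Set.preimage_inter]
      exact op _ _ (h.inter hN)
    · refine isOpen_iff_mem_nhds.2 fun x hx => ?_
      obtain ⟨e, rfl, h3⟩ := he _ x (s1 i x (hW hx))
      filter_upwards [h e ⟨hx, hW hx, h3⟩ _ h3, hN.mem_nhds (hW hx)] with y h4 h5
      obtain ⟨e', rfl, h6⟩ := he _ y (s1 i y h5)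
      exact (h4 e' rfl h6).1
    · obtain ⟨e, rfl, h3⟩ := he _ y (s1 i y hy)
      exact ⟨e, ⟨hy, h3⟩, rfl⟩
  obtain ⟨σ, ⟨h3, h4⟩, -⟩ := cov.existsUnique_continuousMap_lifts (ContinuousMap.id A) x₀ e₀ h1
  have h5 : ∀ x, p (σ x) = x := congrFun h4
  choose rep h6 h7 using ha
  have key : ∀ x s, R (σ x) s → (fun y => rep (σ y) y) =ᶠ[𝓝 x] s := fun x s hs => by
    filter_upwards [((op s _ isOpen_univ).preimage σ.continuous).mem_nhds ⟨trivial, hs⟩] with y hy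
    exact (h5 y ▸ (hc _ _ _ hy.2).1 (h6 (σ y))).eq_of_nhds
  exact ⟨_, key x₀ s₀ (h3 ▸ h2), fun x => hgerm _ _ x (key x _ (h6 _)).symm
    (by simpa only [h5] using h7 (σ x))⟩

theorem continuation {A Y : Type*} [TopologicalSpace A] [SimplyConnectedSpace A]
    [LocallyPathConnectedSpace A] (Adm : (A → Y) → A → Prop)
    (hgerm : ∀ s s' x, s =ᶠ[𝓝 x] s' → Adm s x → Adm s' x)
    (hloc : ∀ c, ∃ N, IsOpen N ∧ c ∈ N ∧
      (∀ x ∈ N, ∀ s, Adm s x → ∃ s', s' =ᶠ[𝓝 x] s ∧ ∀ y ∈ N, Adm s' y) ∧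
      ∀ s s', (∀ y ∈ N, Adm s y) → (∀ y ∈ N, Adm s' y) → ∀ x ∈ N, s =ᶠ[𝓝 x] s' →
        ∀ y ∈ N, s =ᶠ[𝓝 y] s')
    {s₀ : A → Y} {x₀ : A} (h₀ : Adm s₀ x₀) : ∃ s, s =ᶠ[𝓝 x₀] s₀ ∧ ∀ x, Adm s x := by
  refine cont_core
    (E := {e : A × Set (A → Y) // ∃ x s, Adm s x ∧ (x, {s' | s' =ᶠ[𝓝 x] s}) = e})
    Adm hgerm hloc (fun e => e.1.1) (fun e s => s ∈ e.1.2) ?_ ?_ ?_ ?_ h₀
  · rintro ⟨_, x, s, h, rfl⟩
    exact ⟨s, Filter.EventuallyEq.rfl, h⟩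
  · rintro ⟨_, x, s, h, rfl⟩ s₁ s₂ h₁
    exact ⟨fun h₂ => h₂.trans h₁.symm, fun h₂ => h₂.trans h₁⟩
  · rintro ⟨_, x, s, h, rfl⟩ ⟨_, x', s', h', rfl⟩ s₁ (rfl : x = x') h₁ h₂
    exact Subtype.ext (Prod.ext rfl (Set.ext fun s₂ =>
      ⟨fun h₃ => (h₃.trans h₁.symm).trans h₂, fun h₃ => (h₃.trans h₂.symm).trans h₁⟩))
  · exact fun s x h => ⟨⟨_, x, s, h, rfl⟩, rfl, Filter.EventuallyEq.rfl⟩

end Vale.Agent.P278
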