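import Vale.Agent.P278.Cone

/-!
P278 task Fill: removable singularities fill the cone: small flat discs map into one good chart.

Plan. Take `δ₁ = min δ₂ δ / (2Λ)` in `Ctx.cone`, `ψ = c.ch x`, `c₀ = ψ x`, `K₁ = 2K`, `p = c.p`.
`F u = p (ψ (Q (pt u (‖u‖/K₁))))` on `ball 0 ρ₀ \ {0}` and
`G W = (1 - p) (ψ (Q (pt (-W - ‖W‖/K₁) (‖W‖/K₁))))` on `ball 0 (ρ₀/2) \ {0}` (this point is
`(-W - ‖W‖/K₁, W)`, and `(K₁ - 1) s ≤ ‖u‖ ≤ (K₁ + 1) s` for it). By `Ctx.split` at `z₁`, near `u₁`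
`F u = p (ψ (Q (u, z₁.2)))`, so `F` is differentiable, likewise `G`; `‖F - p c₀‖ ≤ Λ δ₁`,
`‖G - (1-p) c₀‖ ≤ Λ δ₁`. Remove the singularities
(`Complex.differentiableOn_update_limUnder_of_bddAbove`); the bounds persist at `0` by continuity
(`le_of_tendsto` along `𝓝[≠] 0`). For `0 < s < d = min d₁ (ρ₀/(16K))` compare on `ball 0 (4Ks)` the maps
`h₁ u = Q (pt u s)` and `h₂ u = ψ.symm (F' u + G' (-u - s))` (the argument is in
`closedBall c₀ (min δ₂ δ) ⊆ ψ.target`). They agree near `u₁ = -s/2 + i s √(K₁² - 1/4)`: there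
`‖u₁‖ = ‖-u₁ - s‖ = K₁ s`, so `z₁ = pt u₁ s` is the point used by both `F u₁` and `G (-u₁ - s)`, and
`Ctx.split` at `z₁` gives `ψ (h₁ u) = F u + G (-u - s)` near `u₁`. Identity principle on the disc
(`IsPreconnected.subset_of_closure_inter_subset` or `isPreconnected_closed_iff`): the set where
`h₁ =ᶠ h₂` is open, and closed because at a limit point `h₁ u = h₂ u` (`T2Space`), so `ψ ∘ h₁` and
`F' + G' (-· - s)` are analytic there and frequently equal (`AnalyticAt.frequently_eq_iff_eventually_eq`).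
Auxiliary names: start with `fill_`.
-/

namespace Vale.Agent.P278

open Set
open Filter Metric
open scoped Topology

theorem fill_remove {V : Type*} [NormedAddCommGroup V] [NormedSpace ℂ V] [CompleteSpace V]
    {f : ℂ → V} {R b : ℝ} {a : V} (hR : 0 < R)
    (h : ∀ u : ℂ, u ≠ 0 → ‖u‖ < R → DifferentiableAt ℂ f u ∧ ‖f u - a‖ ≤ b) :
    ∃ f' : ℂ → V, DifferentiableOn ℂ f' (ball 0 R) ∧ (∀ u, u ≠ 0 → f' u = f u) ∧
      ∀ u : ℂ, ‖u‖ < R → ‖f' u - a‖ ≤ b := by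
  have hm : ball (0 : ℂ) R ∈ 𝓝 (0 : ℂ) := ball_mem_nhds 0 hR
  have hd := Complex.differentiableOn_update_limUnder_of_bddAbove (f := f) hm
    (fun u hu => (h u hu.2 (mem_ball_zero_iff.1 hu.1)).1.differentiableWithinAt)
    ⟨b + ‖a‖, by
      rintro _ ⟨u, hu, rfl⟩
      have h1 := (h u hu.2 (mem_ball_zero_iff.1 hu.1)).2
      have h2 := norm_sub_norm_le (f u) a
      show ‖f u‖ ≤ b + ‖a‖
      linarith⟩
  set f' := Function.update f 0 (limUnder (𝓝[≠] (0 : ℂ)) f) with hf'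
  have he : ∀ u, u ≠ 0 → f' u = f u := fun u hu => Function.update_of_ne hu _ _
  refine ⟨f', hd, he, fun u hu => ?_⟩
  rcases eq_or_ne u 0 with rfl | h0
  · have hc : Tendsto (fun u => ‖f' u - a‖) (𝓝[≠] (0 : ℂ)) (𝓝 ‖f' 0 - a‖) :=
      (((hd.differentiableAt hm).continuousAt.sub continuousAt_const).norm.tendsto).mono_left
        nhdsWithin_le_nhds
    refine le_of_tendsto hc ?_
    filter_upwards [self_mem_nhdsWithin, nhdsWithin_le_nhds hm] with v hv hv'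
    rw [he v hv]
    exact (h v hv (mem_ball_zero_iff.1 hv')).2
  · rw [he u h0]
    exact (h u h0 hu).2

theorem fill_ident {X V : Type*} [TopologicalSpace X] [T2Space X] [NormedAddCommGroup V]
    [NormedSpace ℂ V] [CompleteSpace V] (ψ : OpenPartialHomeomorph X V) {U : Set ℂ}
    (hU : IsOpen U) (hc : IsPreconnected U) {h : ℂ → X} {H : ℂ → V} (hh : ContinuousOn h U)
    (hH : DifferentiableOn ℂ H U) (hm : ∀ u ∈ U, H u ∈ ψ.target)
    (hd : ∀ u ∈ U, h u ∈ ψ.source → DifferentiableAt ℂ (fun v => ψ (h v)) u) {u₁ : ℂ}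
    (h₁ : u₁ ∈ U) (he : ∀ᶠ u in 𝓝 u₁, h u = ψ.symm (H u)) : ∀ u ∈ U, h u = ψ.symm (H u) := by
  have key : U ⊆ {u | ∀ᶠ v in 𝓝 u, h v = ψ.symm (H v)} := by
    refine hc.subset_of_closure_inter_subset isOpen_setOfPred_eventually_nhds ⟨u₁, h₁, he⟩ ?_
    rintro u ⟨hu, huU⟩
    by_contra hn
    have hUn := hU.mem_nhds huU
    have f1 : ∃ᶠ v in 𝓝 u, v ≠ u ∧ h v = ψ.symm (H v) :=
      (mem_closure_iff_frequently.1 hu).mono fun v hv =>
        ⟨fun e => hn (e ▸ hv), Eventually.self_of_nhds (p := fun v => h v = ψ.symm (H v)) hv⟩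
    have c1 : ContinuousAt h u := hh.continuousAt hUn
    have c2 : ContinuousAt (fun v => ψ.symm (H v)) u :=
      (ψ.continuousAt_symm (hm u huU)).comp (hH.continuousOn.continuousAt hUn)
    have e1 : h u = ψ.symm (H u) :=
      tendsto_nhds_unique_of_frequently_eq c1 c2 (f1.mono fun v hv => hv.2)
    have e2 : ∀ᶠ v in 𝓝 u, h v ∈ ψ.source :=
      c1.eventually (ψ.open_source.mem_nhds (e1 ▸ ψ.map_target (hm u huU)))
    have a1 : AnalyticAt ℂ (fun v => ψ (h v)) u :=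
      Complex.analyticAt_iff_eventually_differentiableAt.2
        ((e2.and hUn).mono fun v hv => hd v hv.2 hv.1)
    have e3 := (a1.frequently_eq_iff_eventually_eq (hH.analyticAt hUn)).1
      (frequently_nhdsWithin_iff.2 ((f1.and_eventually hUn).mono fun v hv =>
        ⟨by rw [hv.1.2, ψ.right_inv (hm v hv.2)], hv.1.1⟩))
    refine hn ((e2.and e3).mono fun v hv => ?_)
    rw [← hv.2, ψ.left_inv hv.1]
  exact fun u hu => Eventually.self_of_nhds (p := fun v => h v = ψ.symm (H v)) (key hu)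

theorem fill_pt {s r : ℝ} (hs : 0 < s) (h : s ≤ r) : ∃ u : ℂ, ‖u‖ = r ∧ ‖-u - s‖ = r := by
  have h0 : 0 ≤ r ^ 2 - s ^ 2 / 4 := by nlinarith
  have h1 := Real.sq_sqrt h0
  have hr : 0 ≤ r := hs.le.trans h
  refine ⟨⟨-s / 2, √(r ^ 2 - s ^ 2 / 4)⟩, ?_, ?_⟩
  · rw [Complex.norm_eq_sqrt_sq_add_sq, Real.sqrt_eq_iff_mul_self_eq (by positivity) hr]
    dsimp only
    linarith
  · rw [Complex.norm_eq_sqrt_sq_add_sq, Real.sqrt_eq_iff_mul_self_eq (by positivity) hr]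
    simp only [Complex.sub_re, Complex.neg_re, Complex.ofReal_re, Complex.sub_im, Complex.neg_im,
      Complex.ofReal_im]
    linarith

theorem fill_bound {V : Type*} [NormedAddCommGroup V] [NormedSpace ℂ V] {p : V →L[ℂ] V} {Λ δ : ℝ}
    (hp : ‖p‖ ≤ Λ) {a b : V} (h : ‖a - b‖ ≤ δ) : ‖p a - p b‖ ≤ Λ * δ := by
  rw [← map_sub]
  exact (p.le_opNorm _).trans (mul_le_mul hp h (norm_nonneg _) ((norm_nonneg _).trans hp))

theorem fill_fst {X V : Type*} [TopologicalSpace X] [NormedAddCommGroup V] [NormedSpace ℂ V]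
    (c : Ctx X V) {x : X} {a : ℂ → ℂ × ℂ} (ha : Continuous a) (h1 : ∀ u, (a u).1 = u) {u₁ : ℂ}
    (hq : a u₁ ∈ c.D) (hs : c.Q (a u₁) ∈ (c.ch x).source) :
    (∀ᶠ u in 𝓝 u₁, c.p (c.ch x (c.Q (a u))) = c.p (c.ch x (c.Q (u, (a u₁).2)))) ∧
      DifferentiableAt ℂ (fun u => c.p (c.ch x (c.Q (a u)))) u₁ := by
  have e : ∀ᶠ u in 𝓝 u₁, c.p (c.ch x (c.Q (a u))) = c.p (c.ch x (c.Q (u, (a u₁).2))) :=
    ((ha.tendsto u₁).eventually (c.split hq hs)).mono fun u hu => by rw [hu.2.2.1, h1]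
  refine ⟨e, DifferentiableAt.congr_of_eventuallyEq ?_ e⟩
  have hd := c.diff x _ hq hs
  have e2 : a u₁ = (u₁, (a u₁).2) := Prod.ext (h1 u₁) rfl
  rw [e2] at hd
  have h3 : DifferentiableAt ℂ ((c.ch x ∘ c.Q) ∘ fun u : ℂ => (u, (a u₁).2)) u₁ :=
    hd.comp u₁ (differentiableAt_id.prodMk (differentiableAt_const _))
  exact c.p.differentiableAt.comp u₁ h3

theorem fill_snd {X V : Type*} [TopologicalSpace X] [NormedAddCommGroup V] [NormedSpace ℂ V]
    (c : Ctx X V) {x : X} {a : ℂ → ℂ × ℂ} (ha : Continuous a) (h1 : ∀ u, (a u).2 = u) {u₁ : ℂ}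
    (hq : a u₁ ∈ c.D) (hs : c.Q (a u₁) ∈ (c.ch x).source) :
    (∀ᶠ u in 𝓝 u₁, (1 - c.p) (c.ch x (c.Q (a u))) = (1 - c.p) (c.ch x (c.Q ((a u₁).1, u)))) ∧
      DifferentiableAt ℂ (fun u => (1 - c.p) (c.ch x (c.Q (a u)))) u₁ := by
  have e : ∀ᶠ u in 𝓝 u₁,
      (1 - c.p) (c.ch x (c.Q (a u))) = (1 - c.p) (c.ch x (c.Q ((a u₁).1, u))) :=
    ((ha.tendsto u₁).eventually (c.split hq hs)).mono fun u hu => by rw [hu.2.2.2, h1]
  refine ⟨e, DifferentiableAt.congr_of_eventuallyEq ?_ e⟩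
  have hd := c.diff x _ hq hs
  have e2 : a u₁ = ((a u₁).1, u₁) := Prod.ext rfl (h1 u₁)
  rw [e2] at hd
  have h3 : DifferentiableAt ℂ ((c.ch x ∘ c.Q) ∘ fun u : ℂ => ((a u₁).1, u)) u₁ :=
    hd.comp u₁ ((differentiableAt_const _).prodMk differentiableAt_id)
  exact (1 - c.p).differentiableAt.comp u₁ h3

theorem Ctx.fill {X V : Type*} [TopologicalSpace X] [T2Space X] [NormedAddCommGroup V]
    [NormedSpace ℂ V] [FiniteDimensional ℂ V] (c : Ctx X V) (hSD : c.SD) {δ₂ : ℝ} (hδ₂ : 0 < δ₂) :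
    ∃ x : X, ∃ d > 0, ∀ s ∈ Ioo (0 : ℝ) d, ∀ u : ℂ, ‖u‖ ≤ s →
      c.Q (pt u s) ∈ (c.ch x).source ∧ ‖c.ch x (c.Q (pt u s)) - c.ch x x‖ ≤ δ₂ := by
  have : CompleteSpace V := FiniteDimensional.complete ℂ V
  have hΛ : 0 < c.Λ := one_pos.trans_le c.Λge
  have hm : 0 < min δ₂ c.δ := lt_min hδ₂ c.δpos
  obtain ⟨x, K, ρ₀, d₁, hK, hρ, hd₁, hD, hC⟩ :=
    c.cone hSD (δ₁ := min δ₂ c.δ / (2 * c.Λ)) (by positivity)
  have hK0 : 0 < K := by linarith
  set a : ℂ → ℂ × ℂ := fun u => pt u (‖u‖ / (2 * K)) with ha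
  set b : ℂ → ℂ × ℂ := fun W => pt (-W - (‖W‖ / (2 * K) : ℝ)) (‖W‖ / (2 * K)) with hb
  have hac : Continuous a := by simp only [ha, pt]; fun_prop
  have hbc : Continuous b := by simp only [hb, pt]; fun_prop
  have ha1 : ∀ u, (a u).1 = u := fun u => rfl
  have hb2 : ∀ u, (b u).2 = u := fun u => by simp only [hb, pt]; ring
  have ht : ∀ u : ℂ, K * (‖u‖ / (2 * K)) = ‖u‖ / 2 := fun u => by field_simp
  have hA : ∀ u : ℂ, u ≠ 0 → ‖u‖ < ρ₀ → a u ∈ c.D ∧ c.Q (a u) ∈ (c.ch x).source ∧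
      ‖c.ch x (c.Q (a u)) - c.ch x x‖ ≤ min δ₂ c.δ / (2 * c.Λ) := fun u h0 h1 => by
    have h2 := norm_pos_iff.2 h0
    have h3 := ht u
    exact hC u _ (by positivity) h1.le (by linarith) (by linarith)
  have hB : ∀ u : ℂ, u ≠ 0 → ‖u‖ < ρ₀ / 2 → b u ∈ c.D ∧ c.Q (b u) ∈ (c.ch x).source ∧
      ‖c.ch x (c.Q (b u)) - c.ch x x‖ ≤ min δ₂ c.δ / (2 * c.Λ) := fun u h0 h1 => by
    have h2 := norm_pos_iff.2 h0
    have h3 := ht u
    have h4 : 0 < ‖u‖ / (2 * K) := by positivity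
    have h5 : ‖((‖u‖ / (2 * K) : ℝ) : ℂ)‖ = ‖u‖ / (2 * K) := by
      rw [Complex.norm_real, Real.norm_of_nonneg h4.le]
    have h6 := norm_sub_le (-u) ((‖u‖ / (2 * K) : ℝ) : ℂ)
    have h7 := norm_sub_norm_le (-u) ((‖u‖ / (2 * K) : ℝ) : ℂ)
    rw [norm_neg, h5] at h6 h7
    have h8 : 3 * (‖u‖ / (2 * K)) ≤ K * (‖u‖ / (2 * K)) := by gcongr
    exact hC _ _ h4 (by linarith) (by linarith) (by linarith)
  obtain ⟨F, hF1, hF2, hF3⟩ := fill_remove (f := fun u => c.p (c.ch x (c.Q (a u)))) hρ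
    fun u h0 h1 => ⟨(fill_fst c hac ha1 (hA u h0 h1).1 (hA u h0 h1).2.1).2,
      fill_bound c.np (hA u h0 h1).2.2⟩
  obtain ⟨G, hG1, hG2, hG3⟩ := fill_remove (f := fun u => (1 - c.p) (c.ch x (c.Q (b u))))
    (half_pos hρ) fun u h0 h1 => ⟨(fill_snd c hbc hb2 (hB u h0 h1).1 (hB u h0 h1).2.1).2,
      fill_bound c.nq (hB u h0 h1).2.2⟩
  refine ⟨x, min d₁ (ρ₀ / (16 * K)), lt_min hd₁ (by positivity), fun s hs => ?_⟩
  have hs0 : 0 < s := hs.1
  have hs1 : s ∈ Ioo 0 d₁ := ⟨hs0, hs.2.trans_le (min_le_left _ _)⟩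
  have hs2 : s * (16 * K) < ρ₀ :=
    (lt_div_iff₀ (by positivity)).1 (hs.2.trans_le (min_le_right _ _))
  have hs3 : 3 * s ≤ K * s := by gcongr
  have hn : ∀ u ∈ ball (0 : ℂ) (4 * K * s), ‖u‖ < ρ₀ ∧ ‖-u - s‖ < ρ₀ / 2 := fun u hu => by
    have h1 := mem_ball_zero_iff.1 hu
    have h2 := norm_sub_le (-u) (s : ℂ)
    rw [norm_neg, Complex.norm_real, Real.norm_of_nonneg hs0.le] at h2
    constructor <;> linarith
  have hH : ∀ u ∈ ball (0 : ℂ) (4 * K * s), ‖F u + G (-u - s) - c.ch x x‖ ≤ min δ₂ c.δ :=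
    fun u hu => by
      have e : F u + G (-u - s) - c.ch x x =
          (F u - c.p (c.ch x x)) + (G (-u - s) - (1 - c.p) (c.ch x x)) := by
        simp only [sub_apply, one_apply_eq_self]
        abel
      have e2 : c.Λ * (min δ₂ c.δ / (2 * c.Λ)) = min δ₂ c.δ / 2 := by field_simp
      have h1 := hF3 u (hn u hu).1
      have h2 := hG3 _ (hn u hu).2
      rw [e]
      refine (norm_add_le _ _).trans ?_
      linarith
  have hT : ∀ u ∈ ball (0 : ℂ) (4 * K * s), F u + G (-u - s) ∈ (c.ch x).target := fun u hu =>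
    c.sub x (mem_closedBall_iff_norm.2 ((hH u hu).trans (min_le_right _ _)))
  have hDu : ∀ u ∈ ball (0 : ℂ) (4 * K * s), pt u s ∈ c.D := fun u hu =>
    hD s hs1 u (mem_ball_zero_iff.1 hu).le
  have hpd : Differentiable ℂ fun u => pt u s := by simp only [pt]; fun_prop
  obtain ⟨u₁, hu1, hu2⟩ := fill_pt (r := 2 * K * s) hs0 (by linarith)
  have hu3 : u₁ ∈ ball (0 : ℂ) (4 * K * s) := mem_ball_zero_iff.2 (by linarith)
  have hu4 : u₁ ≠ 0 := norm_pos_iff.1 (by linarith)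
  have hu5 : -u₁ - s ≠ 0 := norm_pos_iff.1 (by linarith)
  have e0 : 2 * K * s / (2 * K) = s := by field_simp
  have ea : a u₁ = pt u₁ s := by simp only [ha, hu1, e0]
  have eb : b (-u₁ - s) = pt u₁ s := by
    simp only [hb, hu2, e0]
    congr 1
    ring
  have key := fill_ident (c.ch x) isOpen_ball (convex_ball (0 : ℂ) (4 * K * s)).isPreconnected
    (h := fun u => c.Q (pt u s)) (H := fun u => F u + G (-u - s))
    (c.cont.comp hpd.continuous.continuousOn hDu)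
    ((hF1.mono fun u hu => mem_ball_zero_iff.2 (hn u hu).1).add
      (hG1.comp (f := fun u : ℂ => -u - s) (by fun_prop)
        fun u hu => mem_ball_zero_iff.2 (hn u hu).2)) hT
    (fun u hu h => DifferentiableAt.comp (g := c.ch x ∘ c.Q) (f := fun u => pt u s) u
      (c.diff x _ (hDu u hu) h) (hpd u)) hu3 (by
      have hA1 := hA u₁ hu4 (hn u₁ hu3).1
      have hB1 := hB _ hu5 (hn u₁ hu3).2
      have cW : Continuous fun u : ℂ => -u - s := by fun_prop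
      have f1 := (fill_fst c hac ha1 hA1.1 hA1.2.1).1
      have f2 := (cW.tendsto u₁).eventually (fill_snd c hbc hb2 hB1.1 hB1.2.1).1
      rw [ea] at f1 hA1
      rw [eb] at f2
      filter_upwards [f1, f2, (hpd.continuous.tendsto u₁).eventually (c.split hA1.1 hA1.2.1),
        isOpen_ne.mem_nhds hu4, (cW.tendsto u₁).eventually (isOpen_ne.mem_nhds hu5)]
        with u g1 g2 g3 g4 g5
      have g6 : c.p (c.ch x (c.Q (pt u s))) = c.p (c.ch x (c.Q (u, (pt u₁ s).2))) := g3.2.2.1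
      have g7 : (1 - c.p) (c.ch x (c.Q (pt u s))) =
          (1 - c.p) (c.ch x (c.Q ((pt u₁ s).1, -u - s))) := g3.2.2.2
      rw [hF2 u g4, hG2 _ g5, g1, g2, ← g6, ← g7]
      simp only [sub_apply, one_apply_eq_self, add_sub_cancel]
      exact ((c.ch x).left_inv g3.2.1).symm)
  intro u hu
  have hu' : u ∈ ball (0 : ℂ) (4 * K * s) := mem_ball_zero_iff.2 (by linarith)
  rw [key u hu', (c.ch x).right_inv (hT u hu')]
  exact ⟨(c.ch x).map_target (hT u hu'), (hH u hu').trans (min_le_left _ _)⟩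

end Vale.Agent.P278
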