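import Vale.Agent.P278.MonoB

/-!
P278 task Small: the energy on suitable conical annuli is small.

Plan. Facts on `cut` for `r > 0`: values in `[0,1]`, `= 1` for `‖u‖ ≤ r`, `= 0` for `2 r² ≤ ‖u‖²`,
monotone in `r`, continuous in `u`. If `2 κ r² < s < s₀` then `u ↦ cut r u * e (u, s)` is integrable
(continuous on the compact disc `‖u‖² ≤ 2 r²`, which lies in `Om`, zero outside), nonnegative, and
`En e r s ≤ En e r' s` for `0 < r ≤ r'`, `2 κ r'² < s`.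
Let `s₁ = min (s₀/2) (1/(64 κ (C+1)²))`, `r₁ = √(s₁/(4κ))`, `B₀ = En e r₁ s₁`,
`dK K = min s₁ (1/(16 κ K²))`. For `K ≥ 2C`, `K > 0`, `0 < d ≤ dK K`:
(1) `En e (K d) d ≤ En e (K d + 2C (s₁ - d)) s₁ ≤ B₀` by `en_mono` with `B = 2C`, because
`2κ (K d + 2C (s - d))² ≤ 4κK²d² + 16κC²s² ≤ d/4 + s/4 ≤ s/2`;
(2) `d ↦ En e (K d) d` is monotone on `(0, dK K]` by `en_mono` with `B = K`.
Let `b K` be the infimum of `En e (K d) d` over `d ∈ (0, dK K]` (bounded below by `0`); `0 ≤ b K ≤ B₀`.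
With `K n = K₁ (2L)^n`, `K₁ = max (max K₀ (2C)) 1`, there is `n` with `b (K (n+1)) < b (K n) + ε/2`
(otherwise `b (K n) ≥ n ε/2`, unbounded). Pick `d₁ ≤ dK (K (n+1))` with
`En e (K (n+1) d₁) d₁ < b (K (n+1)) + ε/2`. For `d < d₁`: `En e (K (n+1) d) d - En e (K n d) d < ε`
(note `dK (K (n+1)) ≤ dK (K n)`), and `cut (K (n+1) d) - cut (K n d) ≥ 0` equals `1` on
`2 K n d ≤ ‖u‖ ≤ K (n+1) d`. Take `K = 2 * K n`, so `L K = K (n+1)`.
Auxiliary names: start with `small_`.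
-/

namespace Vale.Agent.P278

open Set MeasureTheory

theorem small_sq {a b : ℝ} (h : a ^ 2 ≤ b ^ 2) (hb : 0 ≤ b) : a ≤ b :=
  (le_abs_self a).trans (abs_le_of_sq_le_sq h hb)

theorem small_cut_nonneg (r : ℝ) (u : ℂ) : 0 ≤ cut r u :=
  sub_nonneg.2 (Real.smoothTransition.le_one _)

theorem small_cut_one {r : ℝ} (hr : 0 < r) {u : ℂ} (hu : ‖u‖ ≤ r) : cut r u = 1 := by
  rw [cut, Real.smoothTransition.zero_of_nonpos, sub_zero]
  rw [sub_nonpos, div_le_one (pow_pos hr 2)]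
  exact pow_le_pow_left₀ (norm_nonneg u) hu 2

theorem small_cut_zero {r : ℝ} (hr : 0 < r) {u : ℂ} (hu : 2 * r ^ 2 ≤ ‖u‖ ^ 2) : cut r u = 0 := by
  rw [cut, Real.smoothTransition.one_of_one_le, sub_self]
  rw [le_sub_iff_add_le, le_div_iff₀ (pow_pos hr 2)]
  linarith

theorem small_cut_mono {r r' : ℝ} (hr : 0 < r) (h : r ≤ r') (u : ℂ) : cut r u ≤ cut r' u := by
  refine sub_le_sub_left (Real.smoothTransition.monotone (sub_le_sub_right ?_ 1)) 1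
  exact div_le_div_of_nonneg_left (sq_nonneg _) (pow_pos hr 2) (pow_le_pow_left₀ hr.le h 2)

theorem small_mem {κ s₀ r s : ℝ} (hκ : 0 < κ) (h1 : 2 * κ * r ^ 2 < s) (h2 : s < s₀) {u : ℂ}
    (hu : ‖u‖ ^ 2 ≤ 2 * r ^ 2) : (u, s) ∈ Om κ s₀ :=
  ⟨lt_of_le_of_lt (by nlinarith [mul_le_mul_of_nonneg_left hu hκ.le]) h1, h2⟩

section

variable {κ s₀ C : ℝ} {e J₁ J₂ : ℂ × ℝ → ℝ} (h : DivFree κ s₀ C e J₁ J₂) (hκ : 0 < κ)
include h hκ

theorem small_int {r s : ℝ} (hr : 0 < r) (h1 : 2 * κ * r ^ 2 < s) (h2 : s < s₀) :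
    Integrable fun u => cut r u * e (u, s) := by
  have hK : IsCompact {u : ℂ | ‖u‖ ^ 2 ≤ 2 * r ^ 2} := by
    refine (isCompact_closedBall (0 : ℂ) (2 * r)).of_isClosed_subset
      (isClosed_le (by fun_prop) continuous_const) fun u hu => ?_
    rw [mem_closedBall_zero_iff]
    refine small_sq ?_ (by linarith)
    have : ‖u‖ ^ 2 ≤ 2 * r ^ 2 := hu
    nlinarith
  have hc : Continuous (cut r) := by
    unfold cut
    fun_prop
  refine (integrableOn_iff_integrable_of_support_subset (s := {u : ℂ | ‖u‖ ^ 2 ≤ 2 * r ^ 2})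
    fun u hu => ?_).1 (ContinuousOn.integrableOn_compact hK (hc.continuousOn.mul ?_))
  · by_contra h3
    exact hu (mul_eq_zero_of_left (small_cut_zero hr (not_le.1 h3).le) _)
  · exact h.ce.continuousOn.comp (Continuous.prodMk_left s).continuousOn
      fun u hu => small_mem hκ h1 h2 hu

theorem small_le {r r' s : ℝ} (hr : 0 < r) (hr' : r ≤ r') (h1 : 2 * κ * r' ^ 2 < s) (h2 : s < s₀)
    (u : ℂ) : 0 ≤ cut r u * e (u, s) ∧ cut r u * e (u, s) ≤ cut r' u * e (u, s) := by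
  rcases le_total (‖u‖ ^ 2) (2 * r' ^ 2) with hu | hu
  · have h3 := h.nonneg _ (small_mem hκ h1 h2 hu)
    exact ⟨mul_nonneg (small_cut_nonneg r u) h3,
      mul_le_mul_of_nonneg_right (small_cut_mono hr hr' u) h3⟩
  · have h3 := pow_le_pow_left₀ hr.le hr' 2
    rw [small_cut_zero (hr.trans_le hr') hu, small_cut_zero hr (by linarith), zero_mul]
    exact ⟨le_rfl, le_rfl⟩

theorem small_mono {r r' s : ℝ} (hr : 0 < r) (hr' : r ≤ r') (h1 : 2 * κ * r' ^ 2 < s)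
    (h2 : s < s₀) : En e r s ≤ En e r' s := by
  have h3 := mul_le_mul_of_nonneg_left (pow_le_pow_left₀ hr.le hr' 2) (by positivity : 0 ≤ 2 * κ)
  exact integral_mono (small_int h hκ hr (h3.trans_lt h1) h2)
    (small_int h hκ (hr.trans_le hr') h1 h2) fun u => (small_le h hκ hr hr' h1 h2 u).2

theorem small_bound (hC : 0 ≤ C) {s₁ K d : ℝ} (hs : s₁ < s₀) (hs₁ : 64 * κ * C ^ 2 * s₁ ≤ 1)
    (hK : 0 < K) (hd : 0 < d) (hd₁ : d ≤ s₁) (hKd : 16 * κ * K ^ 2 * d ≤ 1) :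
    En e (K * d) d ≤ En e √(s₁ / (4 * κ)) s₁ := by
  have key : ∀ s ∈ Icc d s₁, 4 * κ * (K * d + 2 * C * (s - d)) ^ 2 ≤ s := by
    intro s hs'
    have hs0 : 0 < s := hd.trans_le hs'.1
    have a1 : (K * d + 2 * C * (s - d)) ^ 2 ≤ 2 * (K * d) ^ 2 + 2 * (2 * C * (s - d)) ^ 2 := by
      nlinarith [sq_nonneg (K * d - 2 * C * (s - d))]
    have a2 : (s - d) ^ 2 ≤ s₁ * s := by nlinarith [hs'.1, hs'.2]
    have a3 := mul_le_mul_of_nonneg_right hKd hd.le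
    have a4 := mul_le_mul_of_nonneg_right hs₁ hs0.le
    have a5 := mul_le_mul_of_nonneg_left a2 (by positivity : 0 ≤ κ * C ^ 2)
    have a6 := mul_le_mul_of_nonneg_left a1 hκ.le
    nlinarith [hs'.1]
  have hs0 : 0 < s₁ := hd.trans_le hd₁
  refine (en_mono h hκ hC (mul_pos hK hd) le_rfl hd₁ hs fun s hs' => ?_).trans
    (small_mono h hκ ?_ (Real.le_sqrt_of_sq_le ?_) ?_ hs)
  · linarith [key s hs', hd.trans_le hs'.1]
  · have := mul_nonneg hC (sub_nonneg.2 hd₁)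
    have := mul_pos hK hd
    linarith
  · rw [le_div_iff₀ (by positivity)]
    linarith [key s₁ ⟨hd₁, le_rfl⟩]
  · rw [Real.sq_sqrt (by positivity)]
    have e1 : 2 * κ * (s₁ / (4 * κ)) = s₁ / 2 := by
      field_simp
      norm_num
    linarith

end

theorem small_lt {κ K d : ℝ} (hd : 0 < d) (hKd : 16 * κ * K ^ 2 * d ≤ 1) :
    2 * κ * (K * d) ^ 2 < d := by
  nlinarith [mul_le_mul_of_nonneg_right hKd hd.le]

theorem small_annulus {κ s₀ C : ℝ} {e J₁ J₂ : ℂ × ℝ → ℝ} (h : DivFree κ s₀ C e J₁ J₂)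
    (hκ : 0 < κ) (hs₀ : 0 < s₀) (hC : 0 ≤ C) {ε L : ℝ} (hε : 0 < ε) (hL : 1 ≤ L) (K₀ : ℝ) :
    ∃ K, K₀ ≤ K ∧ 0 < K ∧ ∃ d₁ > 0, ∀ d ∈ Ioo 0 d₁,
      (∀ u : ℂ, ‖u‖ ≤ L * K * d → (u, d) ∈ Om κ s₀) ∧
      ∫ u in {u : ℂ | K * d ≤ ‖u‖ ∧ ‖u‖ ≤ L * K * d}, e (u, d) ≤ ε := by
  obtain ⟨s₁, hs0, hs, hs₁⟩ : ∃ s₁, 0 < s₁ ∧ s₁ < s₀ ∧ 64 * κ * C ^ 2 * s₁ ≤ 1 := by
    have hp : 0 < 64 * κ * C ^ 2 + 1 := by positivity
    refine ⟨min (s₀ / 2) (1 / (64 * κ * C ^ 2 + 1)), lt_min (by linarith) (by positivity),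
      (min_le_left _ _).trans_lt (by linarith), ?_⟩
    refine (mul_le_mul_of_nonneg_left (min_le_right _ _) (by positivity)).trans ?_
    rw [mul_one_div, div_le_one hp]
    linarith
  let S : ℝ → Set ℝ := fun K =>
    (fun d => En e (K * d) d) '' {d | 0 < d ∧ d ≤ s₁ ∧ 16 * κ * K ^ 2 * d ≤ 1}
  have hne : ∀ K, 0 < K → (S K).Nonempty := by
    intro K hK
    refine Set.Nonempty.image _ ⟨min s₁ (1 / (16 * κ * K ^ 2)), lt_min hs0 (by positivity),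
      min_le_left _ _, ?_⟩
    refine (mul_le_mul_of_nonneg_left (min_le_right _ _) (by positivity)).trans ?_
    rw [mul_one_div_cancel (by positivity)]
  have hlb : ∀ K, 0 < K → ∀ x ∈ S K, 0 ≤ x := by
    rintro K hK _ ⟨d, ⟨h1, h2, h3⟩, rfl⟩
    exact integral_nonneg fun u =>
      (small_le h hκ (mul_pos hK h1) le_rfl (small_lt h1 h3) (h2.trans_lt hs) u).1
  have hub : ∀ K, 0 < K → sInf (S K) ≤ En e √(s₁ / (4 * κ)) s₁ := by
    intro K hK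
    obtain ⟨_, d, ⟨h1, h2, h3⟩, rfl⟩ := hne K hK
    exact (csInf_le ⟨0, hlb K hK⟩ ⟨d, ⟨h1, h2, h3⟩, rfl⟩).trans
      (small_bound h hκ hC hs hs₁ hK h1 h2 h3)
  obtain ⟨K₁, k0, k1, k2⟩ : ∃ K₁, K₀ ≤ K₁ ∧ 2 * C ≤ K₁ ∧ 0 < K₁ :=
    ⟨max (max K₀ (2 * C)) 1, (le_max_left _ _).trans (le_max_left _ _),
      (le_max_right _ _).trans (le_max_left _ _), one_pos.trans_le (le_max_right _ _)⟩
  have hge : ∀ n : ℕ, K₁ ≤ K₁ * (2 * L) ^ n := fun n =>
    le_mul_of_one_le_right k2.le (one_le_pow₀ (by linarith))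
  obtain ⟨n, hn⟩ : ∃ n : ℕ, sInf (S (K₁ * (2 * L) ^ (n + 1))) <
      sInf (S (K₁ * (2 * L) ^ n)) + ε / 2 := by
    by_contra hc
    push Not at hc
    have h1 : ∀ n : ℕ, n * (ε / 2) ≤ sInf (S (K₁ * (2 * L) ^ n)) := by
      intro n
      induction n with
      | zero =>
        rw [Nat.cast_zero, zero_mul]
        exact le_csInf (hne _ (k2.trans_le (hge 0))) (hlb _ (k2.trans_le (hge 0)))
      | succ n ih =>
        push_cast
        linarith [hc n]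
    obtain ⟨n, hn⟩ := exists_nat_gt (En e √(s₁ / (4 * κ)) s₁ / (ε / 2))
    rw [div_lt_iff₀ (half_pos hε)] at hn
    linarith [h1 n, hub _ (k2.trans_le (hge n))]
  have hA := hge n
  have e1 : K₁ * (2 * L) ^ (n + 1) = L * (2 * (K₁ * (2 * L) ^ n)) := by ring
  rw [e1] at hn
  generalize K₁ * (2 * L) ^ n = A at hA hn
  have hA0 : 0 < A := k2.trans_le hA
  have hAB : A ≤ L * (2 * A) := by nlinarith
  have hB0 : 0 < L * (2 * A) := hA0.trans_le hAB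
  obtain ⟨_, ⟨d₁, ⟨d1, d2, d3⟩, rfl⟩, hd₁⟩ := exists_lt_of_csInf_lt (hne _ hB0)
    (lt_add_of_pos_right _ (half_pos hε))
  refine ⟨2 * A, by linarith, by linarith, d₁, d1, fun d hd => ?_⟩
  generalize hB : L * (2 * A) = B at *
  have g1 : ∀ s, s ≤ d₁ → 16 * κ * B ^ 2 * s ≤ 1 := fun s hs =>
    (mul_le_mul_of_nonneg_left hs (by positivity)).trans d3
  have g2 : 16 * κ * A ^ 2 * d ≤ 1 := le_trans (mul_le_mul_of_nonneg_right
    (mul_le_mul_of_nonneg_left (pow_le_pow_left₀ hA0.le hAB 2) (by positivity)) hd.1.le)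
    (g1 d hd.2.le)
  have g3 : d < s₀ := hd.2.trans (d2.trans_lt hs)
  have g4 := small_lt hd.1 (g1 d hd.2.le)
  refine ⟨fun u hu => small_mem hκ g4 g3 ?_, ?_⟩
  · nlinarith [pow_le_pow_left₀ (norm_nonneg u) hu 2, sq_nonneg (B * d)]
  have m1 := en_mono h hκ hC (mul_pos hB0 hd.1) (B := B) (by linarith) hd.2.le (d2.trans_lt hs)
    fun s hs' => by
      have e2 : B * d + B * (s - d) = B * s := by ring
      rw [e2]
      exact small_lt (hd.1.trans_le hs'.1) (g1 s hs'.2)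
  have e3 : B * d + B * (d₁ - d) = B * d₁ := by ring
  rw [e3] at m1
  have m2 : sInf (S A) ≤ En e (A * d) d :=
    csInf_le ⟨0, hlb A hA0⟩ ⟨d, ⟨hd.1, hd.2.le.trans d2, g2⟩, rfl⟩
  have i1 := small_int h hκ (mul_pos hB0 hd.1) g4 g3
  have i2 := small_int h hκ (mul_pos hA0 hd.1) (small_lt hd.1 g2) g3
  have hm : MeasurableSet {u : ℂ | 2 * A * d ≤ ‖u‖ ∧ ‖u‖ ≤ B * d} :=
    ((isClosed_le continuous_const continuous_norm).inter
      (isClosed_le continuous_norm continuous_const)).measurableSet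
  calc _ = ∫ u in {u : ℂ | 2 * A * d ≤ ‖u‖ ∧ ‖u‖ ≤ B * d},
        (cut (B * d) u * e (u, d) - cut (A * d) u * e (u, d)) := by
        refine setIntegral_congr_fun hm fun u hu => ?_
        have h1 := pow_le_pow_left₀ (by have := hd.1; positivity) hu.1 2
        rw [small_cut_one (mul_pos hB0 hd.1) hu.2, small_cut_zero (mul_pos hA0 hd.1)
          (by nlinarith [sq_nonneg (A * d)])]
        ring
    _ ≤ ∫ u, (cut (B * d) u * e (u, d) - cut (A * d) u * e (u, d)) :=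
        setIntegral_le_integral (i1.sub i2) (Filter.Eventually.of_forall fun u => sub_nonneg.2
          (small_le h hκ (mul_pos hA0 hd.1) (mul_le_mul_of_nonneg_right hAB hd.1.le) g4 g3 u).2)
    _ = En e (B * d) d - En e (A * d) d := integral_sub i1 i2
    _ ≤ ε := by linarith

end Vale.Agent.P278
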