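import Vale.Agent.P278.Eps
import Vale.Agent.P278.Small

/-!
P278 task SD: small energy on annuli gives small scale-invariant derivative.

Plan. Given `η, L, K₀`, take `ε` from `Ctx.eps_reg` for `η/2`, and `K', d₁` from `small_annulus` with
`ε`, `3L`, `K₀/2`. Put `K = 2K'`. For `s ∈ Ioo 0 d₁`, `‖u‖ ≤ L K s ≤ 3L K' s` gives `(u, s) ∈ Om`, so
`pt u s ∈ c.D`. If also `K s ≤ ‖u‖`, the disc `closedBall u (‖u‖/2)` lies in the annulus
`K' s ≤ ‖v‖ ≤ 3L K' s ⊆ Om`, where `c.m (pt v s) ^ 2 = e (v, s) ≥ 0` is continuous (integrable on the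
compact annulus), so the integral over the ball is at most `ε` (`setIntegral_mono_set`), and
`(‖u‖/2) m ≤ η/2`.
Auxiliary names: start with `sd_`.
-/

namespace Vale.Agent.P278

open Set Metric MeasureTheory

theorem Ctx.sd_of_divFree {X V : Type*} [TopologicalSpace X] [T2Space X] [NormedAddCommGroup V]
    [NormedSpace ℂ V] [FiniteDimensional ℂ V] (c : Ctx X V) {κ s₀ C : ℝ} {e J₁ J₂ : ℂ × ℝ → ℝ}
    (h : DivFree κ s₀ C e J₁ J₂) (hκ : 0 < κ) (hs₀ : 0 < s₀) (hC : 0 ≤ C)
    (he : ∀ q ∈ Om κ s₀, pt q.1 q.2 ∈ c.D ∧ c.m (pt q.1 q.2) ^ 2 = e q) : c.SD := by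
  intro η hη L hL K₀
  obtain ⟨ε, hε, h1⟩ := c.eps_reg (η := η / 2) (by positivity)
  obtain ⟨K, hK₀, hK, d₁, hd₁, h2⟩ := small_annulus h hκ hs₀ hC hε (L := 3 * L) (by linarith) (K₀ / 2)
  refine ⟨2 * K, by linarith, by positivity, d₁, hd₁, fun s hs u hu => ?_⟩
  obtain ⟨h3, h4⟩ := h2 s hs
  have hKs : 0 < K * s := mul_pos hK hs.1
  have hL' : 0 ≤ L * (K * s) := by positivity
  refine ⟨(he (u, s) (h3 u (by nlinarith))).1, fun hu' => ?_⟩
  have hu0 : 0 < ‖u‖ := by nlinarith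
  have hsub : closedBall u (‖u‖ / 2) ⊆ {v : ℂ | K * s ≤ ‖v‖ ∧ ‖v‖ ≤ 3 * L * K * s} := by
    intro v hv
    rw [mem_closedBall, dist_eq_norm] at hv
    have a1 := norm_sub_norm_le u v
    have a2 := norm_sub_norm_le v u
    rw [norm_sub_rev] at a1
    constructor <;> nlinarith
  have hA : IsCompact {v : ℂ | K * s ≤ ‖v‖ ∧ ‖v‖ ≤ 3 * L * K * s} :=
    (isCompact_closedBall (0 : ℂ) (3 * L * K * s)).of_isClosed_subset
      ((isClosed_le continuous_const continuous_norm).inter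
        (isClosed_le continuous_norm continuous_const))
      fun v hv => mem_closedBall_zero_iff.2 hv.2
  have hint : IntegrableOn (fun v : ℂ => e (v, s))
      {v : ℂ | K * s ≤ ‖v‖ ∧ ‖v‖ ≤ 3 * L * K * s} := by
    refine ContinuousOn.integrableOn_compact hA ?_
    exact h.ce.continuousOn.comp (f := fun v : ℂ => (v, s)) (by fun_prop) fun v hv => h3 v hv.2
  have key := h1 u s (‖u‖ / 2) (by positivity) (fun v hv => (he (v, s) (h3 v (hsub hv).2)).1) (by
    rw [setIntegral_congr_fun measurableSet_ball (g := fun v => e (v, s))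
      fun v hv => (he (v, s) (h3 v (hsub (ball_subset_closedBall hv)).2)).2]
    refine le_trans (setIntegral_mono_set hint ?_
      (ball_subset_closedBall.trans hsub).eventuallyLE) h4
    exact (ae_restrict_iff' hA.measurableSet).2
      (Filter.Eventually.of_forall fun v hv => h.nonneg _ (h3 v hv.2)))
  linarith

end Vale.Agent.P278
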