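import Vale.Agent.P278.Ctx

/-!
P278 task Split0: local splitting of maps of product type into a vector space.

Plan. `split_nhds`: take `r > 0` with the hypothesis on `ball q r = ball q.1 r ×ˢ ball q.2 r`
(`ball_prod_same`). For `z` in it, `w ↦ p (g (z.1, w))` has zero derivative on the convex set
`ball q.2 r` (`Convex.is_const_of_fderivWithin_eq_zero` or `IsOpen.is_const_of_fderiv_eq_zero`), and
`v ↦ (1 - p) (g (v, z.2))` has zero derivative on `ball q.1 r`.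
`Ctx.split`: the hypotheses hold near `z` since `D` is open, `Q` is continuous, the source is open.
`Ctx.d1_const`: with `g = c.ch x ∘ c.Q`, the map `W ↦ fderiv ℂ g (Z, W) (1, 0)` is locally constant on
`S`: near `(Z, W₁)`, `g z = p (g (z.1, W₁)) + (1 - p) (g (Z, z.2))`; by `Eventually.eventually_nhds` and
`EventuallyEq.fderiv_eq` (restrict to the slice `v ↦ g (v, W)`, whose derivative at `Z` is
`fderiv ℂ g (Z, W) (1, 0)`) it equals `deriv (fun v => p (g (v, W₁))) Z` for `W` near `W₁`; conclude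
with `IsPreconnected.constant`-like lemma (`IsPreconnected.induction₂`, or
`IsLocallyConstant.apply_eq_of_isPreconnected` on the subtype). `Ctx.d2_const` is symmetric.
Auxiliary names: start with `split0_`.
-/

namespace Vale.Agent.P278

open scoped Topology
open Set

theorem split0_const {B V : Type*} [NormedAddCommGroup B] [NormedSpace ℂ B]
    [NormedAddCommGroup V] [NormedSpace ℂ V] {f : B → V} {b : B} {r : ℝ} (hr : 0 < r)
    (h : ∀ w ∈ Metric.ball b r, HasFDerivAt f (0 : B →L[ℂ] V) w) {w : B}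
    (hw : w ∈ Metric.ball b r) : f w = f b :=
  Metric.isOpen_ball.is_const_of_fderiv_eq_zero (𝕜 := ℂ) (convex_ball b r).isPreconnected
    (fun y hy => (h y hy).differentiableAt.differentiableWithinAt) (fun y hy => (h y hy).fderiv) hw
    (Metric.mem_ball_self hr)

theorem split0_loc {α β : Type*} [TopologicalSpace α] {S : Set α} (hS : IsPreconnected S)
    {f : α → β} (h : ∀ a ∈ S, ∀ᶠ b in 𝓝 a, f a = f b) {a b : α} (ha : a ∈ S) (hb : b ∈ S) :
    f a = f b :=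
  hS.induction₂ (fun x y => f x = f y) (fun x hx => (h x hx).filter_mono nhdsWithin_le_nhds)
    (fun _ _ _ _ _ _ h1 h2 => h1.trans h2) (fun _ _ _ _ h1 => h1.symm) ha hb

theorem split_nhds {A B V : Type*} [NormedAddCommGroup A] [NormedSpace ℂ A]
    [NormedAddCommGroup B] [NormedSpace ℂ B] [NormedAddCommGroup V] [NormedSpace ℂ V]
    {g : A × B → V} {p : V →L[ℂ] V} {q : A × B}
    (h : ∀ᶠ z in 𝓝 q, DifferentiableAt ℂ g z ∧
      (∀ v, p (fderiv ℂ g z (v, 0)) = fderiv ℂ g z (v, 0)) ∧ ∀ w, p (fderiv ℂ g z (0, w)) = 0) :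
    ∀ᶠ z in 𝓝 q, p (g z) = p (g (z.1, q.2)) ∧ (1 - p) (g z) = (1 - p) (g (q.1, z.2)) := by
  obtain ⟨r, hr, h⟩ := Metric.eventually_nhds_iff_ball.1 h
  refine Metric.eventually_nhds_iff_ball.2 ⟨r, hr, fun z hz => ?_⟩
  have mem : ∀ v ∈ Metric.ball q.1 r, ∀ w ∈ Metric.ball q.2 r, (v, w) ∈ Metric.ball q r :=
    fun v hv w hw => by
      rw [← Prod.mk.eta (p := q), ← ball_prod_same]
      exact ⟨hv, hw⟩
  have hz' : z.1 ∈ Metric.ball q.1 r ∧ z.2 ∈ Metric.ball q.2 r := by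
    rw [← Prod.mk.eta (p := q), ← ball_prod_same] at hz
    exact hz
  constructor
  · refine split0_const (f := fun w => p (g (z.1, w))) hr (fun w hw => ?_) hz'.2
    obtain ⟨h1, -, h3⟩ := h _ (mem _ hz'.1 _ hw)
    have := p.hasFDerivAt.comp w (h1.hasFDerivAt.comp w (hasFDerivAt_prodMk_right z.1 w))
    exact this.congr_fderiv (ContinuousLinearMap.ext h3)
  · refine split0_const (f := fun v => (1 - p) (g (v, z.2))) hr (fun v hv => ?_) hz'.1
    obtain ⟨h1, h2, -⟩ := h _ (mem _ hv _ hz'.2)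
    have := (1 - p).hasFDerivAt.comp v (h1.hasFDerivAt.comp v (hasFDerivAt_prodMk_left v z.2))
    exact this.congr_fderiv (ContinuousLinearMap.ext fun u => sub_eq_zero.2 (h2 u).symm)

variable {X V : Type*} [TopologicalSpace X] [NormedAddCommGroup V] [NormedSpace ℂ V]

theorem Ctx.split (c : Ctx X V) {x : X} {q : ℂ × ℂ} (hq : q ∈ c.D)
    (hs : c.Q q ∈ (c.ch x).source) :
    ∀ᶠ z in 𝓝 q, z ∈ c.D ∧ c.Q z ∈ (c.ch x).source ∧
      c.p (c.ch x (c.Q z)) = c.p (c.ch x (c.Q (z.1, q.2))) ∧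
      (1 - c.p) (c.ch x (c.Q z)) = (1 - c.p) (c.ch x (c.Q (q.1, z.2))) := by
  have h0 : ∀ᶠ z in 𝓝 q, z ∈ c.D ∧ c.Q z ∈ (c.ch x).source :=
    (c.isOpen.eventually_mem hq).and ((c.cont.continuousAt (c.isOpen.mem_nhds hq)).eventually
      ((c.ch x).open_source.eventually_mem hs))
  have h1 := split_nhds (g := c.ch x ∘ c.Q) (p := c.p) (h0.mono fun z hz =>
    ⟨c.diff x z hz.1 hz.2, c.tan1 x z hz.1 hz.2, c.tan2 x z hz.1 hz.2⟩)
  exact (h0.and h1).mono fun z hz => ⟨hz.1.1, hz.1.2, hz.2⟩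

theorem Ctx.d1_const (c : Ctx X V) {x : X} {Z : ℂ} {S : Set ℂ} (hS : IsPreconnected S)
    (h : ∀ W ∈ S, (Z, W) ∈ c.D ∧ c.Q (Z, W) ∈ (c.ch x).source) {W₁ W₂ : ℂ} (h₁ : W₁ ∈ S)
    (h₂ : W₂ ∈ S) :
    fderiv ℂ (c.ch x ∘ c.Q) (Z, W₁) (1, 0) = fderiv ℂ (c.ch x ∘ c.Q) (Z, W₂) (1, 0) := by
  have key : ∀ W, (Z, W) ∈ c.D → c.Q (Z, W) ∈ (c.ch x).source →
      HasDerivAt (fun v => c.p (c.ch x (c.Q (v, W)))) (fderiv ℂ (c.ch x ∘ c.Q) (Z, W) (1, 0)) Z := by
    intro W a b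
    have := (c.p.hasFDerivAt.comp Z ((c.diff x _ a b).hasFDerivAt.comp Z
      (hasFDerivAt_prodMk_left Z W))).hasDerivAt
    exact this.congr_deriv (c.tan1 x _ a b 1)
  refine split0_loc hS (f := fun W => fderiv ℂ (c.ch x ∘ c.Q) (Z, W) (1, 0)) (fun W hW => ?_) h₁ h₂
  obtain ⟨a, b⟩ := h W hW
  have e := ((continuous_swap.tendsto (W, Z)).eventually (c.split a b)).curry_nhds
  refine e.mono fun W' hW' => ?_
  obtain ⟨a', b', -⟩ := hW'.self_of_nhds
  exact ((key W a b).congr_of_eventuallyEq (hW'.mono fun v hv => hv.2.2.1)).unique (key W' a' b')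

theorem Ctx.d2_const (c : Ctx X V) {x : X} {W : ℂ} {S : Set ℂ} (hS : IsPreconnected S)
    (h : ∀ Z ∈ S, (Z, W) ∈ c.D ∧ c.Q (Z, W) ∈ (c.ch x).source) {Z₁ Z₂ : ℂ} (h₁ : Z₁ ∈ S)
    (h₂ : Z₂ ∈ S) :
    fderiv ℂ (c.ch x ∘ c.Q) (Z₁, W) (0, 1) = fderiv ℂ (c.ch x ∘ c.Q) (Z₂, W) (0, 1) := by
  have key : ∀ Z, (Z, W) ∈ c.D → c.Q (Z, W) ∈ (c.ch x).source →
      HasDerivAt (fun w => (1 - c.p) (c.ch x (c.Q (Z, w))))
        (fderiv ℂ (c.ch x ∘ c.Q) (Z, W) (0, 1)) W := by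
    intro Z a b
    have := ((1 - c.p).hasFDerivAt.comp W ((c.diff x _ a b).hasFDerivAt.comp W
      (hasFDerivAt_prodMk_right Z W))).hasDerivAt
    refine this.congr_deriv ?_
    change fderiv ℂ (c.ch x ∘ c.Q) (Z, W) (0, 1) - c.p (fderiv ℂ (c.ch x ∘ c.Q) (Z, W) (0, 1)) = _
    rw [c.tan2 x _ a b 1, sub_zero]
  refine split0_loc hS (f := fun Z => fderiv ℂ (c.ch x ∘ c.Q) (Z, W) (0, 1)) (fun Z hZ => ?_) h₁ h₂
  obtain ⟨a, b⟩ := h Z hZ
  refine (c.split a b).curry_nhds.mono fun Z' hZ' => ?_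
  obtain ⟨a', b', -⟩ := hZ'.self_of_nhds
  exact ((key Z a b).congr_of_eventuallyEq (hZ'.mono fun v hv => hv.2.2.2)).unique (key Z' a' b')

end Vale.Agent.P278
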