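import Vale.Agent.P278.Basic
import Vale.Agent.P278.Split0

/-!
P278 task Split: maps of product type in charts; local splitting and uniqueness.

Plan. `pt_iff`: `md_prod_iff`, `mdifferentiableAt_atlas`, `mdifferentiableAt_atlas_symm` (near `q`,
`R = ψ.symm ∘ (ψ ∘ R)`), `tang_iff` (also for `hP.one_sub`), `mfderiv_eq_fderiv`, and the chain rule
for the slices `x ↦ (x, q.2)`, `y ↦ (q.1, y)`.
`pt_mk`: differentiability by composition (`MDifferentiableAt.comp`, `mdifferentiableAt_fst`,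
`ContinuousLinearMap.mdifferentiableAt`, `.add`); for the tangency use `tang_iff` with `ψ`: near the
point `ψ ∘ slice = p ∘ ψ ∘ f + const`, whose `mfderiv` is `p ∘ mfderiv (ψ ∘ f)`, fixed by `p` (`hp`).
`pt_split`: compose with `α = (chartAt A q.1).symm`, `β = (chartAt B q.2).symm` (`PT.comp` at nearby
points), apply `pt_iff` and `split_nhds`, and pull back along the charts.
`pt_uniq`: `pt_split` for both in `chartAt V (R q)`. `diag_br`: with `g = ψ ∘ S`, `pt_split` on the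
diagonal gives `p (ψ x') = p (g (x', x'))= p (g (x', x))` and `(1-p) (ψ y') = (1-p) (g (x, y'))` near
`x`; then `pt_split` again gives `g z = p (ψ z.1) + (1-p) (ψ z.2)`.
Auxiliary names: start with `split_`.
-/

namespace Vale.Agent.P278

open scoped Manifold ContDiff Topology

variable {V : Type*} [NormedAddCommGroup V] [NormedSpace ℂ V]
  {X : Type*} [TopologicalSpace X] [ChartedSpace V X] [IsManifold 𝓘(ℂ, V) ω X]
  {A B : Type*} [NormedAddCommGroup A] [NormedSpace ℂ A] [NormedAddCommGroup B]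
  [NormedSpace ℂ B] {N₁ N₂ : Type*} [TopologicalSpace N₁] [ChartedSpace A N₁]
  [TopologicalSpace N₂] [ChartedSpace B N₂] {p : V →L[ℂ] V} {ψ : OpenPartialHomeomorph X V}

theorem split_slice {g : A × B → V} {q : A × B} (h : DifferentiableAt ℂ g q) :
    (∀ v, fderiv ℂ (fun x => g (x, q.2)) q.1 v = fderiv ℂ g q (v, 0)) ∧
      ∀ w, fderiv ℂ (fun y => g (q.1, y)) q.2 w = fderiv ℂ g q (0, w) := by
  have h1 : HasFDerivAt (fun x => g (x, q.2))
      ((fderiv ℂ g q).comp (ContinuousLinearMap.inl ℂ A B)) q.1 :=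
    HasFDerivAt.comp (g := g) (f := fun x : A => (x, q.2)) q.1 h.hasFDerivAt
      (hasFDerivAt_prodMk_left q.1 q.2)
  have h2 : HasFDerivAt (fun y => g (q.1, y))
      ((fderiv ℂ g q).comp (ContinuousLinearMap.inr ℂ A B)) q.2 :=
    HasFDerivAt.comp (g := g) (f := fun y : B => (q.1, y)) q.2 h.hasFDerivAt
      (hasFDerivAt_prodMk_right q.1 q.2)
  exact ⟨fun v => by rw [h1.fderiv]; rfl, fun w => by rw [h2.fderiv]; rfl⟩

omit [IsManifold 𝓘(ℂ, V) ω X] in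
theorem split_md1 {R : N₁ × N₂ → X} {q : N₁ × N₂}
    (h : MDifferentiableAt (𝓘(ℂ, A).prod 𝓘(ℂ, B)) 𝓘(ℂ, V) R q) :
    MDifferentiableAt 𝓘(ℂ, A) 𝓘(ℂ, V) (fun x => R (x, q.2)) q.1 :=
  MDifferentiableAt.comp (I' := 𝓘(ℂ, A).prod 𝓘(ℂ, B)) (g := R) (f := fun x : N₁ => (x, q.2)) q.1 h
    (mdifferentiableAt_id.prodMk mdifferentiableAt_const)

omit [IsManifold 𝓘(ℂ, V) ω X] in
theorem split_md2 {R : N₁ × N₂ → X} {q : N₁ × N₂}
    (h : MDifferentiableAt (𝓘(ℂ, A).prod 𝓘(ℂ, B)) 𝓘(ℂ, V) R q) :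
    MDifferentiableAt 𝓘(ℂ, B) 𝓘(ℂ, V) (fun y => R (q.1, y)) q.2 :=
  MDifferentiableAt.comp (I' := 𝓘(ℂ, A).prod 𝓘(ℂ, B)) (g := R) (f := fun y : N₂ => (q.1, y)) q.2 h
    (mdifferentiableAt_const.prodMk mdifferentiableAt_id)

theorem split_tang {P : V →L[ℂ] V} (hP : IsIdempotentElem P) {h k : N₁ → V} {x : N₁} {c : V}
    (hh : MDifferentiableAt 𝓘(ℂ, A) 𝓘(ℂ, V) h x) (e : k =ᶠ[𝓝 x] fun y => P (h y) + c) (v : A) :
    P (mfderiv 𝓘(ℂ, A) 𝓘(ℂ, V) k x v) = mfderiv 𝓘(ℂ, A) 𝓘(ℂ, V) k x v := by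
  have h1 := ((P.hasMFDerivAt (x := h x)).comp x hh.hasMFDerivAt).add
    (hasMFDerivAt_const (I := 𝓘(ℂ, A)) (I' := 𝓘(ℂ, V)) c x)
  have h2 := (h1.congr_of_eventuallyEq e).mfderiv
  have h3 : @Eq V (mfderiv 𝓘(ℂ, A) 𝓘(ℂ, V) k x v) (P (mfderiv 𝓘(ℂ, A) 𝓘(ℂ, V) h x v) + 0) := by
    rw [h2]; rfl
  rw [add_zero] at h3
  have h4 : ∀ w : V, P (P w) = P w := fun w => congrArg (fun T : V →L[ℂ] V => T w) hP
  exact (congrArg P h3).trans ((h4 _).trans h3.symm)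

theorem split_add (p : V →L[ℂ] V) (v : V) : v = p v + (1 - p) v := by
  simp

theorem pt_iff (hP : PAtl p X) (hψ : ψ ∈ atlas V X) {R : A × B → X} {q : A × B}
    (hc : ContinuousAt R q) (hq : R q ∈ ψ.source) :
    PT A B p R q ↔ DifferentiableAt ℂ (ψ ∘ R) q ∧
      (∀ v, p (fderiv ℂ (ψ ∘ R) q (v, 0)) = fderiv ℂ (ψ ∘ R) q (v, 0)) ∧
      ∀ w, p (fderiv ℂ (ψ ∘ R) q (0, w)) = 0 := by
  have key : MDifferentiableAt (𝓘(ℂ, A).prod 𝓘(ℂ, B)) 𝓘(ℂ, V) R q ↔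
      DifferentiableAt ℂ (ψ ∘ R) q := by
    rw [md_prod_iff, ← mdifferentiableAt_iff_differentiableAt]
    refine ⟨fun h => (mdifferentiableAt_atlas hψ hq).comp q h, fun h => ?_⟩
    refine ((mdifferentiableAt_atlas_symm (I := 𝓘(ℂ, V)) hψ (ψ.map_source hq)).comp q
      h).congr_of_eventuallyEq ?_
    filter_upwards [hc.eventually (ψ.open_source.mem_nhds hq)] with z hz
    exact (ψ.left_inv hz).symm
  unfold PT
  rw [← key]
  refine and_congr_right fun h => ?_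
  have hs := split_slice (key.1 h)
  have e1 : ∀ v : A, (mfderiv 𝓘(ℂ, A) 𝓘(ℂ, V) (ψ ∘ fun x => R (x, q.2)) q.1 v : V) =
      fderiv ℂ (ψ ∘ R) q (v, 0) := fun v => by
    rw [mfderiv_eq_fderiv]; exact hs.1 v
  have e2 : ∀ w : B, (mfderiv 𝓘(ℂ, B) 𝓘(ℂ, V) (ψ ∘ fun y => R (q.1, y)) q.2 w : V) =
      fderiv ℂ (ψ ∘ R) q (0, w) := fun w => by
    rw [mfderiv_eq_fderiv]; exact hs.2 w
  rw [tang_iff hP hψ (f := fun x => R (x, q.2)) (x := q.1) hq (split_md1 h),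
    tang_iff hP.one_sub hψ (f := fun y => R (q.1, y)) (x := q.2) hq (split_md2 h)]
  refine and_congr (forall_congr' fun v => ?_) (forall_congr' fun w => ?_)
  · exact Iff.of_eq (congrArg (fun u : V => p u = u) (e1 v))
  · refine (Iff.of_eq (congrArg (fun u : V => (1 - p) u = u) (e2 w))).trans ?_
    simp

theorem pt_mk (hP : PAtl p X) (hp : IsIdempotentElem p) (hψ : ψ ∈ atlas V X) {f : N₁ → X}
    {g : N₂ → X} {q : N₁ × N₂} (hf : MDifferentiableAt 𝓘(ℂ, A) 𝓘(ℂ, V) f q.1)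
    (hg : MDifferentiableAt 𝓘(ℂ, B) 𝓘(ℂ, V) g q.2) (h₁ : f q.1 ∈ ψ.source)
    (h₂ : g q.2 ∈ ψ.source) (h₃ : p (ψ (f q.1)) + (1 - p) (ψ (g q.2)) ∈ ψ.target) :
    PT A B p (fun z => ψ.symm (p (ψ (f z.1)) + (1 - p) (ψ (g z.2)))) q := by
  have hf' : MDifferentiableAt 𝓘(ℂ, A) 𝓘(ℂ, V) (ψ ∘ f) q.1 :=
    (mdifferentiableAt_atlas hψ h₁).comp q.1 hf
  have hg' : MDifferentiableAt 𝓘(ℂ, B) 𝓘(ℂ, V) (ψ ∘ g) q.2 :=
    (mdifferentiableAt_atlas hψ h₂).comp q.2 hg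
  have hG : MDifferentiableAt (𝓘(ℂ, A).prod 𝓘(ℂ, B)) 𝓘(ℂ, V)
      (fun z : N₁ × N₂ => p (ψ (f z.1)) + (1 - p) (ψ (g z.2))) q :=
    (p.mdifferentiableAt.comp q (hf'.comp q mdifferentiableAt_fst)).add
      ((1 - p).mdifferentiableAt.comp q (hg'.comp q mdifferentiableAt_snd))
  have hR : MDifferentiableAt (𝓘(ℂ, A).prod 𝓘(ℂ, B)) 𝓘(ℂ, V)
      (fun z : N₁ × N₂ => ψ.symm (p (ψ (f z.1)) + (1 - p) (ψ (g z.2)))) q :=
    (mdifferentiableAt_atlas_symm (I := 𝓘(ℂ, V)) hψ h₃).comp q hG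
  refine ⟨hR, (tang_iff hP hψ (x := q.1)
    (f := fun x => ψ.symm (p (ψ (f x)) + (1 - p) (ψ (g q.2)))) (ψ.map_target h₃)
    (split_md1 hR)).2 (split_tang (A := A) hp hf' (c := (1 - p) (ψ (g q.2))) ?_),
    (tang_iff hP.one_sub hψ (x := q.2)
    (f := fun y => ψ.symm (p (ψ (f q.1)) + (1 - p) (ψ (g y)))) (ψ.map_target h₃)
    (split_md2 hR)).2 (split_tang (A := B) hp.one_sub hg' (c := p (ψ (f q.1))) ?_)⟩
  · filter_upwards [(split_md1 hG).continuousAt.eventually (ψ.open_target.mem_nhds h₃)] with x hx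
    exact ψ.right_inv hx
  · filter_upwards [(split_md2 hG).continuousAt.eventually (ψ.open_target.mem_nhds h₃)] with x hx
    exact (ψ.right_inv hx).trans (add_comm _ _)

theorem pt_split [IsManifold 𝓘(ℂ, A) ω N₁] [IsManifold 𝓘(ℂ, B) ω N₂] (hP : PAtl p X)
    (hψ : ψ ∈ atlas V X) {R : N₁ × N₂ → X} {q : N₁ × N₂} (hR : ∀ᶠ z in 𝓝 q, PT A B p R z)
    (hq : R q ∈ ψ.source) :
    ∀ᶠ z in 𝓝 q, R z ∈ ψ.source ∧ p (ψ (R z)) = p (ψ (R (z.1, q.2))) ∧
      (1 - p) (ψ (R z)) = (1 - p) (ψ (R (q.1, z.2))) := by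
  set a := chartAt A q.1 with ha
  set b := chartAt B q.2 with hb
  have ha1 : q.1 ∈ a.source := mem_chart_source A q.1
  have hb1 : q.2 ∈ b.source := mem_chart_source B q.2
  have hs : ∀ᶠ z in 𝓝 q, R z ∈ ψ.source :=
    hR.self_of_nhds.1.continuousAt.eventually (ψ.open_source.mem_nhds hq)
  have t1 : Filter.Tendsto (fun z : A × B => (a.symm z.1, b.symm z.2)) (𝓝 (a q.1, b q.2)) (𝓝 q) :=
    ((a.tendsto_symm ha1).comp (continuous_fst.tendsto (a q.1, b q.2))).prodMk_nhds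
      ((b.tendsto_symm hb1).comp (continuous_snd.tendsto (a q.1, b q.2)))
  have t2 : Filter.Tendsto (fun z : N₁ × N₂ => (a z.1, b z.2)) (𝓝 q) (𝓝 (a q.1, b q.2)) :=
    ((a.continuousAt ha1).tendsto.comp (continuous_fst.tendsto q)).prodMk_nhds
      ((b.continuousAt hb1).tendsto.comp (continuous_snd.tendsto q))
  have h1 := split_nhds (g := ψ ∘ fun z : A × B => R (a.symm z.1, b.symm z.2)) (p := p)
    (q := (a q.1, b q.2)) (by
      filter_upwards [t1.eventually hR, t1.eventually hs,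
        (continuous_fst.tendsto (a q.1, b q.2)).eventually
          (a.open_target.mem_nhds (a.map_source ha1)),
        (continuous_snd.tendsto (a q.1, b q.2)).eventually
          (b.open_target.mem_nhds (b.map_source hb1))] with z g1 g2 g3 g4
      have g5 : PT A B p (fun z : A × B => R (a.symm z.1, b.symm z.2)) z :=
        PT.comp g1 (mdifferentiableAt_atlas_symm (chart_mem_atlas A q.1) g3)
          (mdifferentiableAt_atlas_symm (chart_mem_atlas B q.2) g4)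
      exact (pt_iff hP hψ g5.1.continuousAt g2).1 g5)
  filter_upwards [hs, t2.eventually h1,
    (continuous_fst.tendsto q).eventually (a.open_source.mem_nhds ha1),
    (continuous_snd.tendsto q).eventually (b.open_source.mem_nhds hb1)] with z g1 g2 g3 g4
  simp only [Function.comp_apply, a.left_inv g3, b.left_inv g4, a.left_inv ha1,
    b.left_inv hb1] at g2
  exact ⟨g1, g2⟩

theorem pt_uniq [IsManifold 𝓘(ℂ, A) ω N₁] [IsManifold 𝓘(ℂ, B) ω N₂] (hP : PAtl p X)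
    {R R' : N₁ × N₂ → X} {q : N₁ × N₂} (hR : ∀ᶠ z in 𝓝 q, PT A B p R z)
    (hR' : ∀ᶠ z in 𝓝 q, PT A B p R' z)
    (h₁ : (fun x => R (x, q.2)) =ᶠ[𝓝 q.1] fun x => R' (x, q.2))
    (h₂ : (fun y => R (q.1, y)) =ᶠ[𝓝 q.2] fun y => R' (q.1, y)) : R =ᶠ[𝓝 q] R' := by
  have hq : R q ∈ (chartAt V (R q)).source := mem_chart_source V (R q)
  have e : R q = R' q := h₁.eq_of_nhds
  filter_upwards [pt_split hP (chart_mem_atlas V (R q)) hR hq,
    pt_split hP (chart_mem_atlas V (R q)) hR' (e ▸ hq), (continuous_fst.tendsto q).eventually h₁,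
    (continuous_snd.tendsto q).eventually h₂] with z g1 g2 g3 g4
  refine (chartAt V (R q)).injOn g1.1 g2.1 ?_
  rw [split_add p (chartAt V (R q) (R z)), split_add p (chartAt V (R q) (R' z)), g1.2.1, g1.2.2,
    g2.2.1, g2.2.2, g3, g4]

theorem br_pt (hP : PAtl p X) (hp : IsIdempotentElem p) (hψ : ψ ∈ atlas V X) {q : X × X}
    (h₁ : q.1 ∈ ψ.source) (h₂ : q.2 ∈ ψ.source) (h₃ : p (ψ q.1) + (1 - p) (ψ q.2) ∈ ψ.target) :
    PT V V p (br p ψ) q :=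
  pt_mk (f := id) (g := id) hP hp hψ mdifferentiableAt_id mdifferentiableAt_id h₁ h₂ h₃

theorem diag_br (hP : PAtl p X) (hψ : ψ ∈ atlas V X) {S : X × X → X} {x : X}
    (hx : x ∈ ψ.source) (hS : ∀ᶠ z in 𝓝 (x, x), PT V V p S z)
    (hd : ∀ᶠ x' in 𝓝 x, S (x', x') = x') : S =ᶠ[𝓝 (x, x)] br p ψ := by
  have e : S (x, x) = x := hd.self_of_nhds
  have h1 := pt_split hP hψ hS (e.symm ▸ hx)
  have t : Filter.Tendsto (fun y : X => (y, y)) (𝓝 x) (𝓝 (x, x)) :=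
    Filter.tendsto_id.prodMk_nhds Filter.tendsto_id
  have h2 : ∀ᶠ y in 𝓝 x, p (ψ y) = p (ψ (S (y, x))) ∧ (1 - p) (ψ y) = (1 - p) (ψ (S (x, y))) := by
    filter_upwards [t.eventually h1, hd] with y g1 g2
    rw [g2] at g1
    exact g1.2
  filter_upwards [h1, (continuous_fst.tendsto (x, x)).eventually h2,
    (continuous_snd.tendsto (x, x)).eventually h2] with z g1 g2 g3
  unfold br
  rw [g2.1, g3.2, ← g1.2.1, ← g1.2.2, ← split_add, ψ.left_inv g1.1]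

end Vale.Agent.P278
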