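import Vale.Agent.P278.Pb
import Vale.Agent.P278.Split
import Vale.Agent.P278.SD
import Vale.Agent.P278.Fill

/-!
P278 task Core: the removable-corner estimate on a manifold with a tamed closed form.

Plan. Choose `ch x` from `hU`. `D = {z | ∀ᶠ z' in 𝓝 z, PT ℂ ℂ p Q z'}` (open), `ε z = pb K Q z (1,-1) (I,-I)`
(`(I,-I) = I • (1,-1)`), `m z = √(ε z)`. Build `c : Ctx X V` with `Λ' = 2Λ²`: `diff, tan1, tan2` by
`pt_iff`; `mcont` from `pb_contDiffAt` with `ℓ = ContinuousLinearMap.id ℝ _` (and `md_prod_iff`).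
In a good ball, with `T = fderiv ℂ (ch x ∘ Q) z`, `n = ‖T (1,-1)‖`: `T (1,0) = p (T (1,-1))`,
`T (0,1) = -(1-p) (T (1,-1))`, so `‖T‖ ≤ 2Λ n`; by `pb_eq`, `n² ≤ Λ ε z` and `ε z ≤ Λ n²`.
With `ℓ (u, s) = (u, -u - s)` (real linear, `ℓ q = pt q.1 q.2`), `e₁ = (1,0)`, `e₂ = (I,0)`, `e₃ = (0,1)`,
put `e q = pb K Q (ℓ q) (ℓ e₁) (ℓ e₂)`, `J₁ q = pb .. (ℓ e₂) (ℓ e₃)`, `J₂ q = pb .. (ℓ e₃) (ℓ e₁)`;
`DivFree κ s₀ (Λ³) e J₁ J₂` from `pb_contDiffAt`, `pb_closed ℓ _ e₁ e₂ e₃`, and the bounds in the chart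
`ch (Q z)` (`|J| ≤ Λ n (Λ n) ≤ Λ³ e`). Then `Ctx.sd_of_divFree` and `Ctx.fill`.
Auxiliary names: start with `core_`.
-/

namespace Vale.Agent.P278

open scoped Manifold ContDiff Topology
open Set Metric

theorem core_alg {V : Type*} [NormedAddCommGroup V] [NormedSpace ℂ V] {p : V →L[ℂ] V} {Λ : ℝ}
    (hp : ‖p‖ ≤ Λ) (hq : ‖1 - p‖ ≤ Λ) (T : ℂ × ℂ →L[ℂ] V) (h1 : ∀ v, p (T (v, 0)) = T (v, 0))
    (h2 : ∀ v, p (T (0, v)) = 0) :
    ‖T (0, -1)‖ ≤ Λ * ‖T (1, -1)‖ ∧ ‖T‖ ≤ 2 * Λ * ‖T (1, -1)‖ := by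
  have L0 : 0 ≤ Λ := (norm_nonneg _).trans hp
  have e0 : T (1, -1) = T (1, 0) + T (0, -1) := by rw [← map_add]; simp
  have e1 : T (1, 0) = p (T (1, -1)) := by rw [e0, map_add, h1, h2, add_zero]
  have e2 : T (0, -1) = (1 - p) (T (1, -1)) := by
    rw [ContinuousLinearMap.sub_apply, ContinuousLinearMap.one_apply, ← e1, e0]
    abel
  have b1 : ‖T (1, 0)‖ ≤ Λ * ‖T (1, -1)‖ := by
    rw [e1]
    exact (p.le_opNorm _).trans (mul_le_mul_of_nonneg_right hp (norm_nonneg _))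
  have b2 : ‖T (0, -1)‖ ≤ Λ * ‖T (1, -1)‖ := by
    conv_lhs => rw [e2]
    exact ((1 - p).le_opNorm _).trans (mul_le_mul_of_nonneg_right hq (norm_nonneg _))
  refine ⟨b2, T.opNorm_le_bound (by positivity) fun z => ?_⟩
  have e3 : T z = z.1 • T (1, 0) - z.2 • T (0, -1) := by
    rw [← map_smul, ← map_smul, ← map_sub]
    congr 1
    ext <;> simp
  rw [e3]
  refine (norm_sub_le _ _).trans ?_
  rw [norm_smul, norm_smul]
  have c1 := mul_le_mul (norm_fst_le z) b1 (norm_nonneg _) (norm_nonneg _)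
  have c2 := mul_le_mul (norm_snd_le z) b2 (norm_nonneg _) (norm_nonneg _)
  linarith

theorem core_loc {V : Type*} [NormedAddCommGroup V] [NormedSpace ℂ V]
    {X : Type*} [TopologicalSpace X] [ChartedSpace V X] [IsManifold 𝓘(ℂ, V) ω X]
    {p : V →L[ℂ] V} (hP : PAtl p X) {K : Kah V X} {Λ : ℝ} (hp : ‖p‖ ≤ Λ) (hq : ‖1 - p‖ ≤ Λ)
    {Q : ℂ × ℂ → X} {z : ℂ × ℂ} (hz : PT ℂ ℂ p Q z) {ψ : OpenPartialHomeomorph X V}
    (hψ : ψ ∈ atlas V X) (hs : Q z ∈ ψ.source)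
    (hw : ∀ a b, ‖a‖ ^ 2 ≤ Λ * K.w ψ (ψ (Q z)) a (Complex.I • a) ∧
      |K.w ψ (ψ (Q z)) a b| ≤ Λ * ‖a‖ * ‖b‖) :
    ‖fderiv ℂ (ψ ∘ Q) z (1, -1)‖ ^ 2 ≤ Λ * pb K Q z (1, -1) (Complex.I, -Complex.I) ∧
      pb K Q z (1, -1) (Complex.I, -Complex.I) ≤ Λ * ‖fderiv ℂ (ψ ∘ Q) z (1, -1)‖ ^ 2 ∧
      ‖fderiv ℂ (ψ ∘ Q) z‖ ≤ 2 * Λ * ‖fderiv ℂ (ψ ∘ Q) z (1, -1)‖ ∧
      |pb K Q z (Complex.I, -Complex.I) (0, -1)| ≤ Λ ^ 2 * ‖fderiv ℂ (ψ ∘ Q) z (1, -1)‖ ^ 2 ∧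
      |pb K Q z (0, -1) (1, -1)| ≤ Λ ^ 2 * ‖fderiv ℂ (ψ ∘ Q) z (1, -1)‖ ^ 2 := by
  have L0 : 0 ≤ Λ := (norm_nonneg _).trans hp
  have md := md_prod_iff.1 hz.1
  obtain ⟨-, h1, h2⟩ := (pt_iff hP hψ hz.1.continuousAt hs).1 hz
  obtain ⟨b1, b2⟩ := core_alg hp hq _ h1 h2
  simp only [pb_eq K md hψ hs]
  generalize fderiv ℂ (ψ ∘ Q) z = T at *
  have e : T (Complex.I, -Complex.I) = Complex.I • T (1, -1) := by
    rw [← map_smul]
    congr 1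
    ext <;> simp
  have en : ‖Complex.I • T (1, -1)‖ = ‖T (1, -1)‖ := by rw [norm_smul, Complex.norm_I, one_mul]
  rw [e]
  have n0 := norm_nonneg (T (1, -1))
  have b3 := mul_le_mul_of_nonneg_left b1 (mul_nonneg L0 n0)
  refine ⟨(hw _ 0).1, ?_, b2, ?_, ?_⟩
  · have := (le_abs_self _).trans (hw (T (1, -1)) (Complex.I • T (1, -1))).2
    rw [en] at this
    linarith
  · have := (hw (Complex.I • T (1, -1)) (T (0, -1))).2
    rw [en] at this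
    linarith
  · have := (hw (T (0, -1)) (T (1, -1))).2
    linarith

/-- The real linear parametrisation of the flat discs. -/
noncomputable def core_l : ℂ × ℝ →L[ℝ] ℂ × ℂ :=
  (ContinuousLinearMap.fst ℝ ℂ ℝ).prod
    (-ContinuousLinearMap.fst ℝ ℂ ℝ - Complex.ofRealCLM.comp (ContinuousLinearMap.snd ℝ ℂ ℝ))

theorem core_l_apply (q : ℂ × ℝ) : core_l q = pt q.1 q.2 := rfl

theorem core_l1 : core_l (1, 0) = (1, -1) := by simp [core_l_apply, pt]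

theorem core_l2 : core_l (Complex.I, 0) = (Complex.I, -Complex.I) := by simp [core_l_apply, pt]

theorem core_l3 : core_l (0, 1) = (0, -1) := by simp [core_l_apply, pt]

theorem core {V : Type*} [NormedAddCommGroup V] [NormedSpace ℂ V] [FiniteDimensional ℂ V]
    {X : Type*} [TopologicalSpace X] [T2Space X] [ChartedSpace V X] [IsManifold 𝓘(ℂ, V) ω X]
    {p : V →L[ℂ] V} (hP : PAtl p X) {K : Kah V X} {δ Λ : ℝ} (hU : Unif K p δ Λ)
    {Q : ℂ × ℂ → X} {κ s₀ : ℝ} (hκ : 0 < κ) (hs₀ : 0 < s₀)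
    (hQ : ∀ (u : ℂ) (s : ℝ), κ * ‖u‖ ^ 2 < s → s < s₀ → ∀ᶠ z in 𝓝 (pt u s), PT ℂ ℂ p Q z)
    {δ₂ : ℝ} (hδ₂ : 0 < δ₂) :
    ∃ ψ ∈ atlas V X, ∃ c₀ : V, closedBall c₀ δ ⊆ ψ.target ∧ ∃ d > 0, ∀ s ∈ Ioo (0 : ℝ) d,
      ∀ u : ℂ, ‖u‖ ≤ s → Q (pt u s) ∈ ψ.source ∧ ‖ψ (Q (pt u s)) - c₀‖ ≤ δ₂ := by
  have : CompleteSpace V := FiniteDimensional.complete ℂ V
  obtain ⟨hδ, hΛ, hp, hq, hch⟩ := hU
  choose ch c1 c2 c3 c4 using hch
  have L0 : 0 < Λ := one_pos.trans_le hΛ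
  have L2 : Λ ≤ 2 * Λ ^ 2 := by nlinarith
  let D : Set (ℂ × ℂ) := {z | ∀ᶠ z' in 𝓝 z, PT ℂ ℂ p Q z'}
  have D1 : ∀ z ∈ D, PT ℂ ℂ p Q z := fun z hz => Filter.Eventually.self_of_nhds hz
  have D2 : ∀ z ∈ D, ∀ᶠ z' in 𝓝 z, MDifferentiableAt 𝓘(ℂ, ℂ × ℂ) 𝓘(ℂ, V) Q z' := fun z hz =>
    Filter.Eventually.mono hz fun z' h => md_prod_iff.1 h.1
  have loc := fun x z (hz : z ∈ D) (hs : Q z ∈ (ch x).source)
      (hb : ‖ch x (Q z) - ch x x‖ ≤ δ) =>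
    core_loc hP hp hq (D1 z hz) (c1 x) hs (c4 x _ (mem_closedBall_iff_norm.2 hb))
  let c : Ctx X V :=
    { p := p, Q := Q, D := D, m := fun z => √(pb K Q z (1, -1) (Complex.I, -Complex.I)), δ := δ,
      Λ := 2 * Λ ^ 2, ch := ch, δpos := hδ, Λge := hΛ.trans L2, np := hp.trans L2,
      nq := hq.trans L2, isOpen := isOpen_setOfPred_eventually_nhds,
      cont := fun z hz => (D1 z hz).1.continuousAt.continuousWithinAt,
      mcont := fun z hz => (pb_contDiffAt K (ContinuousLinearMap.id ℝ _) (D2 z hz) (1, -1)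
        (Complex.I, -Complex.I)).continuousAt.sqrt.continuousWithinAt,
      mnn := fun z => Real.sqrt_nonneg _, mem := c2, sub := c3,
      diff := fun x z hz hs => ((pt_iff hP (c1 x) (D1 z hz).1.continuousAt hs).1 (D1 z hz)).1,
      tan1 := fun x z hz hs => ((pt_iff hP (c1 x) (D1 z hz).1.continuousAt hs).1 (D1 z hz)).2.1,
      tan2 := fun x z hz hs => ((pt_iff hP (c1 x) (D1 z hz).1.continuousAt hs).1 (D1 z hz)).2.2,
      up := fun x z hz hs hb => by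
        obtain ⟨a1, -, a3, -⟩ := loc x z hz hs hb
        have e0 : 0 ≤ pb K Q z (1, -1) (Complex.I, -Complex.I) :=
          nonneg_of_mul_nonneg_right ((sq_nonneg _).trans a1) L0
        have b : ‖fderiv ℂ (ch x ∘ Q) z (1, -1)‖ ≤
            Λ * √(pb K Q z (1, -1) (Complex.I, -Complex.I)) := by
          refine le_of_sq_le_sq ?_ (by positivity) |>.trans le_rfl
          rw [mul_pow, Real.sq_sqrt e0]
          exact a1.trans (mul_le_mul_of_nonneg_right (by nlinarith) e0)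
        have := mul_le_mul_of_nonneg_left b (by positivity : 0 ≤ 2 * Λ)
        linarith
      lo := fun x z hz hs hb => by
        obtain ⟨-, a2, -⟩ := loc x z hz hs hb
        refine Real.sqrt_le_iff.2 ⟨by positivity, a2.trans ?_⟩
        rw [mul_pow]
        exact mul_le_mul_of_nonneg_right (by nlinarith) (sq_nonneg _) }
  have hD : ∀ q ∈ Om κ s₀, core_l q ∈ D := fun q hq => hQ q.1 q.2 hq.1 hq.2
  have loc' := fun q (hq : q ∈ Om κ s₀) => loc (Q (core_l q)) _ (hD q hq) (c2 _) (by simp [hδ.le])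
  have e0 : ∀ q ∈ Om κ s₀, 0 ≤ pb K Q (core_l q) (1, -1) (Complex.I, -Complex.I) := fun q hq =>
    nonneg_of_mul_nonneg_right ((sq_nonneg _).trans (loc' q hq).1) L0
  have hdf : DivFree κ s₀ (Λ ^ 3)
      (fun q => pb K Q (core_l q) (core_l (1, 0)) (core_l (Complex.I, 0)))
      (fun q => pb K Q (core_l q) (core_l (Complex.I, 0)) (core_l (0, 1)))
      (fun q => pb K Q (core_l q) (core_l (0, 1)) (core_l (1, 0))) :=
    { ce := fun q hq => (pb_contDiffAt K core_l (D2 _ (hD q hq)) _ _).contDiffWithinAt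
      c1 := fun q hq => (pb_contDiffAt K core_l (D2 _ (hD q hq)) _ _).contDiffWithinAt
      c2 := fun q hq => (pb_contDiffAt K core_l (D2 _ (hD q hq)) _ _).contDiffWithinAt
      div := fun q hq => pb_closed K core_l (D2 _ (hD q hq)) _ _ _
      nonneg := fun q hq => by
        rw [core_l1, core_l2]
        exact e0 q hq
      b1 := fun q hq => by
        rw [core_l1, core_l2, core_l3]
        obtain ⟨a1, -, -, a4, -⟩ := loc' q hq
        have := mul_le_mul_of_nonneg_left a1 (sq_nonneg Λ)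
        linarith
      b2 := fun q hq => by
        rw [core_l1, core_l2, core_l3]
        obtain ⟨a1, -, -, -, a5⟩ := loc' q hq
        have := mul_le_mul_of_nonneg_left a1 (sq_nonneg Λ)
        linarith }
  have hSD := c.sd_of_divFree hdf hκ hs₀ (by positivity) fun q hq => ⟨hD q hq, by
    rw [core_l1, core_l2]
    exact Real.sq_sqrt (e0 q hq)⟩
  obtain ⟨x, d, hd, h⟩ := c.fill hSD hδ₂
  exact ⟨ch x, c1 x, ch x x, c3 x, d, hd, h⟩

end Vale.Agent.P278
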