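import Vale.Agent.P278.Patch
import Vale.Agent.P278.Core
import Vale.Agent.P278.CDom

/-!
P278 task Corner: the rectangle extends across a point of the distinguished boundary.

Plan. `a, b, κ, s₀` as in `corner_dom`; `ι₁ Z = q₀.1 + (1 + a Z) • (P.1 - q₀.1)`,
`ι₂ W = q₀.2 + (1 + b W) • (P.2 - q₀.2)` (`‖ι₁ Z - q₀.1‖ = σ ‖1 + a Z‖`), `Q z = R (ι₁ z.1, ι₂ z.2)`.
`PT.comp` and continuity give the hypothesis of `core`; use it with `δ₂ = δ/(4Λ)` to get `ψ, c₀, d`.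
Choose `t > 0` with `2t < d`, `2t < s₀`, `κ t < 1`, `a t < 1`, `b t < 1`. For real `τ ∈ [-t, 0]`:
`(τ, -t) = pt τ (t - τ)` and `(-t, τ) = pt (-t) (t - τ)`, with height in `[t, 2t]`. Let
`f = R (·, ι₂ (-t))`, `g = R (ι₁ (-t), ·)`. The set of `z` near which `f` is differentiable, maps into
`ψ.source` and satisfies `‖ψ (f ·) - c₀‖ < δ/(2Λ)` is open and contains the compact
`segment ℝ (ι₁ (-t)) P.1` (its points are `ι₁ τ`); take `N₁ = thickening ε` of the segment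
(`IsCompact.exists_thickening_subset_open`, `Convex.thickening`), likewise `N₂`. Apply `patch` with
`q' = (ι₁ (-t), ι₂ (-t)) ∈ ball ×ˢ ball`; `‖p (ψ (f z)) + (1-p) (ψ (g w)) - c₀‖ ≤ δ`.
Auxiliary names: start with `corner_aux`.
-/

namespace Vale.Agent.P278

open scoped Manifold ContDiff Topology
open Set Metric

/-- The complex line through `z₀` and `v`, rescaled. -/
noncomputable def corner_auxI {V : Type*} [NormedAddCommGroup V] [NormedSpace ℂ V] (z₀ v : V)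
    (a : ℝ) (Z : ℂ) : V := z₀ + (1 + a * Z) • (v - z₀)

theorem corner_aux_norm {V : Type*} [NormedAddCommGroup V] [NormedSpace ℂ V] (z₀ v : V) (a : ℝ)
    (Z : ℂ) : ‖corner_auxI z₀ v a Z - z₀‖ = ‖v - z₀‖ * ‖1 + a * Z‖ := by
  rw [corner_auxI, add_sub_cancel_left, norm_smul, mul_comm]

theorem corner_aux_diff {V : Type*} [NormedAddCommGroup V] [NormedSpace ℂ V] (z₀ v : V) (a : ℝ) :
    Differentiable ℂ (corner_auxI z₀ v a) := by
  unfold corner_auxI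
  fun_prop

theorem corner_aux_ball {V : Type*} [NormedAddCommGroup V] [NormedSpace ℂ V] {z₀ v : V}
    {a t σ : ℝ} (hσ : 0 < σ) (h : ‖v - z₀‖ = σ) (ha : 0 < a) (ht : 0 < t) (hat : a * t < 1) :
    corner_auxI z₀ v a ((-t : ℝ) : ℂ) ∈ ball z₀ σ := by
  rw [mem_ball_iff_norm, corner_aux_norm, h]
  have e : (1 + a * ((-t : ℝ) : ℂ) : ℂ) = ((1 - a * t : ℝ) : ℂ) := by
    push_cast
    ring
  rw [e, Complex.norm_real, Real.norm_of_nonneg (by linarith)]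
  nlinarith [mul_pos hσ (mul_pos ha ht)]

theorem corner_aux_nb {V : Type*} [NormedAddCommGroup V] [NormedSpace ℂ V]
    {X : Type*} [TopologicalSpace X] [ChartedSpace V X] {f : V → X}
    {ψ : OpenPartialHomeomorph X V} {c₀ z₀ v : V} {η a t : ℝ} (ht : 0 ≤ t)
    (h : ∀ τ : ℝ, -t ≤ τ → τ ≤ 0 →
      (∀ᶠ z in 𝓝 (corner_auxI z₀ v a τ), MDifferentiableAt 𝓘(ℂ, V) 𝓘(ℂ, V) f z) ∧
        f (corner_auxI z₀ v a τ) ∈ ψ.source ∧ ‖ψ (f (corner_auxI z₀ v a τ)) - c₀‖ < η) :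
    ∃ N : Set V, IsOpen N ∧ Convex ℝ N ∧ corner_auxI z₀ v a ((-t : ℝ) : ℂ) ∈ N ∧ v ∈ N ∧
      ∀ z ∈ N, MDifferentiableAt 𝓘(ℂ, V) 𝓘(ℂ, V) f z ∧ f z ∈ ψ.source ∧ ‖ψ (f z) - c₀‖ < η := by
  have hc : IsCompact (segment ℝ (corner_auxI z₀ v a ((-t : ℝ) : ℂ)) v) := by
    rw [segment_eq_image]
    exact isCompact_Icc.image (by fun_prop)
  have hs : segment ℝ (corner_auxI z₀ v a ((-t : ℝ) : ℂ)) v ⊆ {z | ∀ᶠ z' in 𝓝 z,
      MDifferentiableAt 𝓘(ℂ, V) 𝓘(ℂ, V) f z' ∧ f z' ∈ ψ.source ∧ ‖ψ (f z') - c₀‖ < η} := by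
    rintro z ⟨α, β, h1, h2, h3, rfl⟩
    have e : α • corner_auxI z₀ v a ((-t : ℝ) : ℂ) + β • v =
        corner_auxI z₀ v a ((-(α * t) : ℝ) : ℂ) := by
      obtain rfl : β = 1 - α := by linarith
      rw [corner_auxI, corner_auxI, ← Complex.coe_smul, ← Complex.coe_smul]
      push_cast
      module
    rw [e]
    obtain ⟨h4, h5, h6⟩ := h (-(α * t)) (by nlinarith) (by nlinarith)
    have h7 := h4.self_of_nhds.continuousAt
    refine h4.and ((h7.eventually (ψ.open_source.mem_nhds h5)).and ?_)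
    exact ((((ψ.continuousAt h5).comp h7).sub continuousAt_const).norm.eventually_lt
      continuousAt_const h6)
  obtain ⟨ε, hε, h8⟩ := hc.exists_thickening_subset_open isOpen_setOfPred_eventually_nhds hs
  refine ⟨_, isOpen_thickening, (convex_segment _ _).thickening ε,
    self_subset_thickening hε _ (left_mem_segment _ _ _),
    self_subset_thickening hε _ (right_mem_segment _ _ _), fun z hz => ?_⟩
  have h9 : ∀ᶠ z' in 𝓝 z,
      MDifferentiableAt 𝓘(ℂ, V) 𝓘(ℂ, V) f z' ∧ f z' ∈ ψ.source ∧ ‖ψ (f z') - c₀‖ < η := h8 hz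
  exact h9.self_of_nhds

theorem corner {V : Type*} [NormedAddCommGroup V] [NormedSpace ℂ V] [FiniteDimensional ℂ V]
    {X : Type*} [TopologicalSpace X] [T2Space X] [ChartedSpace V X] [IsManifold 𝓘(ℂ, V) ω X]
    {p : V →L[ℂ] V} (hP : PAtl p X) (hp : IsIdempotentElem p) {K : Kah V X} {δ Λ : ℝ}
    (hU : Unif K p δ Λ) {q₀ P : V × V} {σ ρ σ' ρ' : ℝ} (hσ : 0 < σ) (hρ : 0 < ρ) (hσ' : σ < σ')
    (hρ' : ρ < ρ') {R : V × V → X}
    (hR : ∀ q : V × V, ‖q.1 - q₀.1‖ < σ' → ‖q.2 - q₀.2‖ < ρ' →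
      (σ' - σ) * (ρ' - ρ) < (σ' - ‖q.1 - q₀.1‖) * (ρ' - ‖q.2 - q₀.2‖) →
      ∀ᶠ z in 𝓝 q, PT V V p R z)
    (h₁ : ‖P.1 - q₀.1‖ = σ) (h₂ : ‖P.2 - q₀.2‖ = ρ) :
    LocExt p R (ball q₀.1 σ ×ˢ ball q₀.2 ρ) P := by
  obtain ⟨κ, hκ, s₀, hs₀, hd⟩ := corner_dom hσ hρ hσ' hρ' rfl rfl
  have a0 : 0 < 1 / (σ * (ρ' - ρ)) := one_div_pos.2 (mul_pos hσ (sub_pos.2 hρ'))
  have b0 : 0 < 1 / (ρ * (σ' - σ)) := one_div_pos.2 (mul_pos hρ (sub_pos.2 hσ'))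
  generalize 1 / (σ * (ρ' - ρ)) = a at hd a0
  generalize 1 / (ρ * (σ' - σ)) = b at hd b0
  have hR' : ∀ (u : ℂ) (s : ℝ), κ * ‖u‖ ^ 2 < s → s < s₀ →
      ∀ᶠ z in 𝓝 (corner_auxI q₀.1 P.1 a u, corner_auxI q₀.2 P.2 b (-u - s)), PT V V p R z := by
    intro u s e1 e2
    obtain ⟨e3, e4, e5⟩ := hd u s e1 e2
    apply hR <;> simp only [corner_aux_norm, h₁, h₂] <;> assumption
  have d1 := corner_aux_diff q₀.1 P.1 a
  have d2 := corner_aux_diff q₀.2 P.2 b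
  have L0 : 0 < Λ := one_pos.trans_le hU.2.1
  have hδ := hU.1
  obtain ⟨ψ, hψ, c₀, hc₀, d, d0, hin⟩ := core hP hU
    (Q := fun z => R (corner_auxI q₀.1 P.1 a z.1, corner_auxI q₀.2 P.2 b z.2)) hκ hs₀
    (fun u s e1 e2 => by
      have e3 : ContinuousAt (fun z : ℂ × ℂ =>
          (corner_auxI q₀.1 P.1 a z.1, corner_auxI q₀.2 P.2 b z.2)) (pt u s) :=
        ((d1.continuous.comp continuous_fst).prodMk (d2.continuous.comp continuous_snd)).continuousAt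
      filter_upwards [e3.eventually (hR' u s e1 e2)] with z hz
      exact PT.comp hz (d1 _).mdifferentiableAt (d2 _).mdifferentiableAt)
    (δ₂ := δ / (4 * Λ)) (by positivity)
  have ev : ∀ c e : ℝ, 0 < e → ∀ᶠ t in 𝓝[>] (0 : ℝ), c * t < e := fun c e he =>
    ((continuous_const.mul continuous_id).continuousAt.eventually_lt continuousAt_const
      (by simpa using he)).filter_mono nhdsWithin_le_nhds
  have ev0 : ∀ᶠ t in 𝓝[>] (0 : ℝ), 0 < t := self_mem_nhdsWithin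
  obtain ⟨t, t0, t1, t2, t3, t4, t5⟩ := (ev0.and
    ((ev 2 d d0).and ((ev 2 s₀ hs₀).and ((ev κ 1 one_pos).and ((ev a 1 one_pos).and
      (ev b 1 one_pos)))))).exists
  have lt : δ / (4 * Λ) < δ / (2 * Λ) := div_lt_div_of_pos_left hδ (by positivity) (by linarith)
  have key : ∀ τ₁ τ₂ : ℝ, -t ≤ τ₁ → τ₁ ≤ 0 → -t ≤ τ₂ → τ₁ + τ₂ ≤ -t →
      (∀ᶠ z in 𝓝 (corner_auxI q₀.1 P.1 a τ₁, corner_auxI q₀.2 P.2 b τ₂), PT V V p R z) ∧
      R (corner_auxI q₀.1 P.1 a τ₁, corner_auxI q₀.2 P.2 b τ₂) ∈ ψ.source ∧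
      ‖ψ (R (corner_auxI q₀.1 P.1 a τ₁, corner_auxI q₀.2 P.2 b τ₂)) - c₀‖ < δ / (2 * Λ) := by
    intro τ₁ τ₂ e1 e2 e3 e4
    have e5 : (-(τ₁ : ℂ) - ((-τ₁ - τ₂ : ℝ) : ℂ)) = τ₂ := by
      push_cast
      ring
    have e6 : ‖(τ₁ : ℂ)‖ ≤ t := by
      rw [Complex.norm_real, Real.norm_of_nonpos e2]
      linarith
    have e7 : κ * ‖(τ₁ : ℂ)‖ ^ 2 < -τ₁ - τ₂ := by
      have := mul_le_mul_of_nonneg_left (pow_le_pow_left₀ (norm_nonneg _) e6 2) hκ.le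
      nlinarith
    have e8 := hR' τ₁ (-τ₁ - τ₂) e7 (by linarith)
    have e9 := hin (-τ₁ - τ₂) ⟨by linarith, by linarith⟩ τ₁ (by linarith)
    simp only [pt, e5] at e8 e9
    exact ⟨e8, e9.1, e9.2.trans_lt lt⟩
  obtain ⟨N₁, o1, c1, m1, m1', n1⟩ := corner_aux_nb (z₀ := q₀.1) (v := P.1) (a := a)
    (f := fun z => R (z, corner_auxI q₀.2 P.2 b ((-t : ℝ) : ℂ))) (ψ := ψ) (c₀ := c₀)
    (η := δ / (2 * Λ)) t0.le fun τ e1 e2 => by
      obtain ⟨e3, e4⟩ := key τ (-t) e1 e2 le_rfl (by linarith)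
      refine ⟨?_, e4⟩
      filter_upwards [(Continuous.prodMk_left _).continuousAt.eventually e3] with z hz
      exact hz.md1
  obtain ⟨N₂, o2, c2, m2, m2', n2⟩ := corner_aux_nb (z₀ := q₀.2) (v := P.2) (a := b)
    (f := fun w => R (corner_auxI q₀.1 P.1 a ((-t : ℝ) : ℂ), w)) (ψ := ψ) (c₀ := c₀)
    (η := δ / (2 * Λ)) t0.le fun τ e1 e2 => by
      obtain ⟨e3, e4⟩ := key (-t) τ le_rfl (by linarith) e1 (by linarith)
      refine ⟨?_, e4⟩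
      filter_upwards [(Continuous.prodMk_right _).continuousAt.eventually e3] with z hz
      exact hz.md2
  refine patch hP hp o1 o2 c1 c2 ((convex_ball _ _).prod (convex_ball _ _))
    (q' := (corner_auxI q₀.1 P.1 a ((-t : ℝ) : ℂ), corner_auxI q₀.2 P.2 b ((-t : ℝ) : ℂ)))
    ⟨m1, m2⟩ ⟨corner_aux_ball hσ h₁ a0 t0 t4, corner_aux_ball hρ h₂ b0 t0 t5⟩ ⟨m1', m2'⟩
    (fun y hy => ?_) hψ (fun z hz => ⟨(n1 z hz).1, (n1 z hz).2.1⟩)
    (fun z hz => ⟨(n2 z hz).1, (n2 z hz).2.1⟩) (fun z hz w hw => hc₀ ?_)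
    (Filter.EventuallyEq.refl _ _) (Filter.EventuallyEq.refl _ _)
  · have e1 := mem_ball_iff_norm.1 hy.1
    have e2 := mem_ball_iff_norm.1 hy.2
    exact hR y (e1.trans hσ') (e2.trans hρ')
      (mul_lt_mul'' (by linarith) (by linarith) (by linarith) (by linarith))
  · have e1 := (n1 z hz).2.2.le
    have e2 := (n2 w hw).2.2.le
    generalize ψ (R (z, _)) = x at e1 ⊢
    generalize ψ (R (_, w)) = y at e2 ⊢
    have e3 : p x + (1 - p) y - c₀ = p (x - c₀) + (1 - p) (y - c₀) := by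
      simp only [map_sub, ContinuousLinearMap.sub_apply, ContinuousLinearMap.one_apply]
      abel
    rw [mem_closedBall_iff_norm, e3]
    have e4 := (p.le_opNorm (x - c₀)).trans
      (mul_le_mul hU.2.2.1 e1 (norm_nonneg _) L0.le)
    have e5 := ((1 - p).le_opNorm (y - c₀)).trans
      (mul_le_mul hU.2.2.2.1 e2 (norm_nonneg _) L0.le)
    have e6 : Λ * (δ / (2 * Λ)) = δ / 2 := by field_simp
    linarith [norm_add_le (p (x - c₀)) ((1 - p) (y - c₀))]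

end Vale.Agent.P278
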