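import Mathlib

/-!
P278: the chart-level data used in the removable-corner argument (definitions only).
-/

namespace Vale.Agent.P278

open Set Metric

/-- The point of `ℂ × ℂ` with first coordinate `u` on the flat disc of height `s`. -/
def pt (u : ℂ) (s : ℝ) : ℂ × ℂ := (u, -u - s)

/-- A map `Q` of product type on an open set `D ⊆ ℂ²`, a family of uniformly good charts, and an
intrinsic size `m` of the derivative of `Q`. -/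
structure Ctx (X V : Type*) [TopologicalSpace X] [NormedAddCommGroup V] [NormedSpace ℂ V] where
  p : V →L[ℂ] V
  Q : ℂ × ℂ → X
  D : Set (ℂ × ℂ)
  m : ℂ × ℂ → ℝ
  δ : ℝ
  Λ : ℝ
  ch : X → OpenPartialHomeomorph X V
  δpos : 0 < δ
  Λge : 1 ≤ Λ
  np : ‖p‖ ≤ Λ
  nq : ‖1 - p‖ ≤ Λ
  isOpen : IsOpen D
  cont : ContinuousOn Q D
  mcont : ContinuousOn m D
  mnn : ∀ z, 0 ≤ m z
  mem : ∀ x, x ∈ (ch x).source
  sub : ∀ x, closedBall (ch x x) δ ⊆ (ch x).target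
  diff : ∀ x, ∀ z ∈ D, Q z ∈ (ch x).source → DifferentiableAt ℂ (ch x ∘ Q) z
  tan1 : ∀ x, ∀ z ∈ D, Q z ∈ (ch x).source → ∀ v : ℂ,
    p (fderiv ℂ (ch x ∘ Q) z (v, 0)) = fderiv ℂ (ch x ∘ Q) z (v, 0)
  tan2 : ∀ x, ∀ z ∈ D, Q z ∈ (ch x).source → ∀ v : ℂ, p (fderiv ℂ (ch x ∘ Q) z (0, v)) = 0
  up : ∀ x, ∀ z ∈ D, Q z ∈ (ch x).source → ‖ch x (Q z) - ch x x‖ ≤ δ →
    ‖fderiv ℂ (ch x ∘ Q) z‖ ≤ Λ * m z
  lo : ∀ x, ∀ z ∈ D, Q z ∈ (ch x).source → ‖ch x (Q z) - ch x x‖ ≤ δ →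
    m z ≤ Λ * ‖fderiv ℂ (ch x ∘ Q) z (1, -1)‖

/-- Small scale-invariant derivative on long conical annuli. -/
def Ctx.SD {X V : Type*} [TopologicalSpace X] [NormedAddCommGroup V] [NormedSpace ℂ V]
    (c : Ctx X V) : Prop :=
  ∀ η > 0, ∀ L ≥ (1 : ℝ), ∀ K₀ : ℝ, ∃ K, K₀ ≤ K ∧ 0 < K ∧ ∃ d₁ > 0, ∀ s ∈ Ioo 0 d₁, ∀ u : ℂ,
    ‖u‖ ≤ L * K * s → pt u s ∈ c.D ∧ (K * s ≤ ‖u‖ → ‖u‖ * c.m (pt u s) ≤ η)

end Vale.Agent.P278
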