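import Vale.Agent.P278.Esc

/-!
P278 task Eps: small energy implies small derivative (epsilon regularity) on flat discs.

Plan. Put `t₀ = min (η/2) (δ/(4Λ))`, `ε = t₀² / (256 Λ⁸)`. Write `M u = c.m (pt u s)`. The function
`u ↦ (r - ‖u - u₀‖) M u` attains its maximum `μ ≥ r M u₀` on `closedBall u₀ r` at `u₁`. Suppose `μ > η`.
Let `r₁ = (r - ‖u₁ - u₀‖)/2 > 0`, `m₁ = M u₁ = μ/(2r₁) > 0`; on `closedBall u₁ r₁`, `M ≤ 2 m₁`. Let
`ρ = min r₁ (δ/(4Λ m₁))`, so `ρ m₁ ≥ t₀`. With `x = c.Q (pt u₁ s)`, `Ctx.escape_seg` (direction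
`(u - u₁, -(u - u₁))`, `μ = 2 m₁ ρ`) shows that `closedBall u₁ ρ` maps into the good ball of `c.ch x`.
`h u = c.ch x (c.Q (pt u s))` is differentiable on `ball u₁ ρ` with `g = deriv h =
fderiv ℂ (c.ch x ∘ c.Q) (pt u s) (1, -1)`, `‖g‖ ≤ 2Λ m₁` (`c.up`, `‖(1,-1)‖ = 1`), `m₁ ≤ Λ ‖g u₁‖` (`c.lo`);
`g` is differentiable (`DifferentiableOn.deriv`). Schwarz lemma
(`Complex.dist_le_div_mul_dist_of_mapsTo_ball`, target `closedBall (g u₁) (4Λ m₁)`):
`‖g u - g u₁‖ ≤ 4Λ m₁ ‖u - u₁‖/ρ`. For `‖u - u₁‖ < ρ/(8Λ²)`: `‖g u‖ ≥ m₁/(2Λ)`, `M u ≥ m₁/(2Λ²)`. So the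
integral over `ball u₀ r ⊇ ball u₁ (ρ/(8Λ²))` is at least `π (ρ/(8Λ²))² m₁²/(4Λ⁴) > ε`
(`Complex.volume_ball`, `setIntegral_mono_set`, `setIntegral_ge_of_const_le`; integrability from
continuity on the compact `closedBall u₀ r`).
Auxiliary names: start with `eps_`.
-/

namespace Vale.Agent.P278

open Set Metric MeasureTheory

theorem eps_pt (u : ℂ) (s : ℝ) : HasDerivAt (fun u => pt u s) (1, -1) u :=
  (hasDerivAt_id u).prodMk ((hasDerivAt_id u).neg.sub_const _)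

theorem eps_loc {X V : Type*} [TopologicalSpace X] [T2Space X] [NormedAddCommGroup V]
    [NormedSpace ℂ V] [FiniteDimensional ℂ V] (c : Ctx X V) {u₁ : ℂ} {s ρ : ℝ} (hρ : 0 < ρ)
    (hD : ∀ u ∈ closedBall u₁ ρ, pt u s ∈ c.D ∧ c.m (pt u s) ≤ 2 * c.m (pt u₁ s))
    (hδ : 4 * c.Λ * c.m (pt u₁ s) * ρ ≤ c.δ) :
    ∀ u ∈ ball u₁ (ρ / (8 * c.Λ ^ 2)), c.m (pt u₁ s) / (2 * c.Λ ^ 2) ≤ c.m (pt u s) := by
  have := FiniteDimensional.complete ℂ V
  have hΛ := c.Λge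
  have hδ0 := c.δpos
  have m0 := c.mnn (pt u₁ s)
  obtain ⟨x, hx⟩ : ∃ x, x = c.Q (pt u₁ s) := ⟨_, rfl⟩
  have h1 : ∀ u ∈ closedBall u₁ ρ,
      c.Q (pt u s) ∈ (c.ch x).source ∧ ‖c.ch x (c.Q (pt u s)) - c.ch x x‖ ≤ c.δ := by
    intro u hu
    have e : ∀ t : ℝ, pt u₁ s + t • (u - u₁, -(u - u₁)) = pt (u₁ + t • (u - u₁)) s := fun t =>
      Prod.ext rfl (by simp only [pt, Prod.snd_add, Prod.smul_snd, smul_neg]; ring)
    have hu' := mem_closedBall_iff_norm.1 hu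
    have k := c.escape_seg (z := pt u₁ s) (v := (u - u₁, -(u - u₁)))
      (μ := ρ * (2 * c.m (pt u₁ s))) (x := x) (fun t ht => by
        have h2 := hD (u₁ + t • (u - u₁)) (by
          rw [add_mem_closedBall_iff_norm, norm_smul, Real.norm_of_nonneg ht.1]
          exact (mul_le_of_le_one_left (norm_nonneg _) ht.2).trans hu')
        rw [e, Prod.norm_mk, norm_neg, max_self]
        exact ⟨h2.1, mul_le_mul hu' h2.2 (c.mnn _) hρ.le⟩)
      (hx ▸ c.mem _) (by rw [← hx, sub_self, norm_zero]; linarith) 1 ⟨zero_le_one, le_rfl⟩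
    rw [e, one_smul, add_sub_cancel, ← hx] at k
    exact ⟨k.1, k.2.trans (by linarith)⟩
  have h2 : ∀ u ∈ ball u₁ ρ, HasDerivAt (fun u => (c.ch x ∘ c.Q) (pt u s))
      (fderiv ℂ (c.ch x ∘ c.Q) (pt u s) (1, -1)) u := fun u hu =>
    (c.diff x _ (hD u (ball_subset_closedBall hu)).1
      (h1 u (ball_subset_closedBall hu)).1).hasFDerivAt.comp_hasDerivAt u (eps_pt u s)
  obtain ⟨g, hg⟩ : ∃ g, g = deriv fun u => (c.ch x ∘ c.Q) (pt u s) := ⟨_, rfl⟩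
  have h3 : ∀ u ∈ ball u₁ ρ, ‖g u‖ ≤ c.Λ * c.m (pt u s) := fun u hu => by
    have hu' := ball_subset_closedBall hu
    rw [hg, (h2 u hu).deriv]
    refine (ContinuousLinearMap.le_opNorm _ _).trans ?_
    rw [Prod.norm_mk, norm_neg, max_self, norm_one, mul_one]
    exact c.up x _ (hD u hu').1 (h1 u hu').1 (h1 u hu').2
  have h4 : c.m (pt u₁ s) ≤ c.Λ * ‖g u₁‖ := by
    have hu' := mem_closedBall_self (x := u₁) hρ.le
    rw [hg, (h2 u₁ (mem_ball_self hρ)).deriv]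
    exact c.lo x _ (hD _ hu').1 (h1 _ hu').1 (h1 _ hu').2
  have h5 : DifferentiableOn ℂ g (ball u₁ ρ) := hg ▸ DifferentiableOn.deriv
    (fun u hu => (h2 u hu).differentiableAt.differentiableWithinAt) isOpen_ball
  have h6 : ∀ u ∈ ball u₁ ρ, ‖g u‖ ≤ c.Λ * (2 * c.m (pt u₁ s)) := fun u hu =>
    (h3 u hu).trans (mul_le_mul_of_nonneg_left (hD u (ball_subset_closedBall hu)).2 (by linarith))
  intro u hu
  have hu' : u ∈ ball u₁ ρ := ball_subset_ball (div_le_self hρ.le (by nlinarith)) hu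
  have h7 := Complex.dist_le_div_mul_dist_of_mapsTo_ball (R₂ := 4 * c.Λ * c.m (pt u₁ s)) h5
    (fun w hw => by
      rw [mem_closedBall_iff_norm]
      linarith [norm_sub_le (g w) (g u₁), h6 w hw, h6 u₁ (mem_ball_self hρ)]) hu'
  have h8 : 4 * c.Λ * c.m (pt u₁ s) / ρ * dist u u₁ ≤ c.m (pt u₁ s) / (2 * c.Λ) := by
    refine (mul_le_mul_of_nonneg_left (mem_ball.1 hu).le (by positivity)).trans_eq ?_
    field_simp
    ring
  have h9 : ‖g u₁‖ - ‖g u‖ ≤ c.m (pt u₁ s) / (2 * c.Λ) := by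
    rw [dist_comm, dist_eq_norm] at h7
    exact (norm_sub_norm_le _ _).trans (h7.trans h8)
  rw [le_div_iff₀ (by positivity)] at h9
  rw [div_le_iff₀ (by positivity)]
  nlinarith [mul_le_mul_of_nonneg_left (h3 u hu') (show 0 ≤ c.Λ by linarith)]

theorem Ctx.eps_reg {X V : Type*} [TopologicalSpace X] [T2Space X] [NormedAddCommGroup V]
    [NormedSpace ℂ V] [FiniteDimensional ℂ V] (c : Ctx X V) {η : ℝ} (hη : 0 < η) :
    ∃ ε > 0, ∀ (u₀ : ℂ) (s r : ℝ), 0 < r → (∀ u ∈ closedBall u₀ r, pt u s ∈ c.D) →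
      ∫ u in ball u₀ r, c.m (pt u s) ^ 2 ≤ ε → r * c.m (pt u₀ s) ≤ η := by
  have hΛ := c.Λge
  have hδ := c.δpos
  have ht : 0 < min (η / 2) (c.δ / (4 * c.Λ)) := lt_min (by positivity) (by positivity)
  refine ⟨min (η / 2) (c.δ / (4 * c.Λ)) ^ 2 / (256 * c.Λ ^ 8), by positivity,
    fun u₀ s r hr hD hI => ?_⟩
  by_contra hn
  have hc : ContinuousOn (fun u => c.m (pt u s)) (closedBall u₀ r) :=
    c.mcont.comp (fun u _ => (eps_pt u s).continuousAt.continuousWithinAt) hD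
  obtain ⟨u₁, hu₁, hmax⟩ := (isCompact_closedBall u₀ r).exists_isMaxOn
    (nonempty_closedBall.2 hr.le)
    (((continuous_const.sub (continuous_id.dist continuous_const)).continuousOn).mul hc :
      ContinuousOn (fun u => (r - dist u u₀) * c.m (pt u s)) (closedBall u₀ r))
  have h1 : η < (r - dist u₁ u₀) * c.m (pt u₁ s) := by
    have h : (r - dist u₀ u₀) * c.m (pt u₀ s) ≤ (r - dist u₁ u₀) * c.m (pt u₁ s) :=
      hmax (mem_closedBall_self hr.le)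
    rw [dist_self, sub_zero] at h
    exact (not_le.1 hn).trans_le h
  have h2 : 0 < (r - dist u₁ u₀) * c.m (pt u₁ s) := hη.trans h1
  have r0 : 0 < r - dist u₁ u₀ := by
    by_contra h
    nlinarith [c.mnn (pt u₁ s), not_lt.1 h]
  have m0 : 0 < c.m (pt u₁ s) := (pos_iff_pos_of_mul_pos h2).1 r0
  obtain ⟨ρ, hρ⟩ : ∃ ρ, ρ = min ((r - dist u₁ u₀) / 2) (c.δ / (4 * c.Λ * c.m (pt u₁ s))) :=
    ⟨_, rfl⟩
  have ρ0 : 0 < ρ := hρ ▸ lt_min (by positivity) (by positivity)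
  have ρ1 : ρ ≤ (r - dist u₁ u₀) / 2 := hρ ▸ min_le_left _ _
  have ρ2 : 4 * c.Λ * c.m (pt u₁ s) * ρ ≤ c.δ := by
    rw [mul_comm, ← le_div_iff₀ (by positivity), hρ]
    exact min_le_right _ _
  have ρ3 : min (η / 2) (c.δ / (4 * c.Λ)) ≤ ρ * c.m (pt u₁ s) := by
    rw [hρ, min_mul_of_nonneg _ _ m0.le]
    refine min_le_min (by linarith) (le_of_eq ?_)
    field_simp
  have h3 := eps_loc c (u₁ := u₁) (s := s) ρ0 (fun u hu => by
    have a1 := mem_closedBall.1 hu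
    have a2 := dist_triangle u u₁ u₀
    have a3 : u ∈ closedBall u₀ r := mem_closedBall.2 (by linarith)
    have a4 : (r - dist u u₀) * c.m (pt u s) ≤ (r - dist u₁ u₀) * c.m (pt u₁ s) := hmax a3
    refine ⟨hD u a3, le_of_mul_le_mul_left ?_ (half_pos r0)⟩
    nlinarith [c.mnn (pt u s)]) ρ2
  have h4 : ball u₁ (ρ / (8 * c.Λ ^ 2)) ⊆ ball u₀ r := ball_subset_ball' (by
    have := div_le_self ρ0.le (show 1 ≤ 8 * c.Λ ^ 2 by nlinarith)
    linarith)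
  have h5 : IntegrableOn (fun u => c.m (pt u s) ^ 2) (ball u₀ r) :=
    ((hc.pow 2).integrableOn_compact (isCompact_closedBall u₀ r)).mono_set ball_subset_closedBall
  have h6 := (setIntegral_ge_of_const_le_real (c := (c.m (pt u₁ s) / (2 * c.Λ ^ 2)) ^ 2)
    measurableSet_ball measure_ball_lt_top.ne
    (fun u hu => pow_le_pow_left₀ (by positivity) (h3 u hu) 2) (h5.mono_set h4)).trans
      ((setIntegral_mono_set h5 (Filter.Eventually.of_forall fun u => sq_nonneg _)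
        h4.eventuallyLE).trans hI)
  rw [Measure.real, Complex.volume_ball, ENNReal.toReal_mul, ENNReal.toReal_pow,
    ENNReal.toReal_ofReal (by positivity), ENNReal.coe_toReal, NNReal.coe_real_pi] at h6
  have e : (c.m (pt u₁ s) / (2 * c.Λ ^ 2)) ^ 2 * ((ρ / (8 * c.Λ ^ 2)) ^ 2 * Real.pi) =
      (ρ * c.m (pt u₁ s)) ^ 2 * Real.pi / (256 * c.Λ ^ 8) := by
    field_simp
    norm_num
  rw [e, div_le_div_iff_of_pos_right (by positivity)] at h6
  have h7 := pow_le_pow_left₀ ht.le ρ3 2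
  nlinarith [Real.pi_gt_three, pow_pos ht 2]

end Vale.Agent.P278
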