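import Vale.Agent.P278.Ctx

/-!
P278 task Esc: a path with small intrinsic speed does not escape a good chart.

Plan. Write `ψ = c.ch x`, `y t = ψ (c.Q (γ t))`, `C = ψ.symm '' closedBall (ψ x) c.δ` (compact, since
`V` is proper, hence closed, and contained in `ψ.source`). Apply `IsClosed.Icc_subset_of_forall_mem_nhdsWithin`
(or a supremum argument) to the set of `t` such that `c.Q (γ t') ∈ ψ.source` and
`‖y t' - y 0‖ ≤ Λ μ t'` for all `t' ∈ Icc 0 t`. Closedness: at a limit `t` the points `c.Q (γ t')`,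
`t' < t`, lie in `C`, so `c.Q (γ t) ∈ C` by continuity, and `y` is continuous at `t`. Progress: at such
`t < 1`, `‖y t - ψ x‖ < δ`, so on a small interval `[t, t + ε]` we stay in the source and in the ball;
there `y` has derivative `fderiv ℂ (ψ ∘ Q) (γ t') (γ' t')` of norm at most
`Λ m ‖γ' t'‖ ≤ Λ μ` (`HasFDerivAt.restrictScalars`, `HasFDerivAt.comp_hasDerivAt`), and the mean value
inequality `norm_image_sub_le_of_norm_deriv_le_segment'` applies.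
`Ctx.escape_seg` is the case `γ t = z + t • v` (scalar `t : ℝ`).
Auxiliary names: start with `esc_`.
-/

namespace Vale.Agent.P278

open Set

variable {X V : Type*} [TopologicalSpace X] [T2Space X] [NormedAddCommGroup V] [NormedSpace ℂ V]
  [FiniteDimensional ℂ V]

omit [T2Space X] [FiniteDimensional ℂ V] in
theorem esc_mv (c : Ctx X V) {γ γ' : ℝ → ℂ × ℂ} {μ : ℝ} {x : X}
    (hγ : ∀ t ∈ Icc (0 : ℝ) 1, HasDerivAt γ (γ' t) t ∧ γ t ∈ c.D ∧ ‖γ' t‖ * c.m (γ t) ≤ μ)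
    {b : ℝ} (hb : b ∈ Icc (0 : ℝ) 1)
    (h : ∀ t ∈ Icc 0 b, c.Q (γ t) ∈ (c.ch x).source ∧ ‖c.ch x (c.Q (γ t)) - c.ch x x‖ ≤ c.δ) :
    ‖c.ch x (c.Q (γ b)) - c.ch x (c.Q (γ 0))‖ ≤ c.Λ * μ := by
  have hΛ : 0 ≤ c.Λ := zero_le_one.trans c.Λge
  have hμ : 0 ≤ μ := (mul_nonneg (norm_nonneg _) (c.mnn _)).trans (hγ b hb).2.2
  have hs : Icc 0 b ⊆ Icc (0 : ℝ) 1 := Icc_subset_Icc_right hb.2
  have key := norm_image_sub_le_of_norm_deriv_le_segment' (f := fun t => c.ch x (c.Q (γ t)))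
    (f' := fun t => fderiv ℂ (c.ch x ∘ c.Q) (γ t) (γ' t)) (C := c.Λ * μ)
    (fun t ht => (((c.diff x _ (hγ t (hs ht)).2.1 (h t ht).1).hasFDerivAt.restrictScalars
      ℝ).comp_hasDerivAt t (hγ t (hs ht)).1).hasDerivWithinAt)
    (fun t ht => by
      have ht' := Ico_subset_Icc_self ht
      have h1 := c.up x _ (hγ t (hs ht')).2.1 (h t ht').1 (h t ht').2
      calc _ ≤ c.Λ * c.m (γ t) * ‖γ' t‖ := ContinuousLinearMap.le_of_opNorm_le _ h1 _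
        _ = c.Λ * (‖γ' t‖ * c.m (γ t)) := by ring
        _ ≤ _ := mul_le_mul_of_nonneg_left (hγ t (hs ht')).2.2 hΛ) b (right_mem_Icc.2 hb.1)
  exact key.trans (mul_le_of_le_one_right (mul_nonneg hΛ hμ) (by linarith [hb.2]))

theorem Ctx.escape (c : Ctx X V) {γ γ' : ℝ → ℂ × ℂ} {μ : ℝ} {x : X}
    (hγ : ∀ t ∈ Icc (0 : ℝ) 1, HasDerivAt γ (γ' t) t ∧ γ t ∈ c.D ∧ ‖γ' t‖ * c.m (γ t) ≤ μ)
    (h₀ : c.Q (γ 0) ∈ (c.ch x).source)
    (hμ : ‖c.ch x (c.Q (γ 0)) - c.ch x x‖ + c.Λ * μ < c.δ) :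
    ∀ t ∈ Icc (0 : ℝ) 1, c.Q (γ t) ∈ (c.ch x).source ∧
      ‖c.ch x (c.Q (γ t)) - c.ch x (c.Q (γ 0))‖ ≤ c.Λ * μ := by
  have : ProperSpace V := FiniteDimensional.proper ℂ V
  have hΛ : 0 ≤ c.Λ := zero_le_one.trans c.Λge
  have hμ0 : 0 ≤ μ :=
    (mul_nonneg (norm_nonneg _) (c.mnn _)).trans (hγ 0 (left_mem_Icc.2 zero_le_one)).2.2
  have tri : ∀ y : V, ‖y - c.ch x (c.Q (γ 0))‖ ≤ c.Λ * μ → ‖y - c.ch x x‖ < c.δ := fun y hy => by
    have := norm_add_le (y - c.ch x (c.Q (γ 0))) (c.ch x (c.Q (γ 0)) - c.ch x x)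
    rw [sub_add_sub_cancel] at this
    linarith
  have hsub : Metric.closedBall (c.ch x (c.Q (γ 0))) (c.Λ * μ) ⊆ (c.ch x).target := fun y hy =>
    c.sub x (mem_closedBall_iff_norm.2 (tri y (mem_closedBall_iff_norm.1 hy)).le)
  have hK : IsClosed ((c.ch x).symm '' Metric.closedBall (c.ch x (c.Q (γ 0))) (c.Λ * μ)) :=
    ((isCompact_closedBall _ _).image_of_continuousOn
      ((c.ch x).continuousOn_symm.mono hsub)).isClosed
  have hiff : ∀ q : X, q ∈ (c.ch x).symm '' Metric.closedBall (c.ch x (c.Q (γ 0))) (c.Λ * μ) ↔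
      q ∈ (c.ch x).source ∧ ‖c.ch x q - c.ch x (c.Q (γ 0))‖ ≤ c.Λ * μ := fun q => by
    constructor
    · rintro ⟨y, hy, rfl⟩
      refine ⟨(c.ch x).map_target (hsub hy), ?_⟩
      rw [(c.ch x).right_inv (hsub hy)]
      exact mem_closedBall_iff_norm.1 hy
    · exact fun h => ⟨_, mem_closedBall_iff_norm.2 h.2, (c.ch x).left_inv h.1⟩
  have hq : ∀ t ∈ Icc (0 : ℝ) 1, ContinuousAt (fun t => c.Q (γ t)) t := fun t ht =>
    (c.cont.continuousAt (c.isOpen.mem_nhds (hγ t ht).2.1)).comp (hγ t ht).1.continuousAt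
  have hcl := (continuousOn_of_forall_continuousAt hq).preimage_isClosed_of_isClosed
    isClosed_Icc hK
  rw [inter_comm] at hcl
  intro t ht
  refine (hiff _).1 (hcl.Icc_subset_of_forall_mem_nhdsGT_of_Icc_subset
    ((hiff _).2 ⟨h₀, by simpa using mul_nonneg hΛ hμ0⟩) (fun s hs hss => ?_) ht)
  have hU : IsOpen ((c.ch x).source ∩ c.ch x ⁻¹' Metric.ball (c.ch x x) c.δ) :=
    (c.ch x).isOpen_inter_preimage Metric.isOpen_ball
  have h1 := (hiff _).1 (hss (right_mem_Icc.2 hs.1))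
  have h2 := (hq s (Ico_subset_Icc_self hs)).preimage_mem_nhds
    (hU.mem_nhds ⟨h1.1, mem_ball_iff_norm.2 (tri _ h1.2)⟩)
  obtain ⟨u, hu, hsu⟩ := mem_nhdsGE_iff_exists_Icc_subset.1 (mem_nhdsWithin_of_mem_nhds h2)
  filter_upwards [Ioc_mem_nhdsGT hu, Ioc_mem_nhdsGT hs.2] with b hb hb1
  refine (hiff _).2 ⟨(hsu ⟨hb.1.le, hb.2⟩).1,
    esc_mv c hγ ⟨hs.1.trans hb.1.le, hb1.2⟩ fun r hr => ?_⟩
  rcases le_total r s with h | h
  · have := (hiff _).1 (hss ⟨hr.1, h⟩)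
    exact ⟨this.1, (tri _ this.2).le⟩
  · have := hsu ⟨h, hr.2.trans hb.2⟩
    exact ⟨this.1, (mem_ball_iff_norm.1 this.2).le⟩

theorem Ctx.escape_seg (c : Ctx X V) {z v : ℂ × ℂ} {μ : ℝ} {x : X}
    (hγ : ∀ t ∈ Icc (0 : ℝ) 1, z + t • v ∈ c.D ∧ ‖v‖ * c.m (z + t • v) ≤ μ)
    (h₀ : c.Q z ∈ (c.ch x).source) (hμ : ‖c.ch x (c.Q z) - c.ch x x‖ + c.Λ * μ < c.δ) :
    ∀ t ∈ Icc (0 : ℝ) 1, c.Q (z + t • v) ∈ (c.ch x).source ∧
      ‖c.ch x (c.Q (z + t • v)) - c.ch x (c.Q z)‖ ≤ c.Λ * μ := by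
  have h := c.escape (γ := fun t : ℝ => z + t • v) (γ' := fun _ => v) (μ := μ) (x := x)
    (fun t ht => ⟨by simpa using ((hasDerivAt_id t).smul_const v).const_add z, hγ t ht⟩)
    (by simpa using h₀) (by simpa using hμ)
  simpa using h

end Vale.Agent.P278
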