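import Vale.Agent.P278.Split

/-!
P278 task TangC: a map tangent to the fixed space of `p` stays in a plaque.

Plan. Apply `pt_split` to `R : N × V → X`, `R z = f z.1` at `(x, 0)` (it is of product type near
`(x, 0)`: the second slice is constant, `mfderiv_const`), and restrict to `z = (x', 0)`.
`br_slice`: `ψ = chartAt V x`; `tang_const`-free computation: near `x`, `ψ ∘ (br p ψ (·, x))` is
`p ∘ ψ + const` and `br p ψ (x, x) = x`; unfold `mfderiv` (`writtenInExtChartAt`), or use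
`HasMFDerivAt` and `mfderiv_chartAt_eq_tangentCoordChange`, `tangentCoordChange_self`.
Auxiliary names: start with `tangc_`.
-/

namespace Vale.Agent.P278

open scoped Manifold ContDiff Topology

variable {V : Type*} [NormedAddCommGroup V] [NormedSpace ℂ V]
  {X : Type*} [TopologicalSpace X] [ChartedSpace V X] [IsManifold 𝓘(ℂ, V) ω X] {p : V →L[ℂ] V}

theorem tang_const {A N : Type*} [NormedAddCommGroup A] [NormedSpace ℂ A] [TopologicalSpace N]
    [ChartedSpace A N] [IsManifold 𝓘(ℂ, A) ω N] (hP : PAtl p X) {ψ : OpenPartialHomeomorph X V}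
    (hψ : ψ ∈ atlas V X) {f : N → X} {x : N}
    (hf : ∀ᶠ z in 𝓝 x, MDifferentiableAt 𝓘(ℂ, A) 𝓘(ℂ, V) f z ∧ Tang A p f z)
    (hx : f x ∈ ψ.source) :
    ∀ᶠ z in 𝓝 x, f z ∈ ψ.source ∧ (1 - p) (ψ (f z)) = (1 - p) (ψ (f x)) := by
  have h1 : ∀ᶠ z in 𝓝 (x, (0 : V)), PT A V p (fun z : N × V => f z.1) z := by
    filter_upwards [(continuous_fst.tendsto (x, (0 : V))).eventually hf] with z hz
    refine ⟨hz.1.comp z mdifferentiableAt_fst, hz.2, fun v => ?_⟩
    have e : @Eq V (mfderiv 𝓘(ℂ, V) 𝓘(ℂ, V) (fun _ : V => f z.1) z.2 v) 0 := by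
      rw [mfderiv_const]
      rfl
    exact (congrArg (fun u : V => (1 - p) u) e).trans ((map_zero (1 - p)).trans e.symm)
  have h2 := pt_split hP hψ h1 hx
  have t : Filter.Tendsto (fun y : N => (y, (0 : V))) (𝓝 x) (𝓝 (x, (0 : V))) :=
    (Continuous.prodMk_left (0 : V)).tendsto x
  filter_upwards [t.eventually h2] with z hz
  exact ⟨hz.1, hz.2.2⟩

theorem br_slice (x : X) (v : V) :
    mfderiv 𝓘(ℂ, V) 𝓘(ℂ, V) (fun x' => br p (chartAt V x) (x', x)) x v = p v := by
  set ψ := chartAt V x with hψ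
  have hx : x ∈ ψ.source := mem_chart_source V x
  have ht : ψ x ∈ ψ.target := ψ.map_source hx
  have e0 : p (ψ x) + (1 - p) (ψ x) = ψ x := (split_add p _).symm
  have hF : br p ψ (x, x) = x := by
    unfold br
    rw [e0, ψ.left_inv hx]
  have ht' : p (ψ x) + (1 - p) (ψ x) ∈ ψ.target := by rwa [e0]
  have hG : HasFDerivAt (fun y : V => p y + (1 - p) (ψ x)) p (ψ x) := p.hasFDerivAt.add_const _
  have hGt : ∀ᶠ y in 𝓝 (ψ x), p y + (1 - p) (ψ x) ∈ ψ.target :=
    hG.continuousAt.eventually (ψ.open_target.mem_nhds ht')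
  have hc : ContinuousAt (fun x' => br p ψ (x', x)) x :=
    ContinuousAt.comp (g := ψ.symm) (f := fun x' => p (ψ x') + (1 - p) (ψ x))
      (ψ.continuousAt_symm ht')
      (ContinuousAt.comp (g := fun y : V => p y + (1 - p) (ψ x)) hG.continuousAt
        (ψ.continuousAt hx))
  have h : HasMFDerivAt 𝓘(ℂ, V) 𝓘(ℂ, V) (fun x' => br p ψ (x', x)) x p := by
    refine ⟨hc, ?_⟩
    simp only [writtenInExtChartAt, hF, mfld_simps]
    refine (hG.congr_of_eventuallyEq ?_).hasFDerivWithinAt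
    filter_upwards [hGt, ψ.open_target.mem_nhds ht] with y h1 h2
    change ψ (ψ.symm (p (ψ (ψ.symm y)) + (1 - p) (ψ x))) = _
    rw [ψ.right_inv h2, ψ.right_inv h1]
  rw [h.mfderiv]
  rfl

end Vale.Agent.P278
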