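import Vale.Agent.P278.Base

/-!
P278 task Unif: uniformly good charts on a compact manifold.

Plan. Use `IsCompact.induction_on isCompact_univ` with the property
`P S = ∃ δ > 0, ∃ Λ ≥ 1, ∀ x ∈ S, ∃ ψ ∈ atlas, ...` (monotone: decrease `δ`, increase `Λ`; note
`0 ≤ K.w ψ y a (I • a)`). Locally at `x₀`: `ψ = chartAt V x₀`, `closedBall (ψ x₀) (2r) ⊆ ψ.target`
compact; `K.w ψ` is continuous there, so `‖K.w ψ y‖ ≤ Λ` (`ContinuousLinearMap.le_opNorm₂`), and
`(y, a) ↦ K.w ψ y a (I • a)` has a positive minimum `μ` on `closedBall ×ˢ sphere 0 1` (if the sphere is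
empty every `a` is `0`); homogeneity gives `μ ‖a‖² ≤ K.w ψ y a (I • a)`. The neighbourhood is
`ψ.source ∩ ψ ⁻¹' ball (ψ x₀) r` with `δ = r`. Finally enlarge `Λ` to dominate `‖p‖`, `‖1 - p‖`.
Auxiliary names: start with `unif_`.
-/

namespace Vale.Agent.P278

open Filter Topology Set Metric

theorem unif_loc {V : Type*} [NormedAddCommGroup V] [NormedSpace ℂ V] [FiniteDimensional ℂ V]
    {w : V → V →L[ℝ] V →L[ℝ] ℝ} {C : Set V} (hC : IsCompact C) (hw : ContinuousOn w C)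
    (hp : ∀ y ∈ C, ∀ a, a ≠ 0 → 0 < w y a (Complex.I • a)) : ∀ᶠ Λ : ℝ in atTop, ∀ y ∈ C, ∀ a b,
      ‖a‖ ^ 2 ≤ Λ * w y a (Complex.I • a) ∧ |w y a b| ≤ Λ * ‖a‖ * ‖b‖ := by
  have := FiniteDimensional.proper ℂ V
  obtain ⟨M, hM⟩ := hC.exists_bound_of_continuousOn (f := w) hw
  obtain ⟨μ, hμ, h⟩ := (hC.prod (isCompact_sphere (0 : V) 1)).exists_forall_le'
    (f := fun q => w q.1 q.2 (Complex.I • q.2)) (a := 0)
    (((hw.comp continuousOn_fst fun _ hq => hq.1).clm_apply continuousOn_snd).clm_apply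
      (by fun_prop)) fun q hq => hp _ hq.1 _ (ne_zero_of_mem_unit_sphere ⟨_, hq.2⟩)
  filter_upwards [eventually_ge_atTop M, eventually_ge_atTop μ⁻¹] with Λ h1 h2 y hy a b
  refine ⟨?_, ((w y).le_opNorm₂ a b).trans (by have := (hM y hy).trans h1; gcongr)⟩
  rcases eq_or_ne a 0 with rfl | ha
  · simp
  · have h3 := norm_pos_iff.2 ha
    have h4 := h (y, ‖a‖⁻¹ • a) ⟨hy, by
      rw [mem_sphere_zero_iff_norm, norm_smul, norm_inv, norm_norm, inv_mul_cancel₀ h3.ne']⟩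
    simp only [smul_comm Complex.I, map_smul, smul_apply, smul_eq_mul] at h4
    rw [le_inv_mul_iff₀ h3, le_inv_mul_iff₀ h3, ← mul_assoc, ← sq, mul_comm,
      ← le_inv_mul_iff₀ hμ] at h4
    exact h4.trans (mul_le_mul_of_nonneg_right h2 (hp y hy a ha).le)

theorem exists_unif {V : Type*} [NormedAddCommGroup V] [NormedSpace ℂ V] [FiniteDimensional ℂ V]
    {X : Type*} [TopologicalSpace X] [CompactSpace X] [ChartedSpace V X] (K : Kah V X)
    (p : V →L[ℂ] V) : ∃ δ Λ, Unif K p δ Λ := by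
  have := FiniteDimensional.proper ℂ V
  have h : ∀ᶠ q : ℝ × ℝ in 𝓝[>] 0 ×ˢ atTop, ∀ x ∈ (univ : Set X), ∃ ψ ∈ atlas V X,
      x ∈ ψ.source ∧ closedBall (ψ x) q.1 ⊆ ψ.target ∧ ∀ y ∈ closedBall (ψ x) q.1, ∀ a b,
        ‖a‖ ^ 2 ≤ q.2 * K.w ψ y a (Complex.I • a) ∧ |K.w ψ y a b| ≤ q.2 * ‖a‖ * ‖b‖ := by
    refine isCompact_univ.induction_on (by simp)
      (fun s t hst ht => ht.mono fun q hq x hx => hq x (hst hx))
      (fun s t hs ht => (hs.and ht).mono fun q hq x hx => hx.elim (hq.1 x) (hq.2 x)) fun x₀ _ => ?_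
    have ha := chart_mem_atlas V x₀
    have hx := mem_chart_source V x₀
    generalize chartAt V x₀ = ψ at ha hx
    obtain ⟨r, hr, hs⟩ := nhds_basis_closedBall.mem_iff.1
      (ψ.open_target.mem_nhds (ψ.map_source hx))
    refine ⟨ψ.source ∩ ψ ⁻¹' ball (ψ x₀) (r / 2), mem_nhdsWithin_of_mem_nhds
      (inter_mem (ψ.open_source.mem_nhds hx)
        (ψ.continuousAt hx (ball_mem_nhds _ (half_pos hr)))), ?_⟩
    filter_upwards [prod_mem_prod (Ioc_mem_nhdsGT (half_pos hr)) (unif_loc (isCompact_closedBall _ _)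
      ((K.smooth ψ ha).continuousOn.mono hs) fun y hy => K.pos ψ ha y (hs hy))] with q hq x hx'
    have h1 : closedBall (ψ x) q.1 ⊆ closedBall (ψ x₀) r :=
      closedBall_subset_closedBall' (by linarith [hq.1.2, mem_ball.1 hx'.2])
    exact ⟨ψ, ha, hx'.1, h1.trans hs, fun y hy => hq.2 y (h1 hy)⟩
  obtain ⟨q, h1, h2, h3⟩ := (h.and (prod_mem_prod self_mem_nhdsWithin
    (eventually_ge_atTop (1 + ‖p‖ + ‖1 - p‖)))).exists
  have h4 : 1 + ‖p‖ + ‖1 - p‖ ≤ q.2 := h3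
  have := norm_nonneg p
  have := norm_nonneg (1 - p)
  exact ⟨q.1, q.2, h2, by linarith, by linarith, by linarith, fun x => h1 x (mem_univ x)⟩

end Vale.Agent.P278
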