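import Vale.Agent.P278.Corner
import Vale.Agent.P278.TangC
import Vale.Agent.P278.Unif

/-!
P278 task Ext: rectangles exist on a compact manifold with a tamed closed form (touching argument).

Plan. Write `σ', ρ'` for the radii, `q₀ = (z₀, w₀)`, `ψ = chartAt V (f z₀)`,
`R₀ q = ψ.symm (p (ψ (f q.1)) + (1-p) (ψ (g q.2)))`. `InG p q₀ R₀ 0 0` by `pt_mk` at nearby points;
`R₀ (·, w₀) =ᶠ f` near `z₀` by `tang_const`, `R₀ (z₀, ·) =ᶠ g` near `w₀` by `tang_const` for `1 - p`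
(`hP.one_sub`, `sub_sub_cancel`). Take `R` from `exists_Rinf`. Claim: `InG` holds for all
`0 ≤ σ < σ'`, `0 ≤ ρ < ρ'`. Otherwise `C = {x ∈ Icc 0 σ' ×ˢ Icc 0 ρ' | ¬ InG x.1 x.2}` is compact (`InG.open`)
and `Θ x = (σ' - x.1)(ρ' - x.2)` has a positive maximum on it at `(σ, ρ)`, so `σ < σ'`, `ρ < ρ'`, and
`InG` holds at all points of the box with larger `Θ`. Contradiction by `InG.of_loc`:
if `ρ = 0` (then `σ > 0`) use `K₀ = ball z₀ σ ×ˢ {w₀}` and `axis1` (`ident` on `ball z₀ σ` with `PT.md1`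
gives `hfR`); if `σ = 0` use `axis2`; if both are positive use `K₀ = ball ×ˢ ball` (`closure_prod_eq`,
`closure_ball`), `corner` when both norms are extremal, and `S = R` otherwise. Finally the sides
are identified by `ident` on the balls.
Auxiliary names: start with `ext_aux`.
-/

namespace Vale.Agent.P278

open scoped Manifold ContDiff Topology

open Set Metric Filter

theorem ext_aux_touch {G : ℝ → ℝ → Prop} {a b : ℝ}
    (ho : ∀ σ ρ, G σ ρ → 0 ≤ σ → 0 ≤ ρ → ∃ ε > 0, ∀ s r, s < σ + ε → r < ρ + ε → G s r)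
    (hs : ∀ σ ρ, 0 ≤ σ → σ < a → 0 ≤ ρ → ρ < b →
      (∀ s r, 0 ≤ s → s < a → 0 ≤ r → r < b → (a - σ) * (b - ρ) < (a - s) * (b - r) → G s r) →
      G σ ρ) :
    ∀ σ ρ, 0 ≤ σ → σ < a → 0 ≤ ρ → ρ < b → G σ ρ := by
  intro σ ρ h1 h2 h3 h4
  by_contra hn
  set C : Set (ℝ × ℝ) := {x | x ∈ Icc 0 a ×ˢ Icc 0 b ∧ ¬ G x.1 x.2} with hC
  have hb : IsCompact (Icc (0 : ℝ) a ×ˢ Icc (0 : ℝ) b) := isCompact_Icc.prod isCompact_Icc
  have hsub : closure C ⊆ Icc 0 a ×ˢ Icc 0 b := closure_minimal (fun x hx => hx.1) hb.isClosed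
  have hm : (σ, ρ) ∈ C := ⟨⟨⟨h1, h2.le⟩, h3, h4.le⟩, hn⟩
  obtain ⟨x, hx, hmax⟩ := (hb.of_isClosed_subset isClosed_closure hsub).exists_isMaxOn
    ⟨_, subset_closure hm⟩ (f := fun x : ℝ × ℝ => (a - x.1) * (b - x.2)) (by fun_prop)
  obtain ⟨⟨a1, a2⟩, a3, a4⟩ := hsub hx
  have h5 : 0 < (a - x.1) * (b - x.2) :=
    (mul_pos (sub_pos.2 h2) (sub_pos.2 h4)).trans_le (hmax (subset_closure hm))
  have h6 : x.1 < a := lt_of_le_of_ne a2 fun e => by simp [e] at h5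
  have h7 : x.2 < b := lt_of_le_of_ne a4 fun e => by simp [e] at h5
  have h8 : G x.1 x.2 := hs _ _ a1 h6 a3 h7 fun s r b1 b2 b3 b4 b5 => by
    by_contra hc
    exact b5.not_ge (hmax (subset_closure (show (s, r) ∈ C from ⟨⟨⟨b1, b2.le⟩, b3, b4.le⟩, hc⟩)))
  obtain ⟨ε, e0, he⟩ := ho _ _ h8 a1 a3
  obtain ⟨y, hy, hd⟩ := Metric.mem_closure_iff.1 hx ε e0
  rw [Prod.dist_eq, max_lt_iff, Real.dist_eq, Real.dist_eq, abs_lt, abs_lt] at hd
  exact hy.2 (he _ _ (by linarith [hd.1.1]) (by linarith [hd.2.1]))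

section

variable {V : Type*} [NormedAddCommGroup V] [NormedSpace ℂ V] [FiniteDimensional ℂ V]
  {X : Type*} [TopologicalSpace X] [T2Space X] [ChartedSpace V X]
  [IsManifold 𝓘(ℂ, V) ω X] {p : V →L[ℂ] V}

omit [FiniteDimensional ℂ V] [T2Space X] in
theorem ext_aux_germ (hP : PAtl p X) (hp : IsIdempotentElem p) {z₀ w₀ : V} {f g : V → X}
    (hf : ∀ᶠ z in 𝓝 z₀, MDifferentiableAt 𝓘(ℂ, V) 𝓘(ℂ, V) f z ∧ Tang V p f z)
    (hg : ∀ᶠ w in 𝓝 w₀, MDifferentiableAt 𝓘(ℂ, V) 𝓘(ℂ, V) g w ∧ Tang V (1 - p) g w)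
    (e : f z₀ = g w₀) : ∃ R : V × V → X, (∀ᶠ q in 𝓝 (z₀, w₀), PT V V p R q) ∧
      (f =ᶠ[𝓝 z₀] fun z => R (z, w₀)) ∧ g =ᶠ[𝓝 w₀] fun w => R (z₀, w) := by
  have hψ := chart_mem_atlas V (f z₀)
  have hs := mem_chart_source V (f z₀)
  generalize chartAt V (f z₀) = ψ at hψ hs
  have hs' : g w₀ ∈ ψ.source := e ▸ hs
  have t1 := tang_const hP hψ hf hs
  have t2 := tang_const hP.one_sub hψ hg hs'
  rw [sub_sub_cancel] at t2
  refine ⟨fun q => ψ.symm (p (ψ (f q.1)) + (1 - p) (ψ (g q.2))), ?_, ?_, ?_⟩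
  · have c1 : ContinuousAt (fun q : V × V => p (ψ (f q.1)) + (1 - p) (ψ (g q.2))) (z₀, w₀) := by
      have a1 : ContinuousAt (fun z => ψ (f z)) z₀ :=
        (ψ.continuousAt hs).comp hf.self_of_nhds.1.continuousAt
      have a2 : ContinuousAt (fun z => ψ (g z)) w₀ :=
        (ψ.continuousAt hs').comp hg.self_of_nhds.1.continuousAt
      exact (p.continuous.continuousAt.comp (a1.comp_of_eq continuousAt_fst rfl)).add
        ((1 - p).continuous.continuousAt.comp (a2.comp_of_eq continuousAt_snd rfl))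
    have c2 : p (ψ (f z₀)) + (1 - p) (ψ (g w₀)) ∈ ψ.target := by
      rw [← e, ← split_add]
      exact ψ.map_source hs
    filter_upwards [c1.eventually (ψ.open_target.mem_nhds c2),
      (continuous_fst.tendsto (z₀, w₀)).eventually (hf.and t1),
      (continuous_snd.tendsto (z₀, w₀)).eventually (hg.and t2)] with q a1 a2 a3
    exact pt_mk hP hp hψ a2.1.1 a3.1.1 a2.2.1 a3.2.1 a1
  · filter_upwards [t1] with z hz
    rw [← e, ← hz.2, ← split_add, ψ.left_inv hz.1]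
  · filter_upwards [t2] with w hw
    rw [e, ← hw.2, ← split_add, ψ.left_inv hw.1]

theorem ext_aux_side1 {z₀ w₀ : V} {σ : ℝ} (hσ : 0 < σ) {f : V → X} {R : V × V → X}
    (hf : ∀ z ∈ ball z₀ σ, MDifferentiableAt 𝓘(ℂ, V) 𝓘(ℂ, V) f z)
    (hR : ∀ z ∈ ball z₀ σ, ∀ᶠ q in 𝓝 (z, w₀), PT V V p R q)
    (h : f =ᶠ[𝓝 z₀] fun z => R (z, w₀)) : ∀ y ∈ ball z₀ σ, f =ᶠ[𝓝 y] fun z => R (z, w₀) := by
  have := FiniteDimensional.complete ℂ V
  refine ident 𝓘(ℂ, V) (convex_ball z₀ σ).isPreconnected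
    (fun y hy => eventually_of_mem (isOpen_ball.mem_nhds hy) hf) (fun y hy => ?_)
    (mem_ball_self hσ) h
  filter_upwards [((Continuous.prodMk_left w₀).tendsto y).eventually (hR y hy)] with z hz
  exact hz.md1

theorem ext_aux_side2 {z₀ w₀ : V} {ρ : ℝ} (hρ : 0 < ρ) {g : V → X} {R : V × V → X}
    (hg : ∀ w ∈ ball w₀ ρ, MDifferentiableAt 𝓘(ℂ, V) 𝓘(ℂ, V) g w)
    (hR : ∀ w ∈ ball w₀ ρ, ∀ᶠ q in 𝓝 (z₀, w), PT V V p R q)
    (h : g =ᶠ[𝓝 w₀] fun w => R (z₀, w)) : ∀ y ∈ ball w₀ ρ, g =ᶠ[𝓝 y] fun w => R (z₀, w) := by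
  have := FiniteDimensional.complete ℂ V
  refine ident 𝓘(ℂ, V) (convex_ball w₀ ρ).isPreconnected
    (fun y hy => eventually_of_mem (isOpen_ball.mem_nhds hy) hg) (fun y hy => ?_)
    (mem_ball_self hρ) h
  filter_upwards [((Continuous.prodMk_right z₀).tendsto y).eventually (hR y hy)] with z hz
  exact hz.md2

end

theorem ext_compact {V : Type*} [NormedAddCommGroup V] [NormedSpace ℂ V] [FiniteDimensional ℂ V]
    {X : Type*} [TopologicalSpace X] [T2Space X] [CompactSpace X] [ChartedSpace V X]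
    [IsManifold 𝓘(ℂ, V) ω X] {p : V →L[ℂ] V} (hP : PAtl p X) (hp : IsIdempotentElem p)
    (K : Kah V X) : EXT p X := by
  intro z₀ w₀ a b f g ha hb hf hg e
  obtain ⟨δ, Λ, hU⟩ := exists_unif K p
  obtain ⟨R₀, g1, g2, g3⟩ := ext_aux_germ hP hp (eventually_of_mem (ball_mem_nhds z₀ ha) hf)
    (eventually_of_mem (ball_mem_nhds w₀ hb) hg) e
  have h00 : InG p (z₀, w₀) R₀ 0 0 := by
    refine ⟨R₀, fun q hq => ?_, EventuallyEq.rfl⟩
    rw [closedBall_zero, closedBall_zero, singleton_prod_singleton, mem_singleton_iff] at hq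
    rw [hq]
    exact g1.eventually_nhds.self_of_nhds
  obtain ⟨R, r1, r2⟩ := exists_Rinf h00
  have f1 : f =ᶠ[𝓝 z₀] fun z => R (z, w₀) :=
    g2.trans (((Continuous.prodMk_left w₀).tendsto z₀).eventually r1.symm)
  have f2 : g =ᶠ[𝓝 w₀] fun w => R (z₀, w) :=
    g3.trans (((Continuous.prodMk_right z₀).tendsto w₀).eventually r1.symm)
  have key : ∀ σ ρ, 0 ≤ σ → σ < a → 0 ≤ ρ → ρ < b → InG p (z₀, w₀) R₀ σ ρ := by
    refine ext_aux_touch (fun σ ρ h h1 h2 => h.open h1 h2) fun σ ρ s0 s1 p0 p1 H => ?_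
    have hR : ∀ q : V × V, ‖q.1 - z₀‖ < a → ‖q.2 - w₀‖ < b →
        (a - σ) * (b - ρ) < (a - ‖q.1 - z₀‖) * (b - ‖q.2 - w₀‖) → ∀ᶠ z in 𝓝 q, PT V V p R z :=
      fun q a1 a2 a3 => r2 q (H _ _ (norm_nonneg _) a1 (norm_nonneg _) a2 a3)
    have hR1 : ∀ q : V × V, ‖q.1 - z₀‖ < σ → ‖q.2 - w₀‖ ≤ ρ → ∀ᶠ z in 𝓝 q, PT V V p R z :=
      fun q a1 a2 => hR q (a1.trans s1) (a2.trans_lt p1)
        (mul_lt_mul (by linarith) (by linarith) (by linarith) (by linarith))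
    have hR2 : ∀ q : V × V, ‖q.1 - z₀‖ ≤ σ → ‖q.2 - w₀‖ < ρ → ∀ᶠ z in 𝓝 q, PT V V p R z :=
      fun q a1 a2 => hR q (a1.trans_lt s1) (a2.trans p1)
        (mul_lt_mul' (by linarith) (by linarith) (by linarith) (by linarith))
    rcases p0.eq_or_lt with rfl | p0'
    · rcases s0.eq_or_lt with rfl | s0'
      · exact h00
      have hK : ∀ z ∈ ball z₀ σ, ∀ᶠ q in 𝓝 (z, w₀), PT V V p R q := fun z hz =>
        hR1 (z, w₀) (mem_ball_iff_norm.1 hz) (by simp)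
      refine InG.of_loc r1 s0 le_rfl (K₀ := ball z₀ σ ×ˢ {w₀}) ⟨mem_ball_self s0', rfl⟩ ?_ ?_
      · rw [closure_prod_eq, closure_ball z₀ s0'.ne', closure_singleton, closedBall_zero]
      · rintro ⟨z, w⟩ ⟨hz, hw⟩
        rw [closedBall_zero] at hw
        obtain rfl : w = w₀ := hw
        refine axis1 hP hp s0' hz (f := f) ?_ (ext_aux_side1 s0'
          (fun y hy => (hf y (ball_subset_ball s1.le hy)).1) hK f1) ?_
        · exact eventually_of_mem (isOpen_ball.mem_nhds (closedBall_subset_ball s1 hz))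
            fun y hy => (hf y hy).1
        · rintro ⟨y, w'⟩ ⟨hy, hw'⟩
          obtain rfl : w' = w := hw'
          exact hK y hy
    rcases s0.eq_or_lt with rfl | s0'
    · have hK : ∀ w ∈ ball w₀ ρ, ∀ᶠ q in 𝓝 (z₀, w), PT V V p R q := fun w hw =>
        hR2 (z₀, w) (by simp) (mem_ball_iff_norm.1 hw)
      refine InG.of_loc r1 le_rfl p0 (K₀ := {z₀} ×ˢ ball w₀ ρ) ⟨rfl, mem_ball_self p0'⟩ ?_ ?_
      · rw [closure_prod_eq, closure_ball w₀ p0'.ne', closure_singleton, closedBall_zero]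
      · rintro ⟨z, w⟩ ⟨hz, hw⟩
        rw [closedBall_zero] at hz
        obtain rfl : z = z₀ := hz
        refine axis2 hP hp p0' hw (g := g) ?_ (ext_aux_side2 p0'
          (fun y hy => (hg y (ball_subset_ball p1.le hy)).1) hK f2) ?_
        · exact eventually_of_mem (isOpen_ball.mem_nhds (closedBall_subset_ball p1 hw))
            fun y hy => (hg y hy).1
        · rintro ⟨z', y⟩ ⟨hz', hy⟩
          obtain rfl : z' = z := hz'
          exact hK y hy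
    refine InG.of_loc r1 s0 p0 (K₀ := ball z₀ σ ×ˢ ball w₀ ρ)
      ⟨mem_ball_self s0', mem_ball_self p0'⟩ ?_ fun P hP' => ?_
    · rw [closure_prod_eq, closure_ball z₀ s0'.ne', closure_ball w₀ p0'.ne']
    have a1 : ‖P.1 - z₀‖ ≤ σ := mem_closedBall_iff_norm.1 hP'.1
    have a2 : ‖P.2 - w₀‖ ≤ ρ := mem_closedBall_iff_norm.1 hP'.2
    have loc : (∀ᶠ z in 𝓝 P, PT V V p R z) → LocExt p R (ball z₀ σ ×ˢ ball w₀ ρ) P := fun h => by
      obtain ⟨r, r0, hr⟩ := Metric.eventually_nhds_iff_ball.1 h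
      exact ⟨r, r0, R, hr, fun _ _ => EventuallyEq.rfl⟩
    rcases a1.eq_or_lt with b1 | b1
    · rcases a2.eq_or_lt with b2 | b2
      · exact corner hP hp hU (q₀ := (z₀, w₀)) s0' p0' s1 p1 hR b1 b2
      · exact loc (hR2 P a1 b2)
    · exact loc (hR1 P b1 a2)
  have hR : ∀ q ∈ ball z₀ a ×ˢ ball w₀ b, ∀ᶠ z in 𝓝 q, PT V V p R z := fun q hq =>
    r2 q (key _ _ (norm_nonneg _) (mem_ball_iff_norm.1 hq.1) (norm_nonneg _)
      (mem_ball_iff_norm.1 hq.2))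
  refine ⟨R, fun q hq => (hR q hq).self_of_nhds, fun z hz => ?_, fun w hw => ?_⟩
  · exact (ext_aux_side1 ha (fun y hy => (hf y hy).1)
      (fun y hy => hR (y, w₀) ⟨hy, mem_ball_self hb⟩) f1 z hz).eq_of_nhds.symm
  · exact (ext_aux_side2 hb (fun y hy => (hg y hy).1)
      (fun y hy => hR (z₀, y) ⟨mem_ball_self ha, hy⟩) f2 w hw).eq_of_nhds.symm

end Vale.Agent.P278
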