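import Vale.Agent.P278.Base

/-!
P278 task Factor: a subset which is locally a plaque is a complex manifold.

Plan. For `y : Z`, `ψ = chartAt V y.1`, `c = (1 - p) (ψ y)`, take an open `O ∋ y` inside `ψ.source` on which
`x ∈ Z ↔ (1 - p) (ψ x) = c`. The chart at `y`: `toFun x = π (ψ x.1)` (on all of `Z`),
`invFun t = if h : ψ.symm (j t + c) ∈ Z then ⟨_, h⟩ else y`, source `val ⁻¹' O`, target
`{t | j t + c ∈ ψ.target ∧ ψ.symm (j t + c) ∈ O}`; note `j (π v) + (1 - p) v = v`, `(1 - p) (j t) = 0`,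
`π c = 0` (all from `hπ`, `hj`). Atlas: the range of this family. `isManifold_of_contDiffOn`: on its source a
transition map equals `t ↦ π (ψ' (ψ.symm (j t + c)))`, `ContDiffOn ℂ ω` by
`contDiffOn_of_mem_atlas`-type lemmas (`StructureGroupoid.compatible`, `contDiffGroupoid`,
or `contDiffOn_ext_coord_change`). For `val` at `y`: written in charts it is eventually `t ↦ j t + c`.
For `h`: continuity from `continuousAt_subtype`/`IsInducing`, and
`writtenInExtChartAt h = π ∘ writtenInExtChartAt (val ∘ h)` as functions.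
Auxiliary names: start with `factor_`.
-/

namespace Vale.Agent.P278

open scoped Manifold ContDiff Topology

theorem factor_chart {V W : Type*} [NormedAddCommGroup V] [NormedSpace ℂ V]
    [NormedAddCommGroup W] [NormedSpace ℂ W] {M : Type*} [TopologicalSpace M]
    (ψ : OpenPartialHomeomorph M V) (j : W →L[ℂ] V) (π : V →L[ℂ] W) (hπ : ∀ t, π (j t) = t)
    {c : V} (hc : π c = 0) {Z O : Set M} (hO : IsOpen O) (hs : O ⊆ ψ.source)
    (hZ : ∀ x ∈ O, x ∈ Z ↔ j (π (ψ x)) + c = ψ x) (y : Z) :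
    ∃ e : OpenPartialHomeomorph Z W, e.source = Subtype.val ⁻¹' O ∧ (∀ x, e x = π (ψ x.1)) ∧
      ∀ t ∈ e.target, j t + c ∈ ψ.target ∧ (e.symm t).1 = ψ.symm (j t + c) := by
  classical
  have h1 : ∀ t, j t + c ∈ ψ.target → ψ.symm (j t + c) ∈ O → ψ.symm (j t + c) ∈ Z := by
    intro t ht ht'
    rw [hZ _ ht', ψ.right_inv ht, map_add, hπ, hc, add_zero]
  have hcont : Continuous fun t => j t + c := by fun_prop
  refine ⟨{ toFun := fun x => π (ψ x.1)
            invFun := fun t => if h : ψ.symm (j t + c) ∈ Z then ⟨_, h⟩ else y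
            source := Subtype.val ⁻¹' O
            target := {t | j t + c ∈ ψ.target ∧ ψ.symm (j t + c) ∈ O}
            map_source' := fun x hx => ?_
            map_target' := fun t ht => ?_
            left_inv' := fun x hx => ?_
            right_inv' := fun t ht => ?_
            open_source := hO.preimage continuous_subtype_val
            open_target := (ψ.isOpen_inter_preimage_symm hO).preimage hcont
            continuousOn_toFun := π.continuous.comp_continuousOn
              (ψ.continuousOn.comp continuous_subtype_val.continuousOn fun x hx => hs hx)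
            continuousOn_invFun := ?_ }, rfl, fun _ => rfl, fun t ht => ⟨ht.1, ?_⟩⟩
  · have h2 := (hZ _ hx).1 x.2
    refine ⟨?_, ?_⟩ <;> rw [h2]
    · exact ψ.map_source (hs hx)
    · rw [ψ.left_inv (hs hx)]
      exact hx
  · rw [dif_pos (h1 t ht.1 ht.2)]
    exact ht.2
  · have h2 : ψ.symm (j (π (ψ x.1)) + c) = x.1 := by
      rw [(hZ _ hx).1 x.2, ψ.left_inv (hs hx)]
    rw [dif_pos (h2.symm ▸ x.2)]
    exact Subtype.ext h2
  · rw [dif_pos (h1 t ht.1 ht.2)]
    change π (ψ (ψ.symm (j t + c))) = t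
    rw [ψ.right_inv ht.1, map_add, hπ, hc, add_zero]
  · refine Topology.IsInducing.subtypeVal.continuousOn_iff.2 (ContinuousOn.congr
      (ψ.continuousOn_symm.comp hcont.continuousOn fun t ht => ht.1) fun t ht => ?_)
    exact congrArg Subtype.val (dif_pos (h1 t ht.1 ht.2))
  · exact congrArg Subtype.val (dif_pos (h1 t ht.1 ht.2))

theorem exists_factor {V W : Type*} [NormedAddCommGroup V] [NormedSpace ℂ V]
    [NormedAddCommGroup W] [NormedSpace ℂ W] {M : Type*} [TopologicalSpace M] [ChartedSpace V M]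
    [IsManifold 𝓘(ℂ, V) ω M] {p : V →L[ℂ] V} (j : W →L[ℂ] V) (π : V →L[ℂ] W)
    (hπ : ∀ t, π (j t) = t) (hj : ∀ v, j (π v) = p v) (Z : Set M)
    (hZ : ∀ y ∈ Z, ∀ᶠ x in 𝓝 y, (x ∈ Z ↔ (1 - p) (chartAt V y x) = (1 - p) (chartAt V y y))) :
    ∃ _ : ChartedSpace W Z, IsManifold 𝓘(ℂ, W) ω Z ∧
      MDifferentiable 𝓘(ℂ, W) 𝓘(ℂ, V) (Subtype.val : Z → M) ∧
      ∀ (h : M → Z) (x : M), MDifferentiableAt 𝓘(ℂ, V) 𝓘(ℂ, V) (Subtype.val ∘ h) x →
        MDifferentiableAt 𝓘(ℂ, V) 𝓘(ℂ, W) h x ∧ ∀ v, mfderiv 𝓘(ℂ, V) 𝓘(ℂ, W) h x v =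
          π (mfderiv 𝓘(ℂ, V) 𝓘(ℂ, V) (Subtype.val ∘ h) x v) := by
  have key : ∀ y : Z, ∃ (e : OpenPartialHomeomorph Z W) (c : V), y ∈ e.source ∧
      (∀ x ∈ e.source, x.1 ∈ (chartAt V y.1).source) ∧ (∀ x, e x = π (chartAt V y.1 x.1)) ∧
      ∀ t ∈ e.target, j t + c ∈ (chartAt V y.1).target ∧
        (e.symm t).1 = (chartAt V y.1).symm (j t + c) := by
    intro y
    obtain ⟨O, hO, hOo, hyO⟩ := eventually_nhds_iff.1
      ((hZ y.1 y.2).and (chart_source_mem_nhds V y.1))
    obtain ⟨e, h1, h2, h3⟩ := factor_chart (chartAt V y.1) j π hπ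
      (c := (1 - p) (chartAt V y.1 y.1)) (Z := Z)
      (by rw [sub_apply, one_apply_eq_self, ← hj, map_sub, hπ,
        sub_self]) hOo (fun x hx => (hO x hx).2)
      (fun x hx => by
        rw [(hO x hx).1, hj, sub_apply, one_apply_eq_self,
          sub_eq_iff_eq_add', eq_comm]) y
    exact ⟨e, _, h1 ▸ hyO, fun x hx => (hO x.1 (by rwa [h1] at hx)).2, h2, h3⟩
  choose e c h1 h2 h3 h4 using key
  letI cs : ChartedSpace W Z :=
    { atlas := Set.range e
      chartAt := e
      mem_chart_source := h1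
      chart_mem_atlas := fun y => ⟨y, rfl⟩ }
  have hch : ∀ y : Z, chartAt W y = e y := fun _ => rfl
  refine ⟨cs, isManifold_of_contDiffOn _ _ _ ?_, fun y => ?_, fun h x hh => ?_⟩
  · rintro _ _ ⟨a, rfl⟩ ⟨b, rfl⟩
    simp only [mfld_simps]
    have k1 : ContMDiffOn 𝓘(ℂ, V) 𝓘(ℂ, V) ω (chartAt V b.1 ∘ (chartAt V a.1).symm)
        ((chartAt V a.1).target ∩ (chartAt V a.1).symm ⁻¹' (chartAt V b.1).source) :=
      contMDiffOn_chart.comp' contMDiffOn_chart_symm
    have k2 : ContDiff ℂ ω fun t => j t + c a := j.contDiff.add contDiff_const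
    refine (π.contDiff.comp_contDiffOn ((contMDiffOn_iff_contDiffOn.1 k1).comp k2.contDiffOn
      fun t ht => ⟨(h4 a t ht.1).1, ?_⟩)).congr fun t ht => ?_
    · have k3 := h2 b _ ht.2
      rwa [(h4 a t ht.1).2] at k3
    · rw [Function.comp_apply, h3, (h4 a t ht.1).2]
      rfl
  · refine (mdifferentiableAt_iff _ _).2 ⟨continuous_subtype_val.continuousAt, ?_⟩
    have k2 : DifferentiableAt ℂ (fun t => j t + c y) (e y y) := by fun_prop
    simp only [mfld_simps, writtenInExtChartAt, hch, differentiableWithinAt_univ]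
    refine k2.congr_of_eventuallyEq ?_
    filter_upwards [(e y).open_target.mem_nhds ((e y).map_source (h1 y))] with t ht
    simp only [Function.comp_apply]
    rw [(h4 y t ht).2, (chartAt V y.1).right_inv (h4 y t ht).1]
  · have k1 := hh.hasMFDerivAt
    have k2 : HasMFDerivAt 𝓘(ℂ, V) 𝓘(ℂ, W) h x
        (π.comp (mfderiv 𝓘(ℂ, V) 𝓘(ℂ, V) (Subtype.val ∘ h) x)) := by
      refine ⟨Topology.IsInducing.subtypeVal.continuousAt_iff.2 k1.1, ?_⟩
      have k3 : writtenInExtChartAt 𝓘(ℂ, V) 𝓘(ℂ, W) x h =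
          π ∘ writtenInExtChartAt 𝓘(ℂ, V) 𝓘(ℂ, V) x (Subtype.val ∘ h) := by
        funext v
        exact h3 (h x) _
      rw [k3]
      exact π.hasFDerivAt.comp_hasFDerivWithinAt _ k1.2
    exact ⟨k2.mdifferentiableAt, fun v => by rw [k2.mfderiv]; rfl⟩

end Vale.Agent.P278
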