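import Mathlib

/-!
P278 task Topo: small topological facts.

Plan. `simply_connected_iff_paths_homotopic'` / `simply_connected_iff_loops_nullhomotopic`.
`sc_prod`: a path in `A × B` is `Path.prod` of its projections (`Path.map`), and
`Path.Homotopic.prodHomotopy` (or `ContinuousMap.HomotopyRel.prod`). `sc_retract`: map paths by `i`,
take the homotopy in `A`, map it back by `r` (`Path.Homotopic.map`, `Path.cast`).
`glue_balls`: if `y ∈ ball x (r x) ∩ ball x' (r x')` then `dist x x' < r x + r x'`, so the point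
`z = x + (r x / (r x + r x')) • (x' - x)` of the segment lies in `K` and in both balls; as
`K ⊆ closure K₀` the open set `ball x (r x) ∩ ball x' (r x')` contains `z' ∈ K₀`, where
`S x =ᶠ R =ᶠ S x'`; so `hid` gives `S x y = S x' y`. Define `R' y` by choice.
Auxiliary names: start with `topo_`.
-/

namespace Vale.Agent.P278

open scoped Topology
open Set Metric

theorem sc_prod {A B : Type*} [TopologicalSpace A] [TopologicalSpace B] [SimplyConnectedSpace A]
    [SimplyConnectedSpace B] : SimplyConnectedSpace (A × B) := by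
  refine simply_connected_iff_paths_homotopic'.2 ⟨inferInstance, ?_⟩
  rintro ⟨a, b⟩ ⟨a', b'⟩ p q
  obtain ⟨h1⟩ := SimplyConnectedSpace.paths_homotopic (p.map continuous_fst) (q.map continuous_fst)
  obtain ⟨h2⟩ := SimplyConnectedSpace.paths_homotopic (p.map continuous_snd) (q.map continuous_snd)
  exact ⟨Path.Homotopic.prodHomotopy h1 h2⟩

theorem sc_retract {A B : Type*} [TopologicalSpace A] [TopologicalSpace B] [SimplyConnectedSpace A]
    {i : B → A} {r : A → B} (hi : Continuous i) (hr : Continuous r) (h : ∀ b, r (i b) = b) :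
    SimplyConnectedSpace B := by
  refine simply_connected_iff_paths_homotopic'.2
    ⟨Function.Surjective.pathConnectedSpace (fun b => ⟨i b, h b⟩) hr, ?_⟩
  intro x y p q
  have h1 := ((SimplyConnectedSpace.paths_homotopic (p.map hi) (q.map hi)).map ⟨r, hr⟩).pathCast
    (h x).symm (h y).symm
  have e : ∀ s : Path x y, ((s.map hi).map (ContinuousMap.mk r hr).continuous).cast
      (h x).symm (h y).symm = s := fun s => by
    ext t
    exact h (s t)
  rwa [e, e] at h1

theorem glue_balls {P Y : Type*} [NormedAddCommGroup P] [NormedSpace ℝ P] {K K₀ : Set P}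
    (hK : Convex ℝ K) (hd : K ⊆ closure K₀) {R : P → Y} {r : P → ℝ} {S : P → P → Y}
    (hr : ∀ x ∈ K, 0 < r x) (hS : ∀ x ∈ K, ∀ y ∈ ball x (r x) ∩ K₀, S x =ᶠ[𝓝 y] R)
    (hid : ∀ x ∈ K, ∀ x' ∈ K, ∀ z ∈ ball x (r x) ∩ ball x' (r x'), S x =ᶠ[𝓝 z] S x' →
      ∀ y ∈ ball x (r x) ∩ ball x' (r x'), S x y = S x' y) :
    ∃ R' : P → Y, ∀ x ∈ K, ∀ y ∈ ball x (r x), R' y = S x y := by
  have key : ∀ x ∈ K, ∀ x' ∈ K, ∀ y ∈ ball x (r x) ∩ ball x' (r x'), S x y = S x' y := by
    intro x hx x' hx' y hy
    have h1 := hr x hx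
    have h2 := hr x' hx'
    have h3 : ‖x' - x‖ < r x + r x' := by
      rw [← dist_eq_norm, dist_comm]
      exact (dist_triangle_left x x' y).trans_lt (add_lt_add hy.1 hy.2)
    have h4 : 0 < r x + r x' := add_pos h1 h2
    have hz : (r x' / (r x + r x')) • x + (r x / (r x + r x')) • x' ∈ K :=
      hK hx hx' (by positivity) (by positivity) (by rw [← add_div, add_comm, div_self h4.ne'])
    have hz' : (r x' / (r x + r x')) • x + (r x / (r x + r x')) • x' ∈
        ball x (r x) ∩ ball x' (r x') := by
      have e0 : r x' / (r x + r x') = 1 - r x / (r x + r x') := by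
        field_simp
        ring
      have e1 : (r x' / (r x + r x')) • x + (r x / (r x + r x')) • x' - x =
          (r x / (r x + r x')) • (x' - x) := by
        rw [e0]
        module
      have e0' : r x / (r x + r x') = 1 - r x' / (r x + r x') := by
        field_simp
        ring
      have e2 : (r x' / (r x + r x')) • x + (r x / (r x + r x')) • x' - x' =
          (-(r x' / (r x + r x'))) • (x' - x) := by
        rw [e0']
        module
      constructor
      · rw [mem_ball_iff_norm, e1, norm_smul, Real.norm_of_nonneg (by positivity),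
          div_mul_eq_mul_div, div_lt_iff₀ h4]
        exact mul_lt_mul_of_pos_left h3 h1
      · rw [mem_ball_iff_norm, e2, norm_smul, norm_neg, Real.norm_of_nonneg (by positivity),
          div_mul_eq_mul_div, div_lt_iff₀ h4]
        exact mul_lt_mul_of_pos_left h3 h2
    obtain ⟨z, hz1, hz2⟩ := mem_closure_iff.1 (hd hz) _ (isOpen_ball.inter isOpen_ball) hz'
    exact hid x hx x' hx' z hz1
      ((hS x hx z ⟨hz1.1, hz2⟩).trans (hS x' hx' z ⟨hz1.2, hz2⟩).symm) y hy
  classical
  refine ⟨fun y => if h : ∃ x ∈ K, y ∈ ball x (r x) then S h.choose y else R y, fun x hx y hy => ?_⟩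
  have h : ∃ x ∈ K, y ∈ ball x (r x) := ⟨x, hx, hy⟩
  simp only [dif_pos h]
  exact key _ h.choose_spec.1 x hx y ⟨h.choose_spec.2, hy⟩

end Vale.Agent.P278
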