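import Vale.Agent.P278.Split
import Vale.Agent.P278.Ident
import Vale.Agent.P278.Topo

/-!
P278 task GSet: the set of polyradii on which the rectangle exists.

Plan. All uses of `ident` are with the model `𝓘(ℂ, V).prod 𝓘(ℂ, V)` on `V × V` and convex sets
(`Convex.isPreconnected`). `InG.open`: `U = {q | ∀ᶠ z in 𝓝 q, PT V V p R z}` is open; use
`generalized_tube_lemma`, `IsCompact.exists_cthickening_subset_open`, `cthickening_closedBall`.
`exists_Rinf`: for `q` with `InG .. ‖q.1 - q₀.1‖ ‖q.2 - q₀.2‖` choose a solution `Rq`, put `R q = Rq q`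
(otherwise `R₀ q`). Given such `q`, take `ε` from `InG.open` and a solution `S` for the radii enlarged by
`ε/2`; for `q'` near `q`, `InG` holds for the norms of `q'` and `Rq' q' = S q'` by `ident` on
`closedBall q₀.1 ‖q'.1 - q₀.1‖ ×ˢ closedBall q₀.2 ‖q'.2 - q₀.2‖`. So `R =ᶠ[𝓝 q] S`; use `PT.congr`.
`InG.of_loc`: choose `r P`, `S P`; `glue_balls` (with `ident` on intersections of balls) gives `R'`
equal to `S P` on `ball P (r P)`.
Auxiliary names: start with `gset_`.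
-/

namespace Vale.Agent.P278

open scoped Manifold ContDiff Topology
open Set Metric

variable {V : Type*} [NormedAddCommGroup V] [NormedSpace ℂ V]
  {X : Type*} [TopologicalSpace X] [ChartedSpace V X]

/-- A rectangle with the given germ exists near the closed polydisc. -/
def InG (p : V →L[ℂ] V) (q₀ : V × V) (R₀ : V × V → X) (σ ρ : ℝ) : Prop :=
  ∃ R : V × V → X, (∀ q ∈ closedBall q₀.1 σ ×ˢ closedBall q₀.2 ρ, ∀ᶠ z in 𝓝 q, PT V V p R z) ∧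
    R =ᶠ[𝓝 q₀] R₀

/-- `R` extends from `K₀` to a ball around `P`. -/
def LocExt (p : V →L[ℂ] V) (R : V × V → X) (K₀ : Set (V × V)) (P : V × V) : Prop :=
  ∃ r > 0, ∃ S : V × V → X, (∀ y ∈ ball P r, PT V V p S y) ∧
    ∀ y ∈ ball P r ∩ K₀, S =ᶠ[𝓝 y] R

variable [FiniteDimensional ℂ V] [T2Space X] [IsManifold 𝓘(ℂ, V) ω X] {p : V →L[ℂ] V}
  {q₀ : V × V} {R₀ : V × V → X} {σ ρ : ℝ}

omit [T2Space X] [IsManifold 𝓘(ℂ, V) ω X] in
theorem InG.open (h : InG p q₀ R₀ σ ρ) (hσ : 0 ≤ σ) (hρ : 0 ≤ ρ) :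
    ∃ ε > 0, ∀ σ' ρ', σ' < σ + ε → ρ' < ρ + ε → InG p q₀ R₀ σ' ρ' := by
  haveI : ProperSpace V := FiniteDimensional.proper ℂ V
  obtain ⟨R, hR, h0⟩ := h
  obtain ⟨u, v, hu, hv, su, sv, huv⟩ := generalized_tube_lemma (isCompact_closedBall q₀.1 σ)
    (isCompact_closedBall q₀.2 ρ) (n := {q | ∀ᶠ z in 𝓝 q, PT V V p R z})
    isOpen_setOfPred_eventually_nhds hR
  obtain ⟨δ₁, h1, s1⟩ := (isCompact_closedBall q₀.1 σ).exists_cthickening_subset_open hu su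
  obtain ⟨δ₂, h2, s2⟩ := (isCompact_closedBall q₀.2 ρ).exists_cthickening_subset_open hv sv
  rw [cthickening_closedBall h1.le hσ] at s1
  rw [cthickening_closedBall h2.le hρ] at s2
  refine ⟨min δ₁ δ₂, lt_min h1 h2, fun σ' ρ' a1 a2 => ⟨R, fun q hq => huv ⟨s1 ?_, s2 ?_⟩, h0⟩⟩
  · exact closedBall_subset_closedBall (by linarith [min_le_left δ₁ δ₂]) hq.1
  · exact closedBall_subset_closedBall (by linarith [min_le_right δ₁ δ₂]) hq.2

theorem gset_ident {R R' : V × V → X} {S : Set (V × V)} (hS : Convex ℝ S)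
    (hR : ∀ y ∈ S, ∀ᶠ z in 𝓝 y, PT V V p R z) (hR' : ∀ y ∈ S, ∀ᶠ z in 𝓝 y, PT V V p R' z)
    {x : V × V} (hx : x ∈ S) (h : R =ᶠ[𝓝 x] R') : ∀ y ∈ S, R =ᶠ[𝓝 y] R' := by
  haveI : CompleteSpace V := FiniteDimensional.complete ℂ V
  exact ident (𝓘(ℂ, V).prod 𝓘(ℂ, V)) hS.isPreconnected
    (fun y hy => (hR y hy).mono fun _ hz => hz.1) (fun y hy => (hR' y hy).mono fun _ hz => hz.1) hx h

theorem exists_Rinf (h : InG p q₀ R₀ 0 0) : ∃ R : V × V → X, R =ᶠ[𝓝 q₀] R₀ ∧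
    ∀ q : V × V, InG p q₀ R₀ ‖q.1 - q₀.1‖ ‖q.2 - q₀.2‖ → ∀ᶠ z in 𝓝 q, PT V V p R z := by
  classical
  have hmem : ∀ q : V × V, q ∈ closedBall q₀.1 ‖q.1 - q₀.1‖ ×ˢ closedBall q₀.2 ‖q.2 - q₀.2‖ :=
    fun q => ⟨mem_closedBall_iff_norm.2 le_rfl, mem_closedBall_iff_norm.2 le_rfl⟩
  have hmem0 : ∀ q : V × V, q₀ ∈ closedBall q₀.1 ‖q.1 - q₀.1‖ ×ˢ closedBall q₀.2 ‖q.2 - q₀.2‖ :=
    fun q => ⟨mem_closedBall_self (norm_nonneg _), mem_closedBall_self (norm_nonneg _)⟩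
  let R : V × V → X := fun q =>
    if hq : InG p q₀ R₀ ‖q.1 - q₀.1‖ ‖q.2 - q₀.2‖ then hq.choose q else R₀ q
  have key : ∀ q : V × V, InG p q₀ R₀ ‖q.1 - q₀.1‖ ‖q.2 - q₀.2‖ →
      ∃ S : V × V → X, (∀ᶠ z in 𝓝 q, PT V V p S z) ∧ S =ᶠ[𝓝 q₀] R₀ ∧ R =ᶠ[𝓝 q] S := by
    intro q hq
    obtain ⟨ε, hε, he⟩ := hq.open (norm_nonneg _) (norm_nonneg _)
    obtain ⟨S, hS, hS0⟩ := he (‖q.1 - q₀.1‖ + ε / 2) (‖q.2 - q₀.2‖ + ε / 2) (by linarith)
      (by linarith)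
    refine ⟨S, hS q ⟨closedBall_subset_closedBall (by linarith) (hmem q).1,
      closedBall_subset_closedBall (by linarith) (hmem q).2⟩, hS0, ?_⟩
    have c1 : ∀ᶠ q' : V × V in 𝓝 q, ‖q'.1 - q₀.1‖ < ‖q.1 - q₀.1‖ + ε / 2 :=
      (continuous_fst.sub continuous_const).norm.continuousAt.eventually_lt continuousAt_const
        (lt_add_of_pos_right _ (half_pos hε))
    have c2 : ∀ᶠ q' : V × V in 𝓝 q, ‖q'.2 - q₀.2‖ < ‖q.2 - q₀.2‖ + ε / 2 :=
      (continuous_snd.sub continuous_const).norm.continuousAt.eventually_lt continuousAt_const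
        (lt_add_of_pos_right _ (half_pos hε))
    filter_upwards [c1, c2] with q' a1 a2
    have hq' : InG p q₀ R₀ ‖q'.1 - q₀.1‖ ‖q'.2 - q₀.2‖ := he _ _ (by linarith) (by linarith)
    have e : R q' = hq'.choose q' := dif_pos hq'
    rw [e]
    refine (gset_ident (p := p) ((convex_closedBall _ _).prod (convex_closedBall _ _))
      hq'.choose_spec.1 (fun y hy => hS y ⟨closedBall_subset_closedBall a1.le hy.1,
        closedBall_subset_closedBall a2.le hy.2⟩) (hmem0 q')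
      (hq'.choose_spec.2.trans hS0.symm) q' (hmem q')).eq_of_nhds
  refine ⟨R, ?_, fun q hq => ?_⟩
  · obtain ⟨S, _, h2, h3⟩ := key q₀ (by simpa using h)
    exact h3.trans h2
  · obtain ⟨S, h1, _, h3⟩ := key q hq
    filter_upwards [h1, h3.eventuallyEq_nhds] with z a1 a2
    exact a1.congr a2

theorem InG.of_loc {R : V × V → X} (hR : R =ᶠ[𝓝 q₀] R₀) (hσ : 0 ≤ σ) (hρ : 0 ≤ ρ)
    {K₀ : Set (V × V)} (hq : q₀ ∈ K₀)
    (hd : closedBall q₀.1 σ ×ˢ closedBall q₀.2 ρ ⊆ closure K₀)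
    (h : ∀ P ∈ closedBall q₀.1 σ ×ˢ closedBall q₀.2 ρ, LocExt p R K₀ P) : InG p q₀ R₀ σ ρ := by
  classical
  have h' : ∀ P : V × V, ∃ r : ℝ, ∃ S : V × V → X,
      P ∈ closedBall q₀.1 σ ×ˢ closedBall q₀.2 ρ → 0 < r ∧ (∀ y ∈ ball P r, PT V V p S y) ∧
        ∀ y ∈ ball P r ∩ K₀, S =ᶠ[𝓝 y] R := by
    intro P
    by_cases hP : P ∈ closedBall q₀.1 σ ×ˢ closedBall q₀.2 ρ
    · obtain ⟨r, hr, S, h1, h2⟩ := h P hP
      exact ⟨r, S, fun _ => ⟨hr, h1, h2⟩⟩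
    · exact ⟨0, R, fun hh => absurd hh hP⟩
  choose r S hS using h'
  have hev : ∀ x ∈ closedBall q₀.1 σ ×ˢ closedBall q₀.2 ρ, ∀ y ∈ ball x (r x),
      ∀ᶠ z in 𝓝 y, PT V V p (S x) z := fun x hx y hy =>
    Filter.eventually_of_mem (isOpen_ball.mem_nhds hy) (hS x hx).2.1
  obtain ⟨R', hR'⟩ := glue_balls (R := R) (r := r) (S := S)
    ((convex_closedBall q₀.1 σ).prod (convex_closedBall q₀.2 ρ)) hd (fun x hx => (hS x hx).1)
    (fun x hx => (hS x hx).2.2) (fun x hx x' hx' z hz he y hy =>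
      (gset_ident (p := p) ((convex_ball x (r x)).inter (convex_ball x' (r x')))
        (fun w hw => hev x hx w hw.1) (fun w hw => hev x' hx' w hw.2) hz he y hy).eq_of_nhds)
  have heq : ∀ x ∈ closedBall q₀.1 σ ×ˢ closedBall q₀.2 ρ, R' =ᶠ[𝓝 x] S x := fun x hx =>
    Filter.eventually_of_mem (ball_mem_nhds x (hS x hx).1) (hR' x hx)
  have h0 : q₀ ∈ closedBall q₀.1 σ ×ˢ closedBall q₀.2 ρ :=
    ⟨mem_closedBall_self hσ, mem_closedBall_self hρ⟩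
  refine ⟨R', fun q hq' => ?_, ((heq q₀ h0).trans
    ((hS q₀ h0).2.2 q₀ ⟨mem_ball_self (hS q₀ h0).1, hq⟩)).trans hR⟩
  filter_upwards [hev q hq' q (mem_ball_self (hS q hq').1), (heq q hq').eventuallyEq_nhds]
    with z a1 a2
  exact a1.congr a2

end Vale.Agent.P278
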