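import Vale.Agent.P278.HCl
import Vale.Agent.P278.Cont
import Vale.Agent.P278.Topo

/-!
P278 task Glob: the global bracket on a simply connected manifold.

Plan. Apply `continuation` on `M × M` (`sc_prod`; locally path connected as a charted space over
`ModelProd V V`, or as a product: `ChartedSpace.locallyPathConnectedSpace`) with
`Adm S q = (∀ᶠ z in 𝓝 q, PT V V p S z) ∧ HC p q.1 (S (·, q.2)) ∧ HC (1 - p) q.2 (S (q.1, ·))`.
Start: `br p (chartAt V x₀)` at `(x₀, x₀)` (`br_pt`, `HC.base`, `sub_sub_cancel`, `add_comm`).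
For `c = (c₁, c₂)`: `ψᵢ = chartAt V cᵢ`, `C = max 1 (max ‖p‖ ‖1 - p‖)`, `r > 0` with
`ball (ψᵢ cᵢ) (7 C r) ⊆ target`, `Nᵢ = ψᵢ.source ∩ ψᵢ ⁻¹' ball (ψᵢ cᵢ) r` (open; preconnected as the image of
the ball under `ψᵢ.symm`), `N = N₁ ×ˢ N₂`. Extension from `(x, y) ∈ N`: `HC.extend` with radius `2r` for `p`
and for `1 - p` (`hP.one_sub`, `hp.one_sub`, `hE.swap`) gives `F, G`; `hE` applied to `F ∘ ψ₁.symm`,
`G ∘ ψ₂.symm` on the balls of radius `2r` around `ψ₁ x`, `ψ₂ y` gives `R'`; `S' z = R' (ψ₁ z.1, ψ₂ z.2)`;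
`pt_uniq` gives `S' =ᶠ S`; `Adm S'` on `N` by `HC.step` with `R z = R' (ψ₁ z.1, z.2)` resp.
`R z = R' (z.2, ψ₂ z.1)` (`PT.comp`, `PT.swap`). Uniqueness on `N`: `ident`.
Auxiliary names: start with `glob_`.
-/

namespace Vale.Agent.P278

open scoped Manifold ContDiff Topology
open Set Metric

section

variable {V : Type*} [NormedAddCommGroup V] [NormedSpace ℂ V]
  {M : Type*} [TopologicalSpace M] [ChartedSpace V M] {p : V →L[ℂ] V}
  {ψ : OpenPartialHomeomorph M V}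

theorem glob_nbhd (V : Type*) [NormedAddCommGroup V] [NormedSpace ℂ V] [ChartedSpace V M] (c : M)
    {C : ℝ} (hC : 1 ≤ C) : ∃ r > 0, ∃ N : Set M, IsOpen N ∧ c ∈ N ∧ IsPreconnected N ∧
      ∀ x ∈ N, x ∈ (chartAt V c).source ∧
        ball (chartAt V c x) (3 * C * r) ⊆ (chartAt V c).target ∧
        ∀ x' ∈ N, chartAt V c x' ∈ ball (chartAt V c x) r := by
  obtain ⟨ε, hε, hb⟩ := Metric.isOpen_iff.1 (chartAt V c).open_target _ (mem_chart_target V c)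
  obtain ⟨r, hr, e⟩ : ∃ r > 0, ε = 4 * C * r := ⟨ε / (4 * C), by positivity, by field_simp⟩
  have h1 : r ≤ C * r := le_mul_of_one_le_left hr.le hC
  refine ⟨r, hr, (chartAt V c).source ∩ chartAt V c ⁻¹' ball (chartAt V c c) (r / 2),
    (chartAt V c).isOpen_inter_preimage isOpen_ball,
    ⟨mem_chart_source V c, mem_ball_self (by positivity)⟩, ?_, fun x hx =>
    ⟨hx.1, subset_trans (ball_subset_ball' ?_) hb, fun x' hx' => ?_⟩⟩
  · have h2 := (ball_subset_ball (show r / 2 ≤ ε by linarith)).trans hb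
    rw [← (chartAt V c).symm_image_eq_source_inter_preimage h2]
    exact (convex_ball _ _).isPreconnected.image _ ((chartAt V c).continuousOn_symm.mono h2)
  · linarith [mem_ball.1 hx.2]
  · rw [mem_ball]
    linarith [mem_ball.1 hx.2, mem_ball.1 hx'.2,
      dist_triangle_right (chartAt V c x') (chartAt V c x) (chartAt V c c)]

variable [IsManifold 𝓘(ℂ, V) ω M]

theorem glob_ext [FiniteDimensional ℂ V] [T2Space M] (hP : PAtl p M) (hp : IsIdempotentElem p)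
    (hE : EXT p M) (hψ : ψ ∈ atlas V M) {x : M} (hx : x ∈ ψ.source) {r C : ℝ} (hr : 0 < r)
    (hC : 1 ≤ C) (hC₁ : ‖p‖ ≤ C) (hC₂ : ‖1 - p‖ ≤ C) (hb : ball (ψ x) (3 * C * r) ⊆ ψ.target)
    {f : M → M} (h : HC p x f) : ∃ F : M → M, F =ᶠ[𝓝 x] f ∧
      (∀ x' ∈ ψ.source, ψ x' ∈ ball (ψ x) r → HC p x' F) ∧ ∀ z ∈ ball (ψ x) r,
        MDifferentiableAt 𝓘(ℂ, V) 𝓘(ℂ, V) (F ∘ ψ.symm) z ∧ Tang V p (F ∘ ψ.symm) z := by
  obtain ⟨F, h1, h2⟩ := h.extend hP hp hE hψ hx hr hC hC₁ hC₂ hb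
  refine ⟨F, h1, h2, fun z hz => ?_⟩
  have h3 : z ∈ ψ.target := hb (ball_subset_ball (by nlinarith) hz)
  have h4 := (h2 _ (ψ.map_target h3) (by rwa [ψ.right_inv h3])).md hP hp
  have h5 := mdifferentiableAt_atlas_symm (I := 𝓘(ℂ, V)) hψ h3
  exact ⟨h4.1.comp z h5, h4.2.comp h4.1 h5⟩

theorem glob_side (hψ : ψ ∈ atlas V M) {R : V × V → M} {z₀ w₀ : V} {σ : ℝ} {F : M → M}
    (h : ∀ z ∈ ball z₀ σ, R (z, w₀) = (F ∘ ψ.symm) z) {x : M} (hx : x ∈ ψ.source)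
    (hz : ψ x ∈ ball z₀ σ) : F =ᶠ[𝓝 x] fun x => R (ψ x, w₀) := by
  filter_upwards [ψ.open_source.mem_nhds hx, ψ.continuousAt hx (isOpen_ball.mem_nhds hz)]
    with y a b
  rw [h _ b, Function.comp, ψ.left_inv a]

theorem glob_step (hψ : ψ ∈ atlas V M) {R : V × V → M} {z₀ w₀ w₁ : V} {σ ρ : ℝ}
    (hR : ∀ q ∈ ball z₀ σ ×ˢ ball w₀ ρ, PT V V p R q) {F : M → M}
    (h : ∀ z ∈ ball z₀ σ, R (z, w₀) = (F ∘ ψ.symm) z) {x : M} (hx : x ∈ ψ.source)
    (hz : ψ x ∈ ball z₀ σ) (hF : HC p x F) (hw : w₁ ∈ ball w₀ ρ) :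
    HC p x fun x => R (ψ x, w₁) := by
  refine .step F _ (fun z => R (ψ z.1, z.2)) w₀ w₁ ρ hF ?_ (glob_side hψ h hx hz) hw .rfl
  filter_upwards [ψ.open_source.mem_nhds hx, ψ.continuousAt hx (isOpen_ball.mem_nhds hz)]
    with y a b w hw
  exact PT.comp (α := ψ) (β := id) (q := (y, w)) (hR _ ⟨b, hw⟩) (mdifferentiableAt_atlas hψ a)
    mdifferentiableAt_id

end

theorem exists_brk {V : Type*} [NormedAddCommGroup V] [NormedSpace ℂ V] [FiniteDimensional ℂ V]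
    {M : Type*} [TopologicalSpace M] [T2Space M] [SimplyConnectedSpace M] [ChartedSpace V M]
    [IsManifold 𝓘(ℂ, V) ω M] {p : V →L[ℂ] V} (hP : PAtl p M) (hp : IsIdempotentElem p)
    (hE : EXT p M) (x₀ : M) : ∃ S, Brk p x₀ S := by
  have := FiniteDimensional.complete ℂ V
  have := sc_prod (A := M) (B := M)
  have : LocallyPathConnectedSpace (ModelProd V V) :=
    inferInstanceAs (LocallyPathConnectedSpace (V × V))
  have : LocallyPathConnectedSpace (M × M) :=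
    ChartedSpace.locallyPathConnectedSpace (ModelProd V V) (M × M)
  refine (continuation (A := M × M) (Y := M)
    (fun S q => (∀ᶠ z in 𝓝 q, PT V V p S z) ∧ HC p q.1 (fun x => S (x, q.2)) ∧
      HC (1 - p) q.2 fun y => S (q.1, y)) (s₀ := br p (chartAt V x₀)) (x₀ := (x₀, x₀))
    (fun s s' q h a => ⟨(h.eventuallyEq_nhds.and a.1).mono fun z hz => hz.2.congr hz.1.symm,
      a.2.1.congr ((Continuous.prodMk_left q.2).continuousAt.tendsto.eventually h.symm),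
      a.2.2.congr ((Continuous.prodMk_right q.1).continuousAt.tendsto.eventually h.symm)⟩)
    (fun c => ?_) ⟨?_, .base _ .rfl, .base _ (.of_forall fun y => ?_)⟩).imp
    fun S h => ⟨fun q => (h.2 q).1.self_of_nhds, h.1⟩
  · have hC : 1 ≤ 1 + ‖p‖ + ‖1 - p‖ := by linarith [norm_nonneg p, norm_nonneg (1 - p)]
    have c1 : ‖p‖ ≤ 1 + ‖p‖ + ‖1 - p‖ := by linarith [norm_nonneg (1 - p)]
    have c2 : ‖1 - p‖ ≤ 1 + ‖p‖ + ‖1 - p‖ := by linarith [norm_nonneg p]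
    obtain ⟨r₁, r1, N₁, o1, m1, p1, n1⟩ := glob_nbhd V c.1 hC
    obtain ⟨r₂, r2, N₂, o2, m2, p2, n2⟩ := glob_nbhd V c.2 hC
    have a1 := chart_mem_atlas V c.1
    have a2 := chart_mem_atlas V c.2
    refine ⟨N₁ ×ˢ N₂, o1.prod o2, ⟨m1, m2⟩, fun q hq s hs => ?_, fun s s' h h' x hx e =>
      ident (𝓘(ℂ, V).prod 𝓘(ℂ, V)) (p1.prod p2) (fun y hy => (h y hy).1.mono fun z hz => hz.1)
        (fun y hy => (h' y hy).1.mono fun z hz => hz.1) hx e⟩
    obtain ⟨s1, t1, u1⟩ := n1 _ hq.1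
    obtain ⟨s2, t2, u2⟩ := n2 _ hq.2
    obtain ⟨F, f1, f2, f3⟩ := glob_ext hP hp hE a1 s1 r1 hC c1 c2 t1 hs.2.1
    obtain ⟨G, g1, g2, g3⟩ := glob_ext hP.one_sub hp.one_sub hE.swap a2 s2 r2 hC c2
      (by rwa [sub_sub_cancel]) t2 hs.2.2
    obtain ⟨R, k1, k2, k3⟩ := hE _ _ _ _ _ _ r1 r2 f3 g3 (by
      simp only [Function.comp, (chartAt V c.1).left_inv s1, (chartAt V c.2).left_inv s2,
        f1.eq_of_nhds, g1.eq_of_nhds])
    have k4 : ∀ y ∈ N₁ ×ˢ N₂, ∀ᶠ z in 𝓝 y,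
        PT V V p (fun z : M × M => R (chartAt V c.1 z.1, chartAt V c.2 z.2)) z := fun y hy =>
      Filter.mem_of_superset ((o1.prod o2).mem_nhds hy) fun z hz =>
        PT.comp (k1 _ ⟨u1 _ hz.1, u2 _ hz.2⟩) (mdifferentiableAt_atlas a1 (n1 _ hz.1).1)
          (mdifferentiableAt_atlas a2 (n2 _ hz.2).1)
    refine ⟨fun z => R (chartAt V c.1 z.1, chartAt V c.2 z.2), pt_uniq hP (k4 q hq) hs.1
      ((glob_side a1 k2 s1 (mem_ball_self r1)).symm.trans f1)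
      ((glob_side (R := fun z => R (z.2, z.1)) a2 k3 s2 (mem_ball_self r2)).symm.trans g1),
      fun y hy => ⟨k4 y hy, glob_step a1 k1 k2 (n1 _ hy.1).1 (u1 _ hy.1)
        (f2 _ (n1 _ hy.1).1 (u1 _ hy.1)) (u2 _ hy.2), ?_⟩⟩
    exact glob_step (R := fun z => R (z.2, z.1)) a2
      (fun z hz => (k1 (z.2, z.1) ⟨hz.2, hz.1⟩).swap) k3 (n2 _ hy.2).1 (u2 _ hy.2)
      (g2 _ (n2 _ hy.2).1 (u2 _ hy.2)) (u1 _ hy.1)
  · have hc := (chartAt V x₀).continuousAt (mem_chart_source V x₀)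
    have h1 : ContinuousAt (fun q : M × M => p (chartAt V x₀ q.1) + (1 - p) (chartAt V x₀ q.2))
        (x₀, x₀) :=
      (p.continuous.continuousAt.comp (hc.comp_of_eq continuousAt_fst rfl)).add
        ((1 - p).continuous.continuousAt.comp (hc.comp_of_eq continuousAt_snd rfl))
    have h2 : p (chartAt V x₀ x₀) + (1 - p) (chartAt V x₀ x₀) ∈ (chartAt V x₀).target := by
      simp
    filter_upwards [h1 ((chartAt V x₀).open_target.mem_nhds h2),
      prod_mem_nhds (chart_source_mem_nhds V x₀) (chart_source_mem_nhds V x₀)] with q a b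
    exact br_pt hP hp (chart_mem_atlas V x₀) b.1 b.2 a
  · simp only [br, sub_sub_cancel]
    rw [add_comm]

end Vale.Agent.P278
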