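import Vale.Agent.P278.Osg2

/-!
P278 task Graph: an involutive field of kernels is locally a graph with a symmetric connection.

Plan. `p = P y₀`, `N y = (1 - P y) * (1 - p)`, `U y = (1 - p) * N y + p` (`U y₀ = 1`, `U y` commutes
with `p`, `p * U y = p`). `W' = {y ∈ W | ‖P y - p‖ < 1 ∧ ‖U y - 1‖ < 1}` is open; on it `U y` is a unit
(`Units.oneSub` / `NormedRing.inverse`), `σ y = N y * Ring.inverse (U y) * (1 - p)` is differentiable
(`differentiableAt_inverse`), `P y * σ y = 0`, `(1 - p) * σ y = (U y - p) (U y)⁻¹ (1 - p) = 1 - p`.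
Key: on `W'`, `(1 - p) v = 0` and `P y v = 0` imply `v = (p - P y) v`, so `v = 0`. This gives `σ y v = v`
for `P y v = 0` (apply to `v - σ y v`). For the symmetry apply `hint` on `W'` to `s = (σ · b)`,
`t = (σ · c)`: the bracket is `fderiv ℂ σ y (σ y b) c - fderiv ℂ σ y (σ y c) b`
(`VectorField.lieBracket`, `fderiv_clm_apply`); it is killed by `P y`, and by `1 - p` because
`(1 - p) * σ` is constant near `y`.
Auxiliary names: start with `graph_`.
-/

namespace Vale.Agent.P278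

/-- The kernels of the field `P` are involutive on `W`. -/
def KerInv {E : Type*} [NormedAddCommGroup E] [NormedSpace ℂ E] (P : E → E →L[ℂ] E)
    (W : Set E) : Prop :=
  ∀ U ⊆ W, IsOpen U → ∀ s t : E → E, DifferentiableOn ℂ s U → DifferentiableOn ℂ t U →
    (∀ y ∈ U, P y (s y) = 0) → (∀ y ∈ U, P y (t y) = 0) →
    ∀ y ∈ U, P y (VectorField.lieBracket ℂ s t y) = 0

theorem graph_zero {E : Type*} [NormedAddCommGroup E] [NormedSpace ℂ E] {A : E →L[ℂ] E}
    (h : ‖A‖ < 1) {u : E} (hu : A u = u) : u = 0 := by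
  have h1 := A.le_opNorm u
  rw [hu] at h1
  by_contra h0
  have h2 := norm_pos_iff.2 h0
  nlinarith

theorem graph_fderiv {E : Type*} [NormedAddCommGroup E] [NormedSpace ℂ E] {σ : E → E →L[ℂ] E}
    {y : E} (h : DifferentiableAt ℂ σ y) (c v : E) :
    fderiv ℂ (fun z => σ z c) y v = fderiv ℂ σ y v c := by
  rw [fderiv_clm_apply h (differentiableAt_const c)]
  simp

theorem exists_graph {E : Type*} [NormedAddCommGroup E] [NormedSpace ℂ E] [FiniteDimensional ℂ E]
    {P : E → E →L[ℂ] E} {W : Set E} {y₀ : E} (hW : IsOpen W) (hy : y₀ ∈ W)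
    (hP : DifferentiableOn ℂ P W) (hid : ∀ y ∈ W, IsIdempotentElem (P y)) (hint : KerInv P W) :
    ∃ W', IsOpen W' ∧ y₀ ∈ W' ∧ W' ⊆ W ∧ ∃ σ : E → E →L[ℂ] E, DifferentiableOn ℂ σ W' ∧
      σ y₀ = 1 - P y₀ ∧ (∀ y ∈ W', ∀ v, P y v = 0 → σ y v = v) ∧
      (∀ y ∈ W', ∀ v, σ y ((1 - P y₀) v) = σ y v) ∧
      ∀ y ∈ W', ∀ b c, fderiv ℂ σ y (σ y b) c = fderiv ℂ σ y (σ y c) b := by
  have : CompleteSpace E := FiniteDimensional.complete ℂ E
  obtain ⟨p, hp⟩ : ∃ p, p = P y₀ := ⟨_, rfl⟩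
  rw [← hp]
  have pp : p * p = p := hp ▸ (hid y₀ hy).eq
  have pq : p * (1 - p) = 0 := by rw [mul_sub, mul_one, pp, sub_self]
  have qp : (1 - p) * p = 0 := by rw [sub_mul, one_mul, pp, sub_self]
  have qq : (1 - p) * (1 - p) = 1 - p := by rw [mul_sub, mul_one, qp, sub_zero]
  have hM : DifferentiableOn ℂ (fun y => p * P y + (1 - p)) W :=
    (hP.const_mul p).add_const _
  have m0 : p * P y₀ + (1 - p) = 1 := by rw [← hp, pp, add_sub_cancel]
  obtain ⟨W', hW'⟩ : ∃ W', W' = (W ∩ P ⁻¹' Metric.ball p 1) ∩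
      (W ∩ (fun y => p * P y + (1 - p)) ⁻¹' {x | IsUnit x}) := ⟨_, rfl⟩
  have o1 : IsOpen W' := hW' ▸ (hP.continuousOn.isOpen_inter_preimage hW Metric.isOpen_ball).inter
    (hM.continuousOn.isOpen_inter_preimage hW Units.isOpen)
  have s1 : W' ⊆ W := hW' ▸ fun y h => h.1.1
  have n1 : ∀ y ∈ W', ‖P y - p‖ < 1 := hW' ▸ fun y h => mem_ball_iff_norm.1 h.1.2
  have u1 : ∀ y ∈ W', IsUnit (p * P y + (1 - p)) := hW' ▸ fun y h => h.2.2
  have y1 : y₀ ∈ W' := hW' ▸ ⟨⟨hy, by simp [hp]⟩, hy, by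
    change IsUnit (p * P y₀ + (1 - p))
    rw [m0]
    exact isUnit_one⟩
  obtain ⟨σ, hσ⟩ : ∃ σ : E → E →L[ℂ] E,
      σ = fun y => Ring.inverse (p * P y + (1 - p)) * (1 - p) := ⟨_, rfl⟩
  have d1 : DifferentiableOn ℂ σ W' := hσ ▸ ((hM.mono s1).inverse u1).mul_const _
  have e1 : ∀ y ∈ W', (p * P y + (1 - p)) * σ y = 1 - p := fun y h => by
    rw [hσ, ← mul_assoc, Ring.mul_inverse_cancel _ (u1 y h), one_mul]
  have e2 : ∀ y ∈ W', (1 - p) * σ y = 1 - p := fun y h => by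
    have := congrArg (fun A => (1 - p) * A) (e1 y h)
    simp only [← mul_assoc, mul_add, qp, qq, zero_mul, zero_add] at this
    exact this
  have e3 : ∀ y ∈ W', ∀ v, P y (σ y v) = 0 := fun y h v => by
    have := congrArg (fun A => p * A) (e1 y h)
    simp only [← mul_assoc, mul_add, pp, pq, add_zero] at this
    refine graph_zero (n1 y h) ?_
    have a1 : p (P y (σ y v)) = 0 := congrArg (fun A => A v) this
    have a2 : P y (P y (σ y v)) = P y (σ y v) := congrArg (fun A => A (σ y v)) (hid y (s1 h)).eq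
    rw [sub_apply, a1, a2, sub_zero]
  have e4 : ∀ y ∈ W', ∀ v, P y v = 0 → σ y v = v := fun y h v hv => by
    have a1 : (1 - p) v = (p * P y + (1 - p)) v := by
      rw [add_apply, mul_apply_eq_comp, hv, map_zero, zero_add]
    have a2 := congrArg (fun A => A v) (Ring.inverse_mul_cancel _ (u1 y h))
    rw [hσ]
    simp only [mul_apply_eq_comp] at a2 ⊢
    rw [a1]
    exact a2
  have e5 : ∀ y v, σ y ((1 - p) v) = σ y v := fun y v => by
    have : σ y * (1 - p) = σ y := by rw [hσ, mul_assoc, qq]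
    exact congrArg (fun A => A v) this
  refine ⟨W', o1, y1, s1, σ, d1, by rw [hσ]; simp only [m0, Ring.inverse_one, one_mul], e4,
    fun y _ => e5 y, fun y h b c => ?_⟩
  have da : DifferentiableAt ℂ σ y := d1.differentiableAt (o1.mem_nhds h)
  have dv : ∀ c, DifferentiableOn ℂ (fun z => σ z c) W' := fun c =>
    d1.clm_apply (differentiableOn_const c)
  have k1 := hint W' s1 o1 _ _ (dv b) (dv c) (fun z hz => e3 z hz b) (fun z hz => e3 z hz c) y h
  rw [VectorField.lieBracket, graph_fderiv da, graph_fderiv da] at k1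
  have k2 : ∀ v, (1 - p) * fderiv ℂ σ y v = 0 := fun v => by
    have a1 : (fun z => (1 - p) * σ z) =ᶠ[nhds y] fun _ => 1 - p :=
      Filter.eventually_of_mem (o1.mem_nhds h) e2
    have a2 := a1.fderiv_eq (𝕜 := ℂ)
    rw [fderiv_const_mul da] at a2
    simpa using congrArg (fun A => A v) a2
  have k3 : ∀ v c, (1 - p) (fderiv ℂ σ y v c) = 0 := fun v c => congrArg (fun A => A c) (k2 v)
  have k4 := e4 y h _ k1
  rw [← e5, map_sub, k3, k3, sub_zero, map_zero] at k4
  exact sub_eq_zero.1 k4.symm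

end Vale.Agent.P278
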