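import Vale.Agent.P278.Split
import Vale.Agent.P278.Ident

/-!
P278 task HCl: germs of holonomy projections extend to boxes.

Plan. `HC.congr`, `HC.md`: case distinction (`br_pt`, `PT.md1`, `Tang.congr`). `HC.of_chart`: `diag_br`
applied to `S = br p (chartAt V x)` (product type near `(x,x)` by `br_pt`, identity on the diagonal).
`HC.extend`: induction on `h`. Base: `F = br p ψ (·, x)`; at `x'` use `HC.step` from
`HC.of_chart` at `x'` with `R z = ψ.symm (p (ψ z.1) + (1-p) (ψ (ψ.symm z.2)))` (`pt_mk` with `id` and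
`ψ.symm`), `w₀ = ψ x'`, radius `r`, `w₁ = ψ x`; the argument is within `C r + 2 C r` of `ψ x`.
Step: with `F` from the induction hypothesis apply `hE` to `F ∘ ψ.symm` on `ball (ψ x) r` (`HC.md`,
`Tang.comp`) and `R (x, ·)` on `ball w₀ ρ`, getting `R'`; put `R'' z = R' (ψ z.1, z.2)` (`PT.comp`).
`pt_uniq` gives `R'' =ᶠ R` near `(x, w₀)`, `ident` (model `𝓘(ℂ, V).prod 𝓘(ℂ, V)`, set `{x} ×ˢ ball w₀ ρ`)
near `(x, w₁)`; the new map is `R'' (·, w₁)`, in the class at `x'` by `HC.step`.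
Auxiliary names: start with `hcl_`.
-/

namespace Vale.Agent.P278

open scoped Manifold ContDiff Topology
open Set Metric

variable {V : Type*} [NormedAddCommGroup V] [NormedSpace ℂ V]
  {M : Type*} [TopologicalSpace M] [ChartedSpace V M]

/-- Germs obtained from the local projection to a plaque by transport along rectangles. -/
inductive HC (p : V →L[ℂ] V) (x : M) : (M → M) → Prop
  | base (f : M → M) (h : f =ᶠ[𝓝 x] fun x' => br p (chartAt V x) (x', x)) : HC p x f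
  | step (f f' : M → M) (R : M × V → M) (w₀ w₁ : V) (ρ : ℝ) (hf : HC p x f)
      (hR : ∀ᶠ x' in 𝓝 x, ∀ w ∈ ball w₀ ρ, PT V V p R (x', w))
      (h₀ : f =ᶠ[𝓝 x] fun x' => R (x', w₀)) (hw : w₁ ∈ ball w₀ ρ)
      (h₁ : f' =ᶠ[𝓝 x] fun x' => R (x', w₁)) : HC p x f'

variable {p : V →L[ℂ] V} {x : M} {f : M → M}

theorem HC.congr {g : M → M} (h : HC p x f) (hg : g =ᶠ[𝓝 x] f) : HC p x g := by
  cases h with
  | base _ h => exact HC.base g (hg.trans h)
  | step f₀ _ R w₀ w₁ ρ hf hR h₀ hw h₁ => exact HC.step f₀ g R w₀ w₁ ρ hf hR h₀ hw (hg.trans h₁)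

variable [IsManifold 𝓘(ℂ, V) ω M]

theorem hcl_ev (hP : PAtl p M) (hp : IsIdempotentElem p) {ψ : OpenPartialHomeomorph M V}
    (hψ : ψ ∈ atlas V M) (hx : x ∈ ψ.source) : ∀ᶠ z in 𝓝 (x, x), PT V V p (br p ψ) z := by
  have c : ContinuousAt (fun z : M × M => p (ψ z.1) + (1 - p) (ψ z.2)) (x, x) :=
    (p.continuous.continuousAt.comp (ContinuousAt.comp (f := Prod.fst) (x := (x, x))
      (ψ.continuousAt hx) continuousAt_fst)).add
      ((1 - p).continuous.continuousAt.comp (ContinuousAt.comp (f := Prod.snd) (x := (x, x))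
        (ψ.continuousAt hx) continuousAt_snd))
  have m : p (ψ x) + (1 - p) (ψ x) ∈ ψ.target := split_add p (ψ x) ▸ ψ.map_source hx
  filter_upwards [(continuous_fst.tendsto (x, x)).eventually (ψ.open_source.mem_nhds hx),
    (continuous_snd.tendsto (x, x)).eventually (ψ.open_source.mem_nhds hx),
    c.eventually (ψ.open_target.mem_nhds m)] with z h1 h2 h3
  exact br_pt hP hp hψ h1 h2 h3

theorem hcl_chart (hP : PAtl p M) (hp : IsIdempotentElem p) {ψ : OpenPartialHomeomorph M V}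
    (hψ : ψ ∈ atlas V M) (hx : x ∈ ψ.source) :
    (fun x' => br p ψ (x', x)) =ᶠ[𝓝 x] fun x' => br p (chartAt V x) (x', x) := by
  have h := diag_br hP hψ hx (hcl_ev hP hp (chart_mem_atlas V x) (mem_chart_source V x)) (by
    filter_upwards [chart_source_mem_nhds V x] with y hy
    unfold br
    rw [← split_add, (chartAt V x).left_inv hy])
  exact ((continuous_id.prodMk continuous_const).tendsto x).eventually h.symm

omit [IsManifold 𝓘(ℂ, V) ω M] in
theorem hcl_open {ψ : OpenPartialHomeomorph M V} {c : V} {r : ℝ} (hx : x ∈ ψ.source)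
    (hb : ψ x ∈ ball c r) : ∀ᶠ y in 𝓝 x, y ∈ ψ.source ∧ ψ y ∈ ball c r :=
  Filter.Eventually.and (ψ.open_source.mem_nhds hx)
    ((ψ.continuousAt hx).eventually (isOpen_ball.mem_nhds hb))

omit [IsManifold 𝓘(ℂ, V) ω M] [ChartedSpace V M] in
theorem hcl_prod {P : M × V → Prop} {w₀ w : V} {ρ : ℝ}
    (h : ∀ᶠ y in 𝓝 x, ∀ w ∈ ball w₀ ρ, P (y, w)) (hw : w ∈ ball w₀ ρ) : ∀ᶠ z in 𝓝 (x, w), P z := by
  filter_upwards [(continuous_fst.tendsto (x, w)).eventually h,
    (continuous_snd.tendsto (x, w)).eventually (isOpen_ball.mem_nhds hw)] with z h1 h2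
  exact h1 z.2 h2

theorem hcl_ball {a b c : V} {r C : ℝ} (hC : 1 ≤ C) (hC₁ : ‖p‖ ≤ C) (hC₂ : ‖1 - p‖ ≤ C)
    (ha : a ∈ ball c r) (hb : b ∈ ball c (2 * r)) : p a + (1 - p) b ∈ ball c (3 * C * r) := by
  rw [mem_ball_iff_norm] at ha hb ⊢
  have e : p a + (1 - p) b - c = p (a - c) + (1 - p) (b - c) := by
    rw [map_sub, map_sub]
    conv_lhs => rw [split_add p c]
    abel
  have h1 := (p.le_opNorm (a - c)).trans (mul_le_mul_of_nonneg_right hC₁ (norm_nonneg _))
  have h2 := ((1 - p).le_opNorm (b - c)).trans (mul_le_mul_of_nonneg_right hC₂ (norm_nonneg _))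
  have h3 := mul_lt_mul_of_pos_left ha (one_pos.trans_le hC)
  have h4 := mul_lt_mul_of_pos_left hb (one_pos.trans_le hC)
  rw [e]
  refine (norm_add_le _ _).trans_lt ?_
  linarith

theorem HC.md (hP : PAtl p M) (hp : IsIdempotentElem p) (h : HC p x f) :
    MDifferentiableAt 𝓘(ℂ, V) 𝓘(ℂ, V) f x ∧ Tang V p f x := by
  cases h with
  | base _ h =>
    have k := (hcl_ev hP hp (chart_mem_atlas V x) (mem_chart_source V x)).self_of_nhds
    exact ⟨k.md1.congr_of_eventuallyEq h, k.2.1.congr h⟩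
  | step f₀ _ R w₀ w₁ ρ hf hR h₀ hw h₁ =>
    have k := hR.self_of_nhds w₁ hw
    exact ⟨k.md1.congr_of_eventuallyEq h₁, k.2.1.congr h₁⟩

theorem HC.of_chart (hP : PAtl p M) (hp : IsIdempotentElem p) {ψ : OpenPartialHomeomorph M V}
    (hψ : ψ ∈ atlas V M) (hx : x ∈ ψ.source) : HC p x fun x' => br p ψ (x', x) := by
  exact HC.base _ (hcl_chart hP hp hψ hx)

theorem HC.extend [FiniteDimensional ℂ V] [T2Space M] (hP : PAtl p M) (hp : IsIdempotentElem p)
    (hE : EXT p M) {ψ : OpenPartialHomeomorph M V} (hψ : ψ ∈ atlas V M) (hx : x ∈ ψ.source)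
    {r C : ℝ} (hr : 0 < r) (hC : 1 ≤ C) (hC₁ : ‖p‖ ≤ C) (hC₂ : ‖1 - p‖ ≤ C)
    (hb : ball (ψ x) (3 * C * r) ⊆ ψ.target) (h : HC p x f) :
    ∃ F : M → M, F =ᶠ[𝓝 x] f ∧ ∀ x' ∈ ψ.source, ψ x' ∈ ball (ψ x) r → HC p x' F := by
  have : CompleteSpace V := FiniteDimensional.complete ℂ V
  have r2 : ball (ψ x) (2 * r) ⊆ ψ.target := (ball_subset_ball (by nlinarith)).trans hb
  have r1 : ball (ψ x) r ⊆ ψ.target := (ball_subset_ball (by linarith)).trans r2
  induction h with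
  | base f h =>
    refine ⟨fun y => br p ψ (y, x), (hcl_chart hP hp hψ hx).trans h.symm, fun x' hx' hb' => ?_⟩
    refine HC.step _ _ (fun z => ψ.symm (p (ψ z.1) + (1 - p) (ψ (ψ.symm z.2)))) (ψ x') (ψ x) r
      (HC.of_chart hP hp hψ hx') ?_ (Filter.Eventually.of_forall fun y => ?_) (mem_ball_comm.1 hb')
      (Filter.Eventually.of_forall fun y => ?_)
    · filter_upwards [hcl_open hx' hb'] with y hy w hw
      have w2 : w ∈ ball (ψ x) (2 * r) := by
        have := dist_triangle w (ψ x') (ψ x)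
        rw [mem_ball] at hw hb' ⊢
        linarith
      refine pt_mk (f := id) (g := ψ.symm) (q := (y, w)) hP hp hψ mdifferentiableAt_id
        (mdifferentiableAt_atlas_symm hψ (r2 w2)) hy.1 (ψ.map_target (r2 w2)) ?_
      rw [ψ.right_inv (r2 w2)]
      exact hb (hcl_ball hC hC₁ hC₂ hy.2 w2)
    · simp only [br, ψ.left_inv hx']
    · simp only [br, ψ.left_inv hx]
  | step f f' R w₀ w₁ ρ hf hR h₀ hw h₁ ih =>
    obtain ⟨F, hF, hF'⟩ := ih
    have hρ : 0 < ρ := pos_of_mem_ball hw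
    obtain ⟨R', a1, a2, a3⟩ := hE (ψ x) w₀ r ρ (F ∘ ψ.symm) (fun w => R (x, w)) hr hρ
      (fun z hz => by
        have k := (hF' (ψ.symm z) (ψ.map_target (r1 hz)) (by rwa [ψ.right_inv (r1 hz)])).md hP hp
        have m := mdifferentiableAt_atlas_symm (I := 𝓘(ℂ, V)) hψ (r1 hz)
        exact ⟨k.1.comp z m, k.2.comp k.1 m⟩)
      (fun w hw => ⟨(hR.self_of_nhds w hw).md2, (hR.self_of_nhds w hw).2.2⟩)
      (by rw [Function.comp_apply, ψ.left_inv hx, hF.eq_of_nhds, h₀.eq_of_nhds])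
    have b1 : ∀ x' ∈ ψ.source, ψ x' ∈ ball (ψ x) r → ∀ᶠ y in 𝓝 x', ∀ w ∈ ball w₀ ρ,
        PT V V p (fun z : M × V => R' (ψ z.1, z.2)) (y, w) := fun x' hx' hb' => by
      filter_upwards [hcl_open hx' hb'] with y hy w hw
      exact PT.comp (α := ψ) (β := id) (q := (y, w)) (a1 (ψ y, w) ⟨hy.2, hw⟩)
        (mdifferentiableAt_atlas hψ hy.1) mdifferentiableAt_id
    have b2 : ∀ x' ∈ ψ.source, ψ x' ∈ ball (ψ x) r →
        F =ᶠ[𝓝 x'] fun y => R' (ψ y, w₀) := fun x' hx' hb' => by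
      filter_upwards [hcl_open hx' hb'] with y hy
      rw [a2 _ hy.2, Function.comp_apply, ψ.left_inv hy.1]
    have b0 := b1 x hx (mem_ball_self hr)
    have e0 : (fun z : M × V => R' (ψ z.1, z.2)) =ᶠ[𝓝 (x, w₀)] R :=
      pt_uniq hP (hcl_prod b0 (mem_ball_self hρ)) (hcl_prod hR (mem_ball_self hρ))
        ((b2 x hx (mem_ball_self hr)).symm.trans (hF.trans h₀))
        (Filter.Eventually.mono (ball_mem_nhds w₀ hρ) a3)
    have e1 := ident (V := V) (𝓘(ℂ, V).prod 𝓘(ℂ, V)) (S := {x} ×ˢ ball w₀ ρ)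
      (isPreconnected_singleton.prod (convex_ball w₀ ρ).isPreconnected)
      (f := fun z : M × V => R' (ψ z.1, z.2)) (g := R)
      (by
        rintro ⟨y, w⟩ ⟨hy, hw⟩
        rw [show y = x from hy]
        exact (hcl_prod b0 hw).mono fun z hz => hz.1)
      (by
        rintro ⟨y, w⟩ ⟨hy, hw⟩
        rw [show y = x from hy]
        exact (hcl_prod hR hw).mono fun z hz => hz.1)
      (x := (x, w₀)) ⟨rfl, mem_ball_self hρ⟩ e0 (x, w₁) ⟨rfl, hw⟩
    refine ⟨fun y => R' (ψ y, w₁), Filter.EventuallyEq.trans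
      (((continuous_id.prodMk continuous_const).tendsto x).eventually e1) h₁.symm,
      fun x' hx' hb' => ?_⟩
    exact HC.step F _ (fun z : M × V => R' (ψ z.1, z.2)) w₀ w₁ ρ (hF' x' hx' hb') (b1 x' hx' hb')
      (b2 x' hx' hb') hw Filter.EventuallyEq.rfl

end Vale.Agent.P278
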