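import Vale.Agent.P278.Split
import Vale.Agent.P278.Ident

/-!
P278 task Ids: algebraic identities of global brackets, by the identity principle.

Plan. `ψ = chartAt V x₀`. Local form: `∀ᶠ q in 𝓝 (x₀, x₀), S q ∈ ψ.source ∧
ψ (S q) = p (ψ q.1) + (1-p) (ψ q.2)`, `S (x₀, x₀) = x₀`, `S` continuous. `diag`: `ident_univ` on `M` for
`x ↦ S (x, x)` and `id`. `loc`: `diag_br`. `left`, `right`, `cross`: `ident_univ` on `M × M × M` with model
`𝓘(ℂ, V).prod (𝓘(ℂ, V).prod 𝓘(ℂ, V))`; differentiability by `MDifferentiable.comp`, `.prodMk`,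
`mdifferentiable_fst/snd`; near `(x₀, x₀, x₀)` compare the images under `ψ` (injective on the source)
using `p * p = p`, `p * (1 - p) = 0`, `p * p' = 0`.
Auxiliary names: start with `ids_`.
-/

namespace Vale.Agent.P278

open scoped Manifold ContDiff Topology

variable {V : Type*} [NormedAddCommGroup V] [NormedSpace ℂ V] [FiniteDimensional ℂ V]
  {M : Type*} [TopologicalSpace M] [T2Space M] [PreconnectedSpace M] [ChartedSpace V M]
  [IsManifold 𝓘(ℂ, V) ω M] {p p' : V →L[ℂ] V} {x₀ : M} {S S' : M × M → M}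

omit [FiniteDimensional ℂ V] [T2Space M] [PreconnectedSpace M] [IsManifold 𝓘(ℂ, V) ω M] in
theorem Brk.md (h : Brk p x₀ S) : MDifferentiable (𝓘(ℂ, V).prod 𝓘(ℂ, V)) 𝓘(ℂ, V) S :=
  fun q => (h.1 q).1

omit [FiniteDimensional ℂ V] [T2Space M] [PreconnectedSpace M] [IsManifold 𝓘(ℂ, V) ω M] in
theorem Brk.near (h : Brk p x₀ S) : ∀ᶠ q in 𝓝 (x₀, x₀), S q ∈ (chartAt V x₀).source ∧
    chartAt V x₀ (S q) = p (chartAt V x₀ q.1) + (1 - p) (chartAt V x₀ q.2) := by
  have hc := (chartAt V x₀).continuousAt (mem_chart_source V x₀)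
  have h1 : ContinuousAt (fun q : M × M => p (chartAt V x₀ q.1) + (1 - p) (chartAt V x₀ q.2))
      (x₀, x₀) :=
    (p.continuous.continuousAt.comp (hc.comp_of_eq continuousAt_fst rfl)).add
      ((1 - p).continuous.continuousAt.comp (hc.comp_of_eq continuousAt_snd rfl))
  have h2 : p (chartAt V x₀ x₀) + (1 - p) (chartAt V x₀ x₀) ∈ (chartAt V x₀).target := by
    simp
  filter_upwards [h.2, h1 ((chartAt V x₀).open_target.mem_nhds h2)] with q a b
  rw [a]
  exact ⟨(chartAt V x₀).map_target b, (chartAt V x₀).right_inv b⟩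

theorem Brk.diag (h : Brk p x₀ S) (x : M) : S (x, x) = x := by
  have := FiniteDimensional.complete ℂ V
  refine congrFun (ident_univ 𝓘(ℂ, V) (f := fun x => S (x, x)) (g := id)
    (h.md.comp (mdifferentiable_id.prodMk mdifferentiable_id)) mdifferentiable_id (x := x₀) ?_) x
  filter_upwards [(continuous_id.prodMk continuous_id).continuousAt.eventually h.near,
    chart_source_mem_nhds V x₀] with y a b
  exact (chartAt V x₀).injOn a.1 b (a.2.trans (by simp))

theorem Brk.loc (h : Brk p x₀ S) (hP : PAtl p M) {ψ : OpenPartialHomeomorph M V}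
    (hψ : ψ ∈ atlas V M) {x : M} (hx : x ∈ ψ.source) : S =ᶠ[𝓝 (x, x)] br p ψ := by
  exact diag_br hP hψ hx (.of_forall h.1) (.of_forall h.diag)

theorem ids_three (h : Brk p x₀ S) {a b a' b' : M × M × M → M}
    (ha : MDifferentiable (𝓘(ℂ, V).prod (𝓘(ℂ, V).prod 𝓘(ℂ, V))) 𝓘(ℂ, V) a)
    (hb : MDifferentiable (𝓘(ℂ, V).prod (𝓘(ℂ, V).prod 𝓘(ℂ, V))) 𝓘(ℂ, V) b)
    (ha' : MDifferentiable (𝓘(ℂ, V).prod (𝓘(ℂ, V).prod 𝓘(ℂ, V))) 𝓘(ℂ, V) a')
    (hb' : MDifferentiable (𝓘(ℂ, V).prod (𝓘(ℂ, V).prod 𝓘(ℂ, V))) 𝓘(ℂ, V) b')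
    (e₁ : a (x₀, x₀, x₀) = x₀) (e₂ : b (x₀, x₀, x₀) = x₀) (e₃ : a' (x₀, x₀, x₀) = x₀)
    (e₄ : b' (x₀, x₀, x₀) = x₀)
    (he : ∀ᶠ q in 𝓝 (x₀, x₀, x₀), p (chartAt V x₀ (a q)) + (1 - p) (chartAt V x₀ (b q)) =
      p (chartAt V x₀ (a' q)) + (1 - p) (chartAt V x₀ (b' q))) (q : M × M × M) :
    S (a q, b q) = S (a' q, b' q) := by
  have := FiniteDimensional.complete ℂ V
  refine congrFun (ident_univ (𝓘(ℂ, V).prod (𝓘(ℂ, V).prod 𝓘(ℂ, V))) (f := fun q => S (a q, b q))
    (g := fun q => S (a' q, b' q)) (h.md.comp (ha.prodMk hb)) (h.md.comp (ha'.prodMk hb'))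
    (x := (x₀, x₀, x₀)) ?_) q
  have t1 := (ha.continuous.prodMk hb.continuous).tendsto (x₀, x₀, x₀)
  have t2 := (ha'.continuous.prodMk hb'.continuous).tendsto (x₀, x₀, x₀)
  rw [e₁, e₂] at t1
  rw [e₃, e₄] at t2
  filter_upwards [t1.eventually h.near, t2.eventually h.near, he] with z a1 a2 a3
  exact (chartAt V x₀).injOn a1.1 a2.1 (a1.2.trans (a3.trans a2.2.symm))

theorem Brk.left (h : Brk p x₀ S) (hp : IsIdempotentElem p) (x y z : M) :
    S (S (x, y), z) = S (x, z) := by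
  refine ids_three h (a := fun q => S (q.1, q.2.1)) (b := fun q => q.2.2) (a' := fun q => q.1)
    (b' := fun q => q.2.2)
    (h.md.comp (mdifferentiable_fst.prodMk (mdifferentiable_fst.comp mdifferentiable_snd)))
    (mdifferentiable_snd.comp mdifferentiable_snd) mdifferentiable_fst
    (mdifferentiable_snd.comp mdifferentiable_snd) (h.diag x₀) rfl rfl rfl ?_ (x, y, z)
  have e : ∀ v, p (p v) = p v := fun v => congrArg (fun T : V →L[ℂ] V => T v) hp.eq
  filter_upwards [(continuous_fst.prodMk continuous_snd.fst).continuousAt.eventually h.near]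
    with q a
  rw [a.2]
  simp [e]

theorem Brk.right (h : Brk p x₀ S) (hp : IsIdempotentElem p) (x y z : M) :
    S (x, S (y, z)) = S (x, z) := by
  refine ids_three h (a := fun q => q.1) (b := fun q => S q.2) (a' := fun q => q.1)
    (b' := fun q => q.2.2) mdifferentiable_fst (h.md.comp mdifferentiable_snd) mdifferentiable_fst
    (mdifferentiable_snd.comp mdifferentiable_snd) rfl (h.diag x₀) rfl rfl ?_ (x, y, z)
  have e : ∀ v, p (p v) = p v := fun v => congrArg (fun T : V →L[ℂ] V => T v) hp.eq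
  filter_upwards [(continuous_snd (X := M)).continuousAt.eventually h.near] with q a
  rw [a.2]
  simp [e]

theorem Brk.cross (h : Brk p x₀ S) (h' : Brk p' x₀ S') (hpp : p * p' = 0) (x y z : M) :
    S (S' (x, y), z) = S (y, z) := by
  refine ids_three h (a := fun q => S' (q.1, q.2.1)) (b := fun q => q.2.2) (a' := fun q => q.2.1)
    (b' := fun q => q.2.2)
    (h'.md.comp (mdifferentiable_fst.prodMk (mdifferentiable_fst.comp mdifferentiable_snd)))
    (mdifferentiable_snd.comp mdifferentiable_snd) (mdifferentiable_fst.comp mdifferentiable_snd)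
    (mdifferentiable_snd.comp mdifferentiable_snd) (h'.diag x₀) rfl rfl rfl ?_ (x, y, z)
  have e : ∀ v, p (p' v) = 0 := fun v => congrArg (fun T : V →L[ℂ] V => T v) hpp
  filter_upwards [(continuous_fst.prodMk continuous_snd.fst).continuousAt.eventually h'.near]
    with q a
  rw [a.2]
  simp [e]

end Vale.Agent.P278
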