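import Vale.Agent.P278.Ids
import Vale.Agent.P278.TangC

/-!
P278 task Ids2: plaques, kernels and the inverse formula for global brackets.

Plan. `r x = S (x, x₀)`. `plaque`: `(→)` `tang_const` for `r` at `y` (`PT.md1`, `(h.1 _).2.1`), `r y = y`;
`(←)` near `y`, `S (x, y) = br p ψ (x, y) = ψ.symm (ψ x) = x` (`Brk.loc`), and
`S (x, y) = S (x, S (y, x₀)) = S (x, x₀)` (`Brk.right`). `kill`: `r = r ∘ S (·, x)` (`Brk.left`),
`mfderiv_comp`, `S (·, x) =ᶠ br p (chartAt V x) (·, x)` (`Brk.loc`), `br_slice`.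
`brk_fold`: for a list `l`, `G l x = l.foldr (fun i m => S i (x, m)) x₀` is differentiable in `x`,
`G l x₀ = x₀`, and for `l.Nodup`, near `x₀`: `G l x ∈ ψ.source`,
`ψ (G l x) = ψ x₀ + (l.map fun i => p i (ψ x - ψ x₀)).sum` (induction, `Brk.near`, `hpp`). For
`List.finRange k` the sum is `ψ x - ψ x₀` (`Fin.sum_univ_def`/`List.sum_ofFn`, `hsum`); `ident_univ`.
`brk_unfold`: induction on `l`; `Brk.left` if the head is `i`, otherwise `Brk.cross`.
Auxiliary names: start with `ids2_`.
-/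

namespace Vale.Agent.P278

open scoped Manifold ContDiff Topology

variable {V : Type*} [NormedAddCommGroup V] [NormedSpace ℂ V] [FiniteDimensional ℂ V]
  {M : Type*} [TopologicalSpace M] [T2Space M] [PreconnectedSpace M] [ChartedSpace V M]
  [IsManifold 𝓘(ℂ, V) ω M] {x₀ : M}

theorem Brk.plaque {p : V →L[ℂ] V} {S : M × M → M} (h : Brk p x₀ S) (hP : PAtl p M)
    (hp : IsIdempotentElem p) {y : M} (hy : S (y, x₀) = y) :
    ∀ᶠ x in 𝓝 y, (S (x, x₀) = x ↔ (1 - p) (chartAt V y x) = (1 - p) (chartAt V y y)) := by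
  have h1 : ∀ᶠ x in 𝓝 y, (fun x => S (x, x₀)) x ∈ (chartAt V y).source ∧
      (1 - p) (chartAt V y ((fun x => S (x, x₀)) x)) =
        (1 - p) (chartAt V y ((fun x => S (x, x₀)) y)) := by
    refine tang_const (A := V) hP (chart_mem_atlas V y) ?_ ?_
    · exact Filter.Eventually.of_forall fun z => ⟨(h.1 (z, x₀)).md1, (h.1 (z, x₀)).2.1⟩
    · show S (y, x₀) ∈ _
      rw [hy]
      exact mem_chart_source V y
  have h2 : ∀ᶠ x in 𝓝 y, S (x, y) = br p (chartAt V y) (x, y) := by
    have h3 := h.loc hP (chart_mem_atlas V y) (mem_chart_source V y)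
    have h4 : Filter.Tendsto (fun x : M => (x, y)) (𝓝 y) (𝓝 (y, y)) :=
      (Continuous.prodMk_left y).continuousAt
    exact h4.eventually h3
  filter_upwards [h1, h2, chart_source_mem_nhds V y] with x hx1 hx2 hx3
  constructor
  · intro hx
    have h5 := hx1.2
    simp only [hx, hy] at h5
    exact h5
  · intro hx
    have h5 : S (x, x₀) = S (x, y) := by
      conv_rhs => rw [← hy]
      exact (h.right hp x y x₀).symm
    rw [h5, hx2]
    unfold br
    rw [← hx, ← split_add p]
    exact (chartAt V y).left_inv hx3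

theorem Brk.kill {p : V →L[ℂ] V} {S : M × M → M} (h : Brk p x₀ S) (hP : PAtl p M)
    (hp : IsIdempotentElem p) (x : M) {v : V} (hv : p v = 0) :
    mfderiv 𝓘(ℂ, V) 𝓘(ℂ, V) (fun x => S (x, x₀)) x v = 0 := by
  have e1 : (fun x' => S (x', x₀)) = (fun x' => S (x', x₀)) ∘ fun x' => S (x', x) := by
    funext x'
    exact (h.left hp x' x x₀).symm
  have h2 : (fun x' => S (x', x)) =ᶠ[𝓝 x] fun x' => br p (chartAt V x) (x', x) := by
    have h3 := h.loc hP (chart_mem_atlas V x) (mem_chart_source V x)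
    have h4 : Filter.Tendsto (fun x' : M => (x', x)) (𝓝 x) (𝓝 (x, x)) :=
      (Continuous.prodMk_left x).continuousAt
    exact h4.eventually h3
  have h3 : mfderiv 𝓘(ℂ, V) 𝓘(ℂ, V) (fun x' => S (x', x)) x v = 0 := by
    rw [h2.mfderiv_eq]
    exact (br_slice x v).trans hv
  have h4 := mfderiv_comp_apply (I := 𝓘(ℂ, V)) (I' := 𝓘(ℂ, V)) (I'' := 𝓘(ℂ, V)) x
    (g := fun x' => S (x', x₀)) (f := fun x' => S (x', x))
    (h.1 (S (x, x), x₀)).md1 (h.1 (x, x)).md1 v
  rw [h3, map_zero, ← e1] at h4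
  exact h4

theorem ids2_md {k : ℕ} {p : Fin k → V →L[ℂ] V} {S : Fin k → M × M → M}
    (h : ∀ i, Brk (p i) x₀ (S i)) (l : List (Fin k)) :
    MDifferentiable 𝓘(ℂ, V) 𝓘(ℂ, V) fun x => l.foldr (fun i m => S i (x, m)) x₀ := by
  induction l with
  | nil => exact mdifferentiable_const
  | cons i l ih =>
    simp only [List.foldr_cons]
    exact (h i).md.comp (mdifferentiable_id.prodMk ih)

theorem ids2_base {k : ℕ} {p : Fin k → V →L[ℂ] V} {S : Fin k → M × M → M}
    (h : ∀ i, Brk (p i) x₀ (S i)) (l : List (Fin k)) :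
    l.foldr (fun i m => S i (x₀, m)) x₀ = x₀ := by
  induction l with
  | nil => rfl
  | cons i l ih =>
    simp only [List.foldr_cons]
    rw [ih]
    exact (h i).diag x₀

theorem ids2_zero {k : ℕ} {p : Fin k → V →L[ℂ] V} (hpp : ∀ i j, i ≠ j → p i * p j = 0)
    (i : Fin k) (l : List (Fin k)) (hi : i ∉ l) (w : V) :
    p i (l.map fun j => p j w).sum = 0 := by
  induction l with
  | nil => simp
  | cons j l ih =>
    rw [List.mem_cons, not_or] at hi
    rw [List.map_cons, List.sum_cons, map_add, ih hi.2, add_zero]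
    have := congrArg (fun T : V →L[ℂ] V => T w) (hpp i j hi.1)
    simpa using this

theorem ids2_near {k : ℕ} {p : Fin k → V →L[ℂ] V} {S : Fin k → M × M → M}
    (h : ∀ i, Brk (p i) x₀ (S i)) (hpp : ∀ i j, i ≠ j → p i * p j = 0) (l : List (Fin k))
    (hl : l.Nodup) : ∀ᶠ x in 𝓝 x₀, l.foldr (fun i m => S i (x, m)) x₀ ∈ (chartAt V x₀).source ∧
      chartAt V x₀ (l.foldr (fun i m => S i (x, m)) x₀) = chartAt V x₀ x₀ +
        (l.map fun i => p i (chartAt V x₀ x - chartAt V x₀ x₀)).sum := by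
  induction l with
  | nil => exact Filter.Eventually.of_forall fun x => ⟨mem_chart_source V x₀, by simp⟩
  | cons i l ih =>
    rw [List.nodup_cons] at hl
    have h1 : Filter.Tendsto (fun x => (x, l.foldr (fun i m => S i (x, m)) x₀)) (𝓝 x₀)
        (𝓝 (x₀, x₀)) := by
      have h2 := (continuous_id.prodMk (ids2_md h l).continuous).continuousAt (x := x₀)
      unfold ContinuousAt at h2
      simp only [id, ids2_base h l] at h2
      exact h2
    filter_upwards [ih hl.2, h1.eventually (h i).near] with x hx1 hx2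
    simp only [List.foldr_cons, List.map_cons, List.sum_cons]
    refine ⟨hx2.1, ?_⟩
    rw [hx2.2, hx1.2]
    have h3 := ids2_zero hpp i l hl.1 (chartAt V x₀ x - chartAt V x₀ x₀)
    simp only [ContinuousLinearMap.sub_apply, ContinuousLinearMap.one_apply, map_add, h3]
    rw [map_sub (p i)]
    abel

theorem brk_fold {k : ℕ} {p : Fin k → V →L[ℂ] V} {S : Fin k → M × M → M}
    (h : ∀ i, Brk (p i) x₀ (S i)) (hpp : ∀ i j, i ≠ j → p i * p j = 0) (hsum : ∑ i, p i = 1)
    (x : M) : (List.finRange k).foldr (fun i m => S i (x, m)) x₀ = x := by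
  have hc : CompleteSpace V := FiniteDimensional.complete ℂ V
  have h1 : (fun x => (List.finRange k).foldr (fun i m => S i (x, m)) x₀) =ᶠ[𝓝 x₀] id := by
    filter_upwards [ids2_near h hpp _ (List.nodup_finRange k), chart_source_mem_nhds V x₀]
      with x hx1 hx2
    apply (chartAt V x₀).injOn hx1.1 hx2
    rw [hx1.2, ← Fin.sum_univ_def]
    have h2 := congrArg (fun T : V →L[ℂ] V => T (chartAt V x₀ x - chartAt V x₀ x₀)) hsum
    simp only [ContinuousLinearMap.sum_apply, ContinuousLinearMap.one_apply] at h2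
    rw [h2]
    simp
  have h2 := ident_univ 𝓘(ℂ, V) (ids2_md h (List.finRange k)) mdifferentiable_id h1
  exact congrFun h2 x

theorem brk_unfold {k : ℕ} {p : Fin k → V →L[ℂ] V} {S : Fin k → M × M → M}
    (h : ∀ i, Brk (p i) x₀ (S i)) (hp : ∀ i, IsIdempotentElem (p i))
    (hpp : ∀ i j, i ≠ j → p i * p j = 0) (y : Fin k → M) (i : Fin k) (l : List (Fin k))
    (hi : i ∈ l) : S i (l.foldr (fun j m => S j (y j, m)) x₀, x₀) = S i (y i, x₀) := by
  induction l with
  | nil => simp at hi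
  | cons j l ih =>
    simp only [List.foldr_cons]
    by_cases hij : i = j
    · subst hij
      exact (h i).left (hp i) _ _ _
    · rw [(h i).cross (h j) (hpp i j hij)]
      exact ih ((List.mem_cons.1 hi).resolve_left hij)

end Vale.Agent.P278
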