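import Mathlib

/-!
P278 task Pull: the pull-back of a closed alternating 2-form under a `C²` map is `C¹` and closed.

Plan. Put `D = fderiv ℝ h`, `D2 = fderiv ℝ D x` (symmetric: `ContDiffAt.isSymmSndFDerivAt`).
`ContDiffAt ℝ 1 D x` from `ContDiffAt.fderiv_right`. The derivative at `x` in direction `a` of
`z ↦ w (h z) (D z b) (D z c)` is
`(fderiv ℝ w (h x) (D x a)) (D x b) (D x c) + w (h x) (D2 a b) (D x c) + w (h x) (D x b) (D2 a c)`
(`HasFDerivAt.clm_apply` twice and the chain rule), and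
`fderiv ℝ (fun y => w y b c) (h x) a = fderiv ℝ w (h x) a b c`. In the cyclic sum the first terms
cancel by `hcl` and the others in pairs by `halt` and the symmetry of `D2`.
Auxiliary names: start with `pull_`.
-/

namespace Vale.Agent.P278

theorem pull_contDiffAt {A B : Type*} [NormedAddCommGroup A] [NormedSpace ℝ A]
    [NormedAddCommGroup B] [NormedSpace ℝ B] {h : A → B} {w : B → B →L[ℝ] B →L[ℝ] ℝ} {x : A}
    (hh : ContDiffAt ℝ 2 h x) (hw : ContDiffAt ℝ 1 w (h x)) (a b : A) :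
    ContDiffAt ℝ 1 (fun z => w (h z) (fderiv ℝ h z a) (fderiv ℝ h z b)) x := by
  have h1 : ContDiffAt ℝ 1 (fderiv ℝ h) x := hh.fderiv_right (by norm_num)
  exact ((hw.comp x (hh.of_le (by norm_num))).clm_apply (h1.clm_apply contDiffAt_const)).clm_apply
    (h1.clm_apply contDiffAt_const)

theorem pull_closed {A B : Type*} [NormedAddCommGroup A] [NormedSpace ℝ A]
    [NormedAddCommGroup B] [NormedSpace ℝ B] {h : A → B} {w : B → B →L[ℝ] B →L[ℝ] ℝ} {x : A}
    (hh : ContDiffAt ℝ 2 h x) (hw : ContDiffAt ℝ 1 w (h x))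
    (halt : ∀ a b, w (h x) a b = -w (h x) b a)
    (hcl : ∀ a b c, fderiv ℝ (fun y => w y b c) (h x) a + fderiv ℝ (fun y => w y c a) (h x) b +
      fderiv ℝ (fun y => w y a b) (h x) c = 0) (a b c : A) :
    fderiv ℝ (fun z => w (h z) (fderiv ℝ h z b) (fderiv ℝ h z c)) x a +
      fderiv ℝ (fun z => w (h z) (fderiv ℝ h z c) (fderiv ℝ h z a)) x b +
      fderiv ℝ (fun z => w (h z) (fderiv ℝ h z a) (fderiv ℝ h z b)) x c = 0 := by
  have h1 : HasFDerivAt (fderiv ℝ h) (fderiv ℝ (fderiv ℝ h) x) x :=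
    ((hh.fderiv_right (m := 1) (by norm_num)).differentiableAt one_ne_zero).hasFDerivAt
  have h2 := (hw.differentiableAt one_ne_zero).hasFDerivAt
  have h3 := (hh.differentiableAt two_ne_zero).hasFDerivAt
  have h4 : ∀ a b c, fderiv ℝ (fun z => w (h z) (fderiv ℝ h z b) (fderiv ℝ h z c)) x a =
      fderiv ℝ w (h x) (fderiv ℝ h x a) (fderiv ℝ h x b) (fderiv ℝ h x c) +
        w (h x) (fderiv ℝ (fderiv ℝ h) x a b) (fderiv ℝ h x c) +
        w (h x) (fderiv ℝ h x b) (fderiv ℝ (fderiv ℝ h) x a c) := fun a b c => by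
    have := ((h2.comp x h3).clm_apply (h1.clm_apply (hasFDerivAt_const b x))).clm_apply
      (h1.clm_apply (hasFDerivAt_const c x))
    refine (congrArg (fun M : A →L[ℝ] ℝ => M a) this.fderiv).trans ?_
    simp
    ring
  have h5 : ∀ a b c, fderiv ℝ (fun y => w y b c) (h x) a = fderiv ℝ w (h x) a b c :=
    fun a b c => by
    have := (h2.clm_apply (hasFDerivAt_const b _)).clm_apply (hasFDerivAt_const c _)
    refine (congrArg (fun M : B →L[ℝ] ℝ => M a) this.fderiv).trans ?_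
    simp
  have h6 := hh.isSymmSndFDerivAt (by simp)
  have h7 := hcl (fderiv ℝ h x a) (fderiv ℝ h x b) (fderiv ℝ h x c)
  rw [h5, h5, h5] at h7
  rw [h4, h4, h4, h6.eq b a, h6.eq c a, h6.eq c b, halt (fderiv ℝ h x b), halt (fderiv ℝ h x c),
    halt (fderiv ℝ h x a)]
  linarith

end Vale.Agent.P278
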