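import Vale.Agent.P278.Base
import Vale.Agent.P278.Osg2
import Vale.Agent.P278.Pull

/-!
P278 task KahV: the Kaehler form in a second holomorphic atlas.

Plan. `w ψ y = (Ω (ψ.symm y)).bilinearComp S S` with `S = (mfderiv 𝓘(ℂ, V) 𝓘(ℂ, E) ψ.symm y).restrictScalars ℝ`
(give `S` the type `V →L[ℝ] E`). `alt` from `hΩ.alt` (expand `Ω (a+b) (a+b)`), `pos` because `S` is complex
linear and injective (chain rule for `ψ ∘ ψ.symm =ᶠ id`), `compat` from the chain rule for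
`ψ.symm =ᶠ φ.symm ∘ (φ ∘ ψ.symm)`. For `smooth` and `closed` at `y₀ ∈ ψ.target`: `φ = chartAt E (ψ.symm y₀)`,
`h = φ ∘ ψ.symm` is complex differentiable near `y₀`, so analytic (`osgood_at`) and `ContDiffAt ℝ 2`;
`wE y = (Ω (φ.symm y)).bilinearComp S' S'` with `S' = mfderiv φ.symm y` has components `inChart Ω φ a b y`,
so it is `ContDiffAt ℝ 1` at `h y₀` (`contDiffOn_clm_apply` twice; `E` is finite-dimensional over `ℝ`:
`FiniteDimensional.complexToReal`); near `y₀`, `w ψ y a b = wE (h y) (fderiv ℝ h y a) (fderiv ℝ h y b)`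
(chain rule for `ψ.symm =ᶠ φ.symm ∘ h`, `mdifferentiableAt_atlas_symm`). Use `pull_contDiffAt`,
`pull_closed`, and `contDiffOn_clm_apply` again.
Auxiliary names: start with `kahv_`.
-/

namespace Vale.Agent.P278

open scoped Manifold ContDiff Topology

section

variable {E : Type*} [NormedAddCommGroup E] [NormedSpace ℂ E] {X : Type*} [TopologicalSpace X]
  [ChartedSpace E X] {V : Type*} [NormedAddCommGroup V] [NormedSpace ℂ V]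
  {W : Type*} [NormedAddCommGroup W] [NormedSpace ℂ W]

/-- differential of the inverse chart -/
noncomputable def kahv_S (E : Type*) [NormedAddCommGroup E] [NormedSpace ℂ E] [ChartedSpace E X]
    (ψ : OpenPartialHomeomorph X V) (y : V) : V →L[ℂ] E :=
  mfderiv 𝓘(ℂ, V) 𝓘(ℂ, E) ψ.symm y

/-- expression of the form in a chart -/
noncomputable def kahv_w (Ω : X → E →L[ℝ] E →L[ℝ] ℝ) (ψ : OpenPartialHomeomorph X V) (y : V) :
    V →L[ℝ] V →L[ℝ] ℝ :=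
  (Ω (ψ.symm y)).bilinearComp ((kahv_S E ψ y).restrictScalars ℝ)
    ((kahv_S E ψ y).restrictScalars ℝ)

theorem kahv_w_apply (Ω : X → E →L[ℝ] E →L[ℝ] ℝ) (ψ : OpenPartialHomeomorph X V) (y a b : V) :
    kahv_w Ω ψ y a b = Ω (ψ.symm y) (kahv_S E ψ y a) (kahv_S E ψ y b) := rfl

theorem kahv_diff {ψ : OpenPartialHomeomorph X V} {φ : OpenPartialHomeomorph X W} {y : V}
    (h1 : MDifferentiableAt 𝓘(ℂ, V) 𝓘(ℂ, E) ψ.symm y)
    (h2 : MDifferentiableAt 𝓘(ℂ, E) 𝓘(ℂ, W) φ (ψ.symm y)) :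
    DifferentiableAt ℂ (φ ∘ ψ.symm) y :=
  mdifferentiableAt_iff_differentiableAt.1 (h2.comp y h1)

theorem kahv_chain {ψ : OpenPartialHomeomorph X V} {φ : OpenPartialHomeomorph X W} {y : V}
    (hy : y ∈ ψ.target) (hs : ψ.symm y ∈ φ.source)
    (h1 : MDifferentiableAt 𝓘(ℂ, V) 𝓘(ℂ, E) ψ.symm y)
    (h2 : MDifferentiableAt 𝓘(ℂ, E) 𝓘(ℂ, W) φ (ψ.symm y))
    (h3 : MDifferentiableAt 𝓘(ℂ, W) 𝓘(ℂ, E) φ.symm (φ (ψ.symm y))) (a : V) :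
    kahv_S E ψ y a = kahv_S E φ (φ (ψ.symm y)) (fderiv ℂ (φ ∘ ψ.symm) y a) := by
  have hd : MDifferentiableAt 𝓘(ℂ, V) 𝓘(ℂ, W) (φ ∘ ψ.symm) y := h2.comp y h1
  have he : (ψ.symm : V → X) =ᶠ[𝓝 y] φ.symm ∘ (φ ∘ ψ.symm) := by
    have := (ψ.continuousAt_symm hy).preimage_mem_nhds (φ.open_source.mem_nhds hs)
    filter_upwards [this] with z hz
    exact (φ.left_inv hz).symm
  have e1 := he.mfderiv_eq (I := 𝓘(ℂ, V)) (I' := 𝓘(ℂ, E))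
  have e2 := mfderiv_comp (I := 𝓘(ℂ, V)) (I' := 𝓘(ℂ, W)) (I'' := 𝓘(ℂ, E)) y
    (g := φ.symm) (f := φ ∘ ψ.symm) h3 hd
  have e3 : mfderiv 𝓘(ℂ, V) 𝓘(ℂ, W) (φ ∘ ψ.symm) y = fderiv ℂ (φ ∘ ψ.symm) y := mfderiv_eq_fderiv
  unfold kahv_S
  rw [e1, e2, e3]
  rfl

theorem kahv_w_chain (Ω : X → E →L[ℝ] E →L[ℝ] ℝ) {ψ : OpenPartialHomeomorph X V}
    {φ : OpenPartialHomeomorph X W} {y : V} (hy : y ∈ ψ.target) (hs : ψ.symm y ∈ φ.source)
    (h1 : MDifferentiableAt 𝓘(ℂ, V) 𝓘(ℂ, E) ψ.symm y)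
    (h2 : MDifferentiableAt 𝓘(ℂ, E) 𝓘(ℂ, W) φ (ψ.symm y))
    (h3 : MDifferentiableAt 𝓘(ℂ, W) 𝓘(ℂ, E) φ.symm (φ (ψ.symm y))) (a b : V) :
    kahv_w Ω ψ y a b = kahv_w Ω φ (φ (ψ.symm y)) (fderiv ℂ (φ ∘ ψ.symm) y a)
      (fderiv ℂ (φ ∘ ψ.symm) y b) := by
  rw [kahv_w_apply, kahv_w_apply, ← kahv_chain hy hs h1 h2 h3, ← kahv_chain hy hs h1 h2 h3,
    φ.left_inv hs]

theorem kahv_inj {ψ : OpenPartialHomeomorph X V} {y : V} (hy : y ∈ ψ.target)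
    (h1 : MDifferentiableAt 𝓘(ℂ, V) 𝓘(ℂ, E) ψ.symm y)
    (h2 : MDifferentiableAt 𝓘(ℂ, E) 𝓘(ℂ, V) ψ (ψ.symm y)) {a : V} (ha : a ≠ 0) :
    kahv_S E ψ y a ≠ 0 := by
  intro h0
  have he : (ψ ∘ ψ.symm : V → V) =ᶠ[𝓝 y] id := by
    filter_upwards [ψ.open_target.mem_nhds hy] with z hz
    exact ψ.right_inv hz
  have e1 := he.mfderiv_eq (I := 𝓘(ℂ, V)) (I' := 𝓘(ℂ, V))
  have e2 := mfderiv_comp (I := 𝓘(ℂ, V)) (I' := 𝓘(ℂ, E)) (I'' := 𝓘(ℂ, V)) y h2 h1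
  rw [e2, mfderiv_id] at e1
  have e3 : (mfderiv 𝓘(ℂ, E) 𝓘(ℂ, V) ψ (ψ.symm y)) (kahv_S E ψ y a) = a :=
    congrArg (fun L : V →L[ℂ] V => L a) e1
  rw [h0] at e3
  exact ha (e3.symm.trans (map_zero _))

theorem kahv_alt {Ω : X → E →L[ℝ] E →L[ℝ] ℝ} (hΩ : IsKahlerForm Ω) (x : X) (a b : E) :
    Ω x a b = -Ω x b a := by
  have h := hΩ.alt x (a + b)
  simp only [map_add, add_apply, hΩ.alt] at h
  linarith

end

theorem kahv_local {E V : Type*} [NormedAddCommGroup E] [NormedSpace ℂ E] [FiniteDimensional ℂ E]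
    [NormedAddCommGroup V] [NormedSpace ℂ V] [FiniteDimensional ℂ V] {X : Type*}
    [TopologicalSpace X] [ChartedSpace E X] [IsManifold 𝓘(ℂ, E) ω X]
    {ψ : OpenPartialHomeomorph X V}
    (hψ : ∀ y ∈ ψ.target, MDifferentiableAt 𝓘(ℂ, V) 𝓘(ℂ, E) ψ.symm y)
    {Ω : X → E →L[ℝ] E →L[ℝ] ℝ} (hΩ : IsKahlerForm Ω) {y : V} (hy : y ∈ ψ.target) :
    ∃ (h : V → E) (w : E → E →L[ℝ] E →L[ℝ] ℝ), ContDiffAt ℝ 2 h y ∧ ContDiffAt ℝ 1 w (h y) ∧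
      (∀ a b, w (h y) a b = -w (h y) b a) ∧
      (∀ a b c, fderiv ℝ (fun y => w y b c) (h y) a + fderiv ℝ (fun y => w y c a) (h y) b +
        fderiv ℝ (fun y => w y a b) (h y) c = 0) ∧
      ∀ a b, (fun z => kahv_w Ω ψ z a b) =ᶠ[𝓝 y]
        fun z => w (h z) (fderiv ℝ h z a) (fderiv ℝ h z b) := by
  have := FiniteDimensional.complete ℂ E
  have hR : FiniteDimensional ℝ E := FiniteDimensional.complexToReal E
  set φ := chartAt E (ψ.symm y) with hφ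
  have hφa : φ ∈ atlas E X := chart_mem_atlas E _
  have hs : ψ.symm y ∈ φ.source := mem_chart_source E _
  have ev : ∀ᶠ z in 𝓝 y, z ∈ ψ.target ∧ ψ.symm z ∈ φ.source :=
    (ψ.open_target.eventually_mem hy).and
      ((ψ.continuousAt_symm hy).preimage_mem_nhds (φ.open_source.mem_nhds hs))
  have hd : ∀ᶠ z in 𝓝 y, DifferentiableAt ℂ (φ ∘ ψ.symm) z := by
    filter_upwards [ev] with z hz
    exact kahv_diff (hψ z hz.1) (mdifferentiableAt_atlas hφa hz.2)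
  have ht : (φ ∘ ψ.symm) y ∈ φ.target := φ.map_source hs
  refine ⟨φ ∘ ψ.symm, kahv_w Ω φ, ?_, ?_, fun a b => kahv_alt hΩ _ _ _,
    fun a b c => hΩ.closed φ hφa _ ht a b c, fun a b => ?_⟩
  · exact ((osgood_at hd).contDiffAt (n := 2)).restrict_scalars ℝ
  · refine ContDiffOn.contDiffAt (s := φ.target) ?_ (φ.open_target.mem_nhds ht)
    refine contDiffOn_clm_apply.2 fun a => contDiffOn_clm_apply.2 fun b => ?_
    exact (hΩ.smooth φ hφa a b).of_le (by exact_mod_cast le_top)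
  · filter_upwards [ev, hd] with z hz hz'
    rw [kahv_w_chain Ω hz.1 hz.2 (hψ z hz.1) (mdifferentiableAt_atlas hφa hz.2)
      (mdifferentiableAt_atlas_symm hφa (φ.map_source hz.2)), hz'.fderiv_restrictScalars ℝ]
    rfl

theorem exists_kah {E V : Type*} [NormedAddCommGroup E] [NormedSpace ℂ E] [FiniteDimensional ℂ E]
    [NormedAddCommGroup V] [NormedSpace ℂ V] [FiniteDimensional ℂ V] {X : Type*}
    [TopologicalSpace X] [ChartedSpace E X] [IsManifold 𝓘(ℂ, E) ω X] [ChartedSpace V X]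
    (hA : ∀ ψ ∈ atlas V X, (∀ x ∈ ψ.source, MDifferentiableAt 𝓘(ℂ, E) 𝓘(ℂ, V) ψ x) ∧
      ∀ y ∈ ψ.target, MDifferentiableAt 𝓘(ℂ, V) 𝓘(ℂ, E) ψ.symm y)
    {Ω : X → E →L[ℝ] E →L[ℝ] ℝ} (hΩ : IsKahlerForm Ω) : Nonempty (Kah V X) := by
  have hR : FiniteDimensional ℝ V := FiniteDimensional.complexToReal V
  refine ⟨⟨kahv_w Ω, fun ψ hψ => ?_, fun ψ _ y _ a b => kahv_alt hΩ _ _ _,
    fun ψ hψ y hy a ha => ?_, fun ψ hψ y hy a b c => ?_, fun ψ hψ φ hφ y hy hs a b => ?_⟩⟩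
  · refine contDiffOn_clm_apply.2 fun a => contDiffOn_clm_apply.2 fun b y hy => ?_
    obtain ⟨h, w, h1, h2, -, -, h5⟩ := kahv_local (hA ψ hψ).2 hΩ hy
    exact ((pull_contDiffAt h1 h2 a b).congr_of_eventuallyEq (h5 a b)).contDiffWithinAt
  · rw [kahv_w_apply, map_smul]
    exact hΩ.pos _ _ (kahv_inj hy ((hA ψ hψ).2 y hy) ((hA ψ hψ).1 _ (ψ.map_target hy)) ha)
  · obtain ⟨h, w, h1, h2, h3, h4, h5⟩ := kahv_local (hA ψ hψ).2 hΩ hy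
    rw [(h5 b c).fderiv_eq, (h5 c a).fderiv_eq, (h5 a b).fderiv_eq]
    exact pull_closed h1 h2 h3 h4 a b c
  · exact kahv_w_chain Ω hy hs ((hA ψ hψ).2 y hy) ((hA φ hφ).1 _ hs)
      ((hA φ hφ).2 _ (φ.map_source hs)) a b

end Vale.Agent.P278
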