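import Vale.Agent.P278.Basic

/-!
P278 task Lift: rectangles lift to covering spaces.

Plan. For `h : N → M` continuous at `x` take `φ, ψ` from `hπ.2 (h x)`: `φ ∘ h =ᶠ ψ ∘ (π ∘ h)` near `x`.
Hence (any model `I` on `N`) `h` is differentiable at `x` iff `π ∘ h` is (`mdifferentiableAt_atlas`,
`mdifferentiableAt_atlas_symm`, `h =ᶠ φ.symm ∘ ψ ∘ π ∘ h`, `π ∘ h =ᶠ ψ.symm ∘ φ ∘ h`), and by `tang_iff`
`Tang A p h x ↔ Tang A p (π ∘ h) x` (also for `1 - p`). Apply `h` to `π ∘ f`, `π ∘ g` to get `R` on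
`S = ball z₀ σ ×ˢ ball w₀ ρ` (convex, so `Convex.contractibleSpace`, simply connected; open, so
locally path connected). Lift the restriction by `IsCoveringMap.existsUnique_continuousMap_lifts`
with value `f z₀` at `(z₀, w₀)`, extend by a default value outside `S`; the sides agree by
`IsCoveringMap.eqOn_of_comp_eqOn` on the balls.
Auxiliary names: start with `lift_`.
-/

namespace Vale.Agent.P278

open scoped Manifold ContDiff Topology
open Set Metric Filter

section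
variable {V : Type*} [NormedAddCommGroup V] [NormedSpace ℂ V] {M X : Type*}
    [TopologicalSpace M] [ChartedSpace V M] [IsManifold 𝓘(ℂ, V) ω M] [TopologicalSpace X]
    [ChartedSpace V X] [IsManifold 𝓘(ℂ, V) ω X] {π : M → X} {p : V →L[ℂ] V}

theorem lift_md {E H N : Type*} [NormedAddCommGroup E] [NormedSpace ℂ E] [TopologicalSpace H]
    {I : ModelWithCorners ℂ E H} [TopologicalSpace N] [ChartedSpace H N] (hπ : PCov V π)
    {h : N → M} {x : N} (hc : ContinuousAt h x) :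
    MDifferentiableAt I 𝓘(ℂ, V) h x ↔ MDifferentiableAt I 𝓘(ℂ, V) (π ∘ h) x := by
  obtain ⟨φ, hφ, ψ, hψ, hx, hm⟩ := hπ.2 (h x)
  have hev : ∀ᶠ y in 𝓝 x, h y ∈ φ.source := hc.eventually (φ.open_source.mem_nhds hx)
  constructor
  · intro hd
    have h1 : MDifferentiableAt I 𝓘(ℂ, V) (φ ∘ h) x :=
      (mdifferentiableAt_atlas (I := 𝓘(ℂ, V)) hφ hx).comp x hd
    have ht : (φ ∘ h) x ∈ ψ.target := by
      rw [Function.comp_apply, (hm _ hx).2]
      exact ψ.map_source (hm _ hx).1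
    refine ((mdifferentiableAt_atlas_symm (I := 𝓘(ℂ, V)) hψ ht).comp x h1).congr_of_eventuallyEq ?_
    filter_upwards [hev] with y hy
    simp only [Function.comp_apply]
    rw [(hm _ hy).2, ψ.left_inv (hm _ hy).1]
  · intro hd
    have h1 : MDifferentiableAt I 𝓘(ℂ, V) (ψ ∘ π ∘ h) x :=
      (mdifferentiableAt_atlas (I := 𝓘(ℂ, V)) hψ (hm _ hx).1).comp x hd
    have ht : (ψ ∘ π ∘ h) x ∈ φ.target := by
      simp only [Function.comp_apply]
      rw [← (hm _ hx).2]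
      exact φ.map_source hx
    refine ((mdifferentiableAt_atlas_symm (I := 𝓘(ℂ, V)) hφ ht).comp x h1).congr_of_eventuallyEq ?_
    filter_upwards [hev] with y hy
    simp only [Function.comp_apply]
    rw [← (hm _ hy).2, φ.left_inv hy]

theorem lift_tang (hπ : PCov V π) (hM : PAtl p M) (hX : PAtl p X) {h : V → M} {x : V}
    (hd : MDifferentiableAt 𝓘(ℂ, V) 𝓘(ℂ, V) h x) : Tang V p h x ↔ Tang V p (π ∘ h) x := by
  obtain ⟨φ, hφ, ψ, hψ, hx, hm⟩ := hπ.2 (h x)
  have hev : ∀ᶠ y in 𝓝 x, h y ∈ φ.source :=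
    hd.continuousAt.eventually (φ.open_source.mem_nhds hx)
  have e : φ ∘ h =ᶠ[𝓝 x] ψ ∘ π ∘ h := by
    filter_upwards [hev] with y hy using (hm _ hy).2
  rw [tang_iff hM hφ hx hd, tang_iff hX hψ (f := π ∘ h) (hm _ hx).1
    ((lift_md hπ hd.continuousAt).1 hd), e.mfderiv_eq]
  rfl

theorem lift_pt (hπ : PCov V π) (hM : PAtl p M) (hX : PAtl p X) {R : V × V → M} {q : V × V}
    (hc : ContinuousAt R q) (h : PT V V p (π ∘ R) q) : PT V V p R q := by
  have h1 : ContinuousAt (fun x => R (x, q.2)) q.1 :=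
    ContinuousAt.comp (f := fun x => (x, q.2)) hc (by fun_prop)
  have h2 : ContinuousAt (fun y => R (q.1, y)) q.2 :=
    ContinuousAt.comp (f := fun y => (q.1, y)) hc (by fun_prop)
  exact ⟨(lift_md hπ hc).2 h.1, (lift_tang hπ hM hX ((lift_md hπ h1).2 h.md1)).2 h.2.1,
    (lift_tang hπ hM.one_sub hX.one_sub ((lift_md hπ h2).2 h.md2)).2 h.2.2⟩

end

theorem lift_on {W M X : Type*} [NormedAddCommGroup W] [NormedSpace ℝ W] [TopologicalSpace M]
    [TopologicalSpace X] {π : M → X} (hπ : IsCoveringMap π) {S : Set W} (ho : IsOpen S)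
    (hc : Convex ℝ S) {R : W → X} (hR : ContinuousOn R S) {a : W} (ha : a ∈ S) {m : M}
    (hm : π m = R a) : ∃ F : W → M, ContinuousOn F S ∧ F a = m ∧ ∀ x ∈ S, π (F x) = R x := by
  classical
  have := hc.contractibleSpace ⟨a, ha⟩
  have := ho.locallyPathConnectedSpace
  obtain ⟨F, ⟨h1, h2⟩, -⟩ := hπ.existsUnique_continuousMap_lifts
    (⟨fun x : S => R x, hR.restrict⟩ : C(S, X)) ⟨a, ha⟩ m hm
  refine ⟨fun x => if h : x ∈ S then F ⟨x, h⟩ else m, ?_, by simp only [dif_pos ha, h1],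
    fun x hx => ?_⟩
  · rw [continuousOn_iff_continuous_domRestrict]
    refine F.continuous.congr fun x => ?_
    change F x = if h : (x : W) ∈ S then F ⟨x, h⟩ else m
    rw [dif_pos x.2]
  · simp only [dif_pos hx]
    exact congrFun h2 ⟨x, hx⟩

theorem ext_lift {V : Type*} [NormedAddCommGroup V] [NormedSpace ℂ V] {M X : Type*}
    [TopologicalSpace M] [ChartedSpace V M] [IsManifold 𝓘(ℂ, V) ω M] [TopologicalSpace X]
    [ChartedSpace V X] [IsManifold 𝓘(ℂ, V) ω X] {π : M → X} (hπ : PCov V π) {p : V →L[ℂ] V}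
    (hM : PAtl p M) (hX : PAtl p X) (h : EXT p X) : EXT p M := by
  intro z₀ w₀ σ ρ f g hσ hρ hf hg e
  letI : NormedSpace ℝ V := NormedSpace.restrictScalars ℝ ℂ V
  obtain ⟨R, hR, h1, h2⟩ := h z₀ w₀ σ ρ (π ∘ f) (π ∘ g) hσ hρ
    (fun z hz => ⟨(lift_md hπ (hf z hz).1.continuousAt).1 (hf z hz).1,
      (lift_tang hπ hM hX (hf z hz).1).1 (hf z hz).2⟩)
    (fun w hw => ⟨(lift_md hπ (hg w hw).1.continuousAt).1 (hg w hw).1,
      (lift_tang hπ hM.one_sub hX.one_sub (hg w hw).1).1 (hg w hw).2⟩) (congrArg π e)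
  have ho : IsOpen (ball z₀ σ ×ˢ ball w₀ ρ) := isOpen_ball.prod isOpen_ball
  have hz := mem_ball_self (x := z₀) hσ
  have hw := mem_ball_self (x := w₀) hρ
  obtain ⟨F, hF, hF0, hF1⟩ := lift_on hπ.1 ho ((convex_ball z₀ σ).prod (convex_ball w₀ ρ))
    (fun q hq => (hR q hq).1.continuousAt.continuousWithinAt) (a := (z₀, w₀)) ⟨hz, hw⟩
    (m := f z₀) (h1 z₀ hz).symm
  refine ⟨F, fun q hq => lift_pt hπ hM hX (hF.continuousAt (ho.mem_nhds hq)) ((hR q hq).congr ?_),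
    ?_, ?_⟩
  · filter_upwards [ho.mem_nhds hq] with x hx using hF1 x hx
  · exact hπ.1.eqOn_of_comp_eqOn (g₁ := fun z => F (z, w₀)) (convex_ball z₀ σ).isPreconnected
      (hF.comp (f := fun z => (z, w₀)) (by fun_prop) fun z hz' => ⟨hz', hw⟩)
      (fun z hz' => (hf z hz').1.continuousAt.continuousWithinAt)
      (fun z hz' => (hF1 _ ⟨hz', hw⟩).trans (h1 z hz')) hz hF0
  · exact hπ.1.eqOn_of_comp_eqOn (g₁ := fun w => F (z₀, w)) (convex_ball w₀ ρ).isPreconnected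
      (hF.comp (f := fun w => (z₀, w)) (by fun_prop) fun w hw' => ⟨hz, hw'⟩)
      (fun w hw' => (hg w hw').1.continuousAt.continuousWithinAt)
      (fun w hw' => (hF1 _ ⟨hz, hw'⟩).trans (h2 w hw')) hw (hF0.trans e)

end Vale.Agent.P278
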