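import Mathlib

/-!
P278 task MonoA: a space-time divergence inequality gives monotonicity of the spatial integral.

Plan. For each `u`, the fundamental theorem of calculus
(`intervalIntegral.integral_eq_sub_of_hasDerivAt`) gives
`F (u, d₂) - F (u, d₁) = ∫ s in d₁..d₂, fderiv ℝ F (u, s) (0, 1)`. All the functions involved are
continuous on `univ ×ˢ Icc d₁ d₂` (`ContDiffAt.continuousAt_fderiv` or
`ContDiffAt.fderiv_right`) and vanish for `‖u‖ > R` (for `fderiv` in the directions `(1,0)`, `(I,0)`: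
the slice `u ↦ G (u, s)` is locally zero; for `(0,1)`: either restrict `s` to the open interval, or
use the one-sided uniqueness of derivatives; a null set of `s` does not matter), so Fubini applies
(`MeasureTheory.integral_integral_swap` / `intervalIntegral_integral_swap`, integrability from
`ContinuousOn.integrableOn_compact`). For fixed `s` the slices `g u = G₁ (u, s)` are `C¹` with compact
support, so `∫ u, fderiv ℝ g u 1 = 0` (`integral_mul_fderiv_eq_neg_fderiv_mul_of_integrable` with the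
constant function `1`, or `integral_bilinear_hasLineDerivAt_right_eq_neg_left_of_integrable`); the same
for `G₂` in direction `I`. Hence `∫ u, fderiv ℝ F (u, s) (0,1) = ∫ u, (sum of the three) ≥ 0`.
Auxiliary names: start with `monoA_`.
-/

namespace Vale.Agent.P278

open Set MeasureTheory

theorem monoA_div {g : ℂ → ℝ} {R : ℝ} (hg : ContDiff ℝ 1 g) (hz : ∀ u, R < ‖u‖ → g u = 0)
    (v : ℂ) : ∫ u in Metric.closedBall 0 R, fderiv ℝ g u v = 0 := by
  have hc : HasCompactSupport g :=
    HasCompactSupport.intro (isCompact_closedBall 0 R) fun u hu =>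
      hz u (by simpa using hu)
  have hd : Continuous fun u => fderiv ℝ g u v :=
    (hg.continuous_fderiv one_ne_zero).clm_apply continuous_const
  have hi : Integrable (fun u => fderiv ℝ g u v) :=
    hd.integrable_of_hasCompactSupport (hc.fderiv_apply (𝕜 := ℝ) v)
  rw [setIntegral_eq_integral_of_forall_compl_eq_zero]
  · have h := integral_mul_fderiv_eq_neg_fderiv_mul_of_integrable (μ := (volume : Measure ℂ))
      (f := fun _ : ℂ => (1 : ℝ)) (g := g) (v := v) (by simp) (by simpa using hi)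
      (by simpa using hg.continuous.integrable_of_hasCompactSupport hc)
      (fun x _ => differentiableAt_const _) (fun x _ => hg.differentiable one_ne_zero x)
    simpa using h
  · intro u hu
    have h1 : R < ‖u‖ := by simpa using hu
    have h3 : ∀ᶠ w in nhds u, R < ‖w‖ := (isOpen_lt continuous_const continuous_norm).mem_nhds h1
    have h2 : g =ᶠ[nhds u] fun _ => 0 := h3.mono fun w hw => hz w hw
    rw [h2.fderiv_eq]
    simp

theorem monoA_slice {G : ℂ × ℝ → ℝ} {s R : ℝ} (hG : ∀ u, ContDiffAt ℝ 1 G (u, s))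
    (hz : ∀ u, R < ‖u‖ → G (u, s) = 0) (v : ℂ) :
    IntegrableOn (fun u => fderiv ℝ G (u, s) (v, 0)) (Metric.closedBall 0 R) ∧
      ∫ u in Metric.closedBall 0 R, fderiv ℝ G (u, s) (v, 0) = 0 := by
  have h1 : ContDiff ℝ 1 fun u => G (u, s) := contDiff_iff_contDiffAt.2 fun u =>
    (hG u).comp u (contDiffAt_id.prodMk contDiffAt_const)
  have h2 : ∀ u, fderiv ℝ G (u, s) (v, 0) = fderiv ℝ (fun u => G (u, s)) u v := by
    intro u
    have h3 := (((hG u).differentiableAt one_ne_zero).hasFDerivAt.comp u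
      (hasFDerivAt_prodMk_left (𝕜 := ℝ) u s)).fderiv
    have h4 : fderiv ℝ (fun u => G (u, s)) u = _ := h3
    rw [h4]
    simp
  simp only [h2]
  exact ⟨((h1.continuous_fderiv one_ne_zero).clm_apply
    continuous_const).continuousOn.integrableOn_compact (isCompact_closedBall 0 R),
    monoA_div h1 hz v⟩

theorem mono_abs {F G₁ G₂ : ℂ × ℝ → ℝ} {d₁ d₂ R : ℝ} (hd : d₁ ≤ d₂)
    (hF : ∀ u, ∀ s ∈ Icc d₁ d₂, ContDiffAt ℝ 1 F (u, s))
    (hG₁ : ∀ u, ∀ s ∈ Icc d₁ d₂, ContDiffAt ℝ 1 G₁ (u, s))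
    (hG₂ : ∀ u, ∀ s ∈ Icc d₁ d₂, ContDiffAt ℝ 1 G₂ (u, s))
    (hz : ∀ u, ∀ s ∈ Icc d₁ d₂, R < ‖u‖ → F (u, s) = 0 ∧ G₁ (u, s) = 0 ∧ G₂ (u, s) = 0)
    (hdiv : ∀ u, ∀ s ∈ Icc d₁ d₂, 0 ≤ fderiv ℝ G₁ (u, s) (1, 0) +
      fderiv ℝ G₂ (u, s) (Complex.I, 0) + fderiv ℝ F (u, s) (0, 1)) :
    ∫ u, F (u, d₁) ≤ ∫ u, F (u, d₂) := by
  set K : Set ℂ := Metric.closedBall 0 R with hK
  have hKc : IsCompact K := isCompact_closedBall 0 R
  have e1 : ∀ s ∈ Icc d₁ d₂, ∫ u, F (u, s) = ∫ u in K, F (u, s) := fun s hs =>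
    (setIntegral_eq_integral_of_forall_compl_eq_zero fun u hu =>
      (hz u s hs (by simpa [hK] using hu)).1).symm
  have i1 : ∀ s ∈ Icc d₁ d₂, IntegrableOn (fun u => F (u, s)) K := fun s hs =>
    (continuous_iff_continuousAt.2 fun u => ContinuousAt.comp (f := fun u : ℂ => (u, s))
      (hF u s hs).continuousAt (by fun_prop)).continuousOn.integrableOn_compact hKc
  have c1 : ∀ u, ∀ s ∈ Icc d₁ d₂,
      ContinuousAt (fun z : ℂ × ℝ => fderiv ℝ F z (0, 1)) (u, s) := fun u s hs =>
    ((hF u s hs).continuousAt_fderiv one_ne_zero).clm_apply continuousAt_const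
  have ftc : ∀ u, F (u, d₂) - F (u, d₁) = ∫ s in Ioc d₁ d₂, fderiv ℝ F (u, s) (0, 1) := by
    intro u
    rw [← intervalIntegral.integral_of_le hd]
    refine (intervalIntegral.integral_eq_sub_of_hasDerivAt (f := fun s => F (u, s))
      (fun s hs => ?_) (ContinuousOn.intervalIntegrable fun s hs => ?_)).symm
    · rw [uIcc_of_le hd] at hs
      exact ((hF u s hs).differentiableAt one_ne_zero).hasFDerivAt.comp_hasDerivAt s
        ((hasDerivAt_const s u).prodMk (hasDerivAt_id s))
    · rw [uIcc_of_le hd] at hs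
      exact (ContinuousAt.comp (f := fun s : ℝ => (u, s)) (c1 u s hs)
        (by fun_prop)).continuousWithinAt
  have i2 : Integrable (Function.uncurry fun (u : ℂ) (s : ℝ) => fderiv ℝ F (u, s) (0, 1))
      ((volume.restrict K).prod (volume.restrict (Ioc d₁ d₂))) := by
    rw [Measure.prod_restrict]
    have h1 : IntegrableOn (fun z : ℂ × ℝ => fderiv ℝ F z (0, 1)) (K ×ˢ Icc d₁ d₂)
        (volume.prod volume) :=
      ContinuousOn.integrableOn_compact (hKc.prod isCompact_Icc) fun z hz' =>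
        (c1 z.1 z.2 hz'.2).continuousWithinAt
    exact h1.mono_set (prod_mono le_rfl Ioc_subset_Icc_self)
  rw [e1 d₁ (left_mem_Icc.2 hd), e1 d₂ (right_mem_Icc.2 hd), ← sub_nonneg,
    ← integral_sub (i1 d₂ (right_mem_Icc.2 hd)) (i1 d₁ (left_mem_Icc.2 hd))]
  simp only [ftc]
  rw [integral_integral_swap i2]
  refine setIntegral_nonneg measurableSet_Ioc fun s hs => ?_
  have hs' : s ∈ Icc d₁ d₂ := Ioc_subset_Icc_self hs
  obtain ⟨a1, a2⟩ := monoA_slice (fun u => hG₁ u s hs') (fun u hu => (hz u s hs' hu).2.1) 1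
  obtain ⟨b1, b2⟩ := monoA_slice (fun u => hG₂ u s hs') (fun u hu => (hz u s hs' hu).2.2) Complex.I
  have i3 : IntegrableOn (fun u => fderiv ℝ F (u, s) (0, 1)) K :=
    (continuous_iff_continuousAt.2 fun u => ContinuousAt.comp (f := fun u : ℂ => (u, s))
      (c1 u s hs') (by fun_prop)).continuousOn.integrableOn_compact hKc
  have h0 : 0 ≤ ∫ u in K, (fderiv ℝ G₁ (u, s) (1, 0) + fderiv ℝ G₂ (u, s) (Complex.I, 0) +
      fderiv ℝ F (u, s) (0, 1)) := integral_nonneg fun u => hdiv u s hs'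
  have ab : Integrable (fun u => fderiv ℝ G₁ (u, s) (1, 0) + fderiv ℝ G₂ (u, s) (Complex.I, 0))
      (volume.restrict K) := a1.add b1
  rw [integral_add ab i3, integral_add a1 b1, a2, b2] at h0
  simpa using h0

end Vale.Agent.P278
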