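import Vale.Agent.P278.MonoA

/-!
P278 task MonoB: monotonicity of the cut-off energy along cones of slope `B ≥ 2 C`.

Plan. With `ρ s = r + B (s - d₁) > 0` and `χ (u, s) = cut (ρ s) u` apply `mono_abs` to `F = χ e`,
`G₁ = χ J₁`, `G₂ = χ J₂`, `R = 2 ρ d₂`. At `(u, s)` with `‖u‖² ≤ 2 (ρ s)²` we are in the open set
`Om κ s₀` (`κ ‖u‖² ≤ 2 κ ρ² < s`), so everything is `C¹`; at a point with `‖u‖² > 2 (ρ s)²` the factor
`χ` vanishes in a neighbourhood (`Real.smoothTransition.one_of_one_le`), so `F, G₁, G₂` are locally zero.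
In `Om`, the product rule and `h.div` give that the divergence equals
`∂₁χ J₁ + ∂₂χ J₂ + ∂ₛχ e`; with `T = deriv Real.smoothTransition (‖u‖²/ρ² - 1) ≥ 0`
(`Real.smoothTransition.monotone`, `Monotone.deriv_nonneg`): `∂ₛχ = T 2‖u‖² B / ρ³`,
`∂₁χ = -T 2 u.re / ρ²`, `∂₂χ = -T 2 u.im / ρ²` (write `‖u‖² = u.re² + u.im²`), and `T = 0` when
`‖u‖ < ρ` (locally constant, `Real.smoothTransition.zero_of_nonpos`). For `‖u‖ ≥ ρ` the sum is at least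
`T e (2‖u‖/ρ²) (‖u‖ B / ρ - 2 C) ≥ 0`.
Auxiliary names: start with `monoB_`.
-/

namespace Vale.Agent.P278

open Set MeasureTheory

/-- The region above a paraboloid. -/
def Om (κ s₀ : ℝ) : Set (ℂ × ℝ) := {q | κ * ‖q.1‖ ^ 2 < q.2 ∧ q.2 < s₀}

/-- A density with a divergence-free, dominated current. -/
structure DivFree (κ s₀ C : ℝ) (e J₁ J₂ : ℂ × ℝ → ℝ) : Prop where
  ce : ContDiffOn ℝ 1 e (Om κ s₀)
  c1 : ContDiffOn ℝ 1 J₁ (Om κ s₀)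
  c2 : ContDiffOn ℝ 1 J₂ (Om κ s₀)
  div : ∀ q ∈ Om κ s₀, fderiv ℝ J₁ q (1, 0) + fderiv ℝ J₂ q (Complex.I, 0) +
    fderiv ℝ e q (0, 1) = 0
  nonneg : ∀ q ∈ Om κ s₀, 0 ≤ e q
  b1 : ∀ q ∈ Om κ s₀, |J₁ q| ≤ C * e q
  b2 : ∀ q ∈ Om κ s₀, |J₂ q| ≤ C * e q

/-- Cut-off: `1` for `‖u‖ ≤ r`, `0` for `‖u‖² ≥ 2 r²`. -/
noncomputable def cut (r : ℝ) (u : ℂ) : ℝ := 1 - Real.smoothTransition (‖u‖ ^ 2 / r ^ 2 - 1)

/-- Cut-off energy at height `s`. -/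
noncomputable def En (e : ℂ × ℝ → ℝ) (r s : ℝ) : ℝ := ∫ u, cut r u * e (u, s)

theorem monoB_zero {r : ℝ} {u : ℂ} (hr : 0 < r) (h : 2 * r ^ 2 ≤ ‖u‖ ^ 2) : cut r u = 0 := by
  rw [cut, Real.smoothTransition.one_of_one_le, sub_self]
  rw [le_sub_iff_add_le, le_div_iff₀ (by positivity)]
  linarith

theorem monoB_open (κ s₀ : ℝ) : IsOpen (Om κ s₀) :=
  (isOpen_lt (by fun_prop) continuous_snd).inter (isOpen_lt continuous_snd continuous_const)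

theorem monoB_out {r B d s : ℝ} {u : ℂ} (hρ : 0 < r + B * (s - d))
    (h : 2 * (r + B * (s - d)) ^ 2 < ‖u‖ ^ 2) (G : ℂ × ℝ → ℝ) :
    (fun q : ℂ × ℝ => cut (r + B * (q.2 - d)) q.1 * G q) =ᶠ[nhds (u, s)] fun _ => 0 := by
  have h1 : IsOpen {q : ℂ × ℝ | 0 < r + B * (q.2 - d) ∧ 2 * (r + B * (q.2 - d)) ^ 2 < ‖q.1‖ ^ 2} :=
    IsOpen.and (isOpen_lt continuous_const (by fun_prop)) (isOpen_lt (by fun_prop) (by fun_prop))
  filter_upwards [h1.mem_nhds (show (u, s) ∈ _ from ⟨hρ, h⟩)] with q hq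
  rw [monoB_zero hq.1 hq.2.le, zero_mul]

theorem monoB_smooth {r B d s : ℝ} (u : ℂ) (hρ : 0 < r + B * (s - d)) :
    ContDiffAt ℝ 1 (fun q : ℂ × ℝ => cut (r + B * (q.2 - d)) q.1) (u, s) :=
  contDiffAt_const.sub (Real.smoothTransition.contDiffAt.comp _
    (((contDiffAt_fst.norm_sq ℝ).div (by fun_prop) (pow_ne_zero 2 hρ.ne')).sub contDiffAt_const))

theorem monoB_der {r B d s : ℝ} (u : ℂ) (hρ : 0 < r + B * (s - d)) :
    ∃ (L : ℂ × ℝ →L[ℝ] ℝ) (T : ℝ), 0 ≤ T ∧ (‖u‖ < r + B * (s - d) → T = 0) ∧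
      HasFDerivAt (fun q : ℂ × ℝ => cut (r + B * (q.2 - d)) q.1) L (u, s) ∧
      L (1, 0) = -(T * u.re) ∧ L (Complex.I, 0) = -(T * u.im) ∧
      L (0, 1) = T * (‖u‖ ^ 2 * B / (r + B * (s - d))) := by
  have h1 : HasFDerivAt (fun q : ℂ × ℝ => ‖q.1‖ ^ 2) _ (u, s) :=
    (hasFDerivAt_fst (𝕜 := ℝ) (p := (u, s))).norm_sq
  have h2 : HasDerivAt (fun s => ((r + B * (s - d)) ^ 2)⁻¹) _ s :=
    (((((hasDerivAt_id s).sub_const d).const_mul B).const_add r).pow 2).inv (pow_ne_zero 2 hρ.ne')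
  have h3 := (h1.mul (h2.comp_hasFDerivAt (u, s) hasFDerivAt_snd)).sub_const 1
  have h4 := ((Real.smoothTransition.contDiff (n := 1)).differentiable one_ne_zero
    (‖u‖ ^ 2 * ((r + B * (s - d)) ^ 2)⁻¹ - 1)).hasDerivAt
  have h5 := (h4.comp_hasFDerivAt (u, s) h3).const_sub 1
  refine ⟨_, deriv Real.smoothTransition (‖u‖ ^ 2 * ((r + B * (s - d)) ^ 2)⁻¹ - 1) * 2 /
    (r + B * (s - d)) ^ 2, div_nonneg (mul_nonneg Real.smoothTransition.monotone.deriv_nonneg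
      zero_le_two) (sq_nonneg _), fun h => ?_, h5, ?_, ?_, ?_⟩
  · have h6 : ‖u‖ ^ 2 * ((r + B * (s - d)) ^ 2)⁻¹ - 1 < 0 := by
      rw [sub_neg, ← div_eq_mul_inv, div_lt_one (by positivity)]
      gcongr
    have h7 : Real.smoothTransition =ᶠ[nhds (‖u‖ ^ 2 * ((r + B * (s - d)) ^ 2)⁻¹ - 1)]
        fun _ => 0 := (gt_mem_nhds h6).mono fun _ h => Real.smoothTransition.zero_of_nonpos h.le
    rw [h7.deriv_eq, deriv_const, zero_mul, zero_div]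
  · simp
    ring
  · simp
    ring
  · simp
    field_simp

theorem en_mono {κ s₀ C : ℝ} {e J₁ J₂ : ℂ × ℝ → ℝ} (h : DivFree κ s₀ C e J₁ J₂) (hκ : 0 < κ)
    (hC : 0 ≤ C) {r B d₁ d₂ : ℝ} (hr : 0 < r) (hB : 2 * C ≤ B) (hd : d₁ ≤ d₂) (hs : d₂ < s₀)
    (hin : ∀ s ∈ Icc d₁ d₂, 2 * κ * (r + B * (s - d₁)) ^ 2 < s) :
    En e r d₁ ≤ En e (r + B * (d₂ - d₁)) d₂ := by
  have hB0 : 0 ≤ B := by linarith
  have hρ : ∀ s ∈ Icc d₁ d₂, 0 < r + B * (s - d₁) := fun s hs =>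
    add_pos_of_pos_of_nonneg hr (mul_nonneg hB0 (sub_nonneg.2 hs.1))
  have hm : ∀ u : ℂ, ∀ s ∈ Icc d₁ d₂, ‖u‖ ^ 2 ≤ 2 * (r + B * (s - d₁)) ^ 2 → (u, s) ∈ Om κ s₀ :=
    fun u s h1 h2 => ⟨((mul_le_mul_of_nonneg_left h2 hκ.le).trans_eq (by ring)).trans_lt (hin s h1),
      h1.2.trans_lt hs⟩
  have hc : ∀ G : ℂ × ℝ → ℝ, ContDiffOn ℝ 1 G (Om κ s₀) → ∀ u, ∀ s ∈ Icc d₁ d₂,
      ContDiffAt ℝ 1 (fun q : ℂ × ℝ => cut (r + B * (q.2 - d₁)) q.1 * G q) (u, s) := by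
    intro G hG u s h1
    rcases le_or_gt (‖u‖ ^ 2) (2 * (r + B * (s - d₁)) ^ 2) with h2 | h2
    · exact (monoB_smooth u (hρ s h1)).mul
        (hG.contDiffAt ((monoB_open κ s₀).mem_nhds (hm u s h1 h2)))
    · exact contDiffAt_const.congr_of_eventuallyEq (monoB_out (hρ s h1) h2 G)
  have key := mono_abs (R := 2 * (r + B * (d₂ - d₁))) hd (hc e h.ce) (hc J₁ h.c1) (hc J₂ h.c2)
    (fun u s h1 h2 => by
      have h3 : r + B * (s - d₁) ≤ r + B * (d₂ - d₁) := by gcongr; exact h1.2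
      have h4 := hρ s h1
      have h5 : cut (r + B * (s - d₁)) u = 0 := monoB_zero h4 (by nlinarith)
      simp only [h5, zero_mul, and_self]) fun u s h1 => by
    rcases le_or_gt (‖u‖ ^ 2) (2 * (r + B * (s - d₁)) ^ 2) with h2 | h2
    · obtain ⟨L, T, t0, t1, t2, t3, t4, t5⟩ := monoB_der u (hρ s h1)
      have h3 := hm u s h1 h2
      have h4 : ∀ G : ℂ × ℝ → ℝ, ContDiffOn ℝ 1 G (Om κ s₀) → ∀ v,
          fderiv ℝ (fun q : ℂ × ℝ => cut (r + B * (q.2 - d₁)) q.1 * G q) (u, s) v =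
            cut (r + B * (s - d₁)) u * fderiv ℝ G (u, s) v + G (u, s) * L v := fun G hG v =>
        congrArg (fun M : ℂ × ℝ →L[ℝ] ℝ => M v) (t2.mul ((hG.contDiffAt
          ((monoB_open κ s₀).mem_nhds h3)).differentiableAt one_ne_zero).hasFDerivAt).fderiv
      rw [h4 _ h.ce, h4 _ h.c1, h4 _ h.c2, t3, t4, t5]
      have h5 : 0 ≤ T * (e (u, s) * (‖u‖ ^ 2 * B / (r + B * (s - d₁))) - J₁ (u, s) * u.re -
          J₂ (u, s) * u.im) := by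
        rcases lt_or_ge ‖u‖ (r + B * (s - d₁)) with h5 | h5
        · rw [t1 h5, zero_mul]
        refine mul_nonneg t0 ?_
        have a0 := h.nonneg _ h3
        have a1 : J₁ (u, s) * u.re ≤ C * e (u, s) * ‖u‖ := (le_abs_self _).trans (by
          rw [abs_mul]
          exact mul_le_mul (h.b1 _ h3) (Complex.abs_re_le_norm u) (abs_nonneg _) (by positivity))
        have a2 : J₂ (u, s) * u.im ≤ C * e (u, s) * ‖u‖ := (le_abs_self _).trans (by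
          rw [abs_mul]
          exact mul_le_mul (h.b2 _ h3) (Complex.abs_im_le_norm u) (abs_nonneg _) (by positivity))
        have a3 : ‖u‖ * (2 * C) ≤ ‖u‖ ^ 2 * B / (r + B * (s - d₁)) := by
          rw [le_div_iff₀ (hρ s h1)]
          calc _ ≤ ‖u‖ * B * ‖u‖ := by gcongr; exact (hρ s h1).le
            _ = _ := by ring
        nlinarith [mul_le_mul_of_nonneg_left a3 a0]
      linear_combination h5 - cut (r + B * (s - d₁)) u * h.div _ h3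
    · simp only [(monoB_out (hρ s h1) h2 _).fderiv_eq, fderiv_fun_const, Pi.zero_apply,
        zero_apply, add_zero, le_refl]
  simpa only [En, sub_self, mul_zero, add_zero] using key

end Vale.Agent.P278
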