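import Vale.Agent.P278.GSet

/-!
P278 task Patch: local extension of a rectangle inside one chart; the two axis cases.

Plan. `patch`: `S z = ψ.symm (p (ψ (f z.1)) + (1 - p) (ψ (g z.2)))` is of product type on `N₁ ×ˢ N₂`
(`pt_mk`); `pt_split` at `q'` shows `S =ᶠ[𝓝 q'] R`; `ident` (model `𝓘(ℂ, V).prod 𝓘(ℂ, V)`) on the convex
set `N₁ ×ˢ N₂ ∩ K₀` propagates this; take a ball around `P` inside the open set `N₁ ×ˢ N₂`.
`axis1`: `ψ = chartAt V (f z)`, `c = ψ (f z)`, `ball c (2r) ⊆ ψ.target`. Take `N₁ = ball z r₁` on which `f` is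
differentiable, maps into the source, with `‖p (ψ (f ·) - c)‖ < r` and `‖(1-p) (ψ (f ·) - c)‖ < r`; pick
`z' ∈ N₁ ∩ ball z₀ σ` (`closure_ball`), `g = R (z', ·)`, `g w₀ = f z'`, and `N₂ = ball w₀ r₂` on which `g` is
differentiable (`PT.md2`), maps into the source, with `‖(1-p) (ψ (g ·) - c)‖ < r`. Apply `patch` with
`q' = (z', w₀)`. `axis2` is symmetric.
Auxiliary names: start with `patch_`.
-/

namespace Vale.Agent.P278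

open scoped Manifold ContDiff Topology
open Set Metric

variable {V : Type*} [NormedAddCommGroup V] [NormedSpace ℂ V] [FiniteDimensional ℂ V]
  {X : Type*} [TopologicalSpace X] [T2Space X] [ChartedSpace V X] [IsManifold 𝓘(ℂ, V) ω X]
  {p : V →L[ℂ] V} {R : V × V → X}

theorem patch (hP : PAtl p X) (hp : IsIdempotentElem p) {N₁ N₂ : Set V} {K₀ : Set (V × V)}
    (ho₁ : IsOpen N₁) (ho₂ : IsOpen N₂) (hc₁ : Convex ℝ N₁) (hc₂ : Convex ℝ N₂)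
    (hK : Convex ℝ K₀) {q' P : V × V} (hq : q' ∈ N₁ ×ˢ N₂) (hqK : q' ∈ K₀) (hPN : P ∈ N₁ ×ˢ N₂)
    (hR : ∀ y ∈ K₀, ∀ᶠ z in 𝓝 y, PT V V p R z) {f g : V → X}
    {ψ : OpenPartialHomeomorph X V} (hψ : ψ ∈ atlas V X)
    (hf : ∀ z ∈ N₁, MDifferentiableAt 𝓘(ℂ, V) 𝓘(ℂ, V) f z ∧ f z ∈ ψ.source)
    (hg : ∀ w ∈ N₂, MDifferentiableAt 𝓘(ℂ, V) 𝓘(ℂ, V) g w ∧ g w ∈ ψ.source)
    (ht : ∀ z ∈ N₁, ∀ w ∈ N₂, p (ψ (f z)) + (1 - p) (ψ (g w)) ∈ ψ.target)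
    (hfR : f =ᶠ[𝓝 q'.1] fun z => R (z, q'.2)) (hgR : g =ᶠ[𝓝 q'.2] fun w => R (q'.1, w)) :
    LocExt p R K₀ P := by
  have : CompleteSpace V := FiniteDimensional.complete ℂ V
  have ho : IsOpen (N₁ ×ˢ N₂) := ho₁.prod ho₂
  have hS : ∀ y ∈ N₁ ×ˢ N₂,
      PT V V p (fun z : V × V => ψ.symm (p (ψ (f z.1)) + (1 - p) (ψ (g z.2)))) y := fun y hy =>
    pt_mk hP hp hψ (hf _ hy.1).1 (hg _ hy.2).1 (hf _ hy.1).2 (hg _ hy.2).2 (ht _ hy.1 _ hy.2)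
  have h0 : R q' ∈ ψ.source := by
    have e : f q'.1 = R q' := hfR.eq_of_nhds
    rw [← e]
    exact (hf _ hq.1).2
  have h1 : (fun z : V × V => ψ.symm (p (ψ (f z.1)) + (1 - p) (ψ (g z.2)))) =ᶠ[𝓝 q'] R := by
    filter_upwards [pt_split hP hψ (hR q' hqK) h0, (continuous_fst.tendsto q').eventually hfR,
      (continuous_snd.tendsto q').eventually hgR] with z g1 g2 g3
    rw [g2, g3, ← g1.2.1, ← g1.2.2, ← split_add p, ψ.left_inv g1.1]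
  have h2 := ident (𝓘(ℂ, V).prod 𝓘(ℂ, V)) ((hc₁.prod hc₂).inter hK).isPreconnected
    (fun y hy => (ho.eventually_mem hy.1).mono fun z hz => (hS z hz).1)
    (fun y hy => (hR y hy.2).mono fun z hz => hz.1) ⟨hq, hqK⟩ h1
  obtain ⟨r, hr, hb⟩ := Metric.isOpen_iff.1 ho P hPN
  exact ⟨r, hr, _, fun y hy => hS y (hb hy), fun y hy => h2 y ⟨hb hy.1, hy.2⟩⟩

omit [FiniteDimensional ℂ V] [T2Space X] [IsManifold 𝓘(ℂ, V) ω X] in
theorem patch_nbhd {ψ : OpenPartialHomeomorph X V} {h : V → X} {w : V} {O : Set V} (hO : IsOpen O)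
    (hd : ∀ᶠ w' in 𝓝 w, MDifferentiableAt 𝓘(ℂ, V) 𝓘(ℂ, V) h w') (hs : h w ∈ ψ.source)
    (hw : ψ (h w) ∈ O) : ∃ r > 0, ∀ w' ∈ ball w r,
      (MDifferentiableAt 𝓘(ℂ, V) 𝓘(ℂ, V) h w' ∧ h w' ∈ ψ.source) ∧ ψ (h w') ∈ O := by
  have hc : ContinuousAt h w := hd.self_of_nhds.continuousAt
  have h1 := hc.eventually (ψ.open_source.mem_nhds hs)
  have h2 := ((ψ.continuousAt hs).comp hc).eventually (hO.mem_nhds hw)
  exact Metric.eventually_nhds_iff_ball.1 ((hd.and h1).and h2)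

omit [FiniteDimensional ℂ V] in
theorem patch_open (P : V →L[ℂ] V) (c : V) (r : ℝ) : IsOpen {v | ‖P (v - c)‖ < r} :=
  isOpen_lt (by fun_prop) continuous_const

omit [FiniteDimensional ℂ V] in
theorem patch_mem {c a b : V} {r : ℝ} (ha : ‖p (a - c)‖ < r / 2) (hb : ‖(1 - p) (b - c)‖ < r / 2) :
    p a + (1 - p) b ∈ ball c r := by
  have e : p a + (1 - p) b - c = p (a - c) + (1 - p) (b - c) := by
    simp only [map_sub, sub_apply]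
    abel
  rw [mem_ball, dist_eq_norm, e]
  exact (norm_add_le _ _).trans_lt (by linarith)

theorem axis1 (hP : PAtl p X) (hp : IsIdempotentElem p) {z₀ w₀ z : V} {σ : ℝ} (hσ : 0 < σ)
    (hz : z ∈ closedBall z₀ σ) {f : V → X}
    (hf : ∀ᶠ z' in 𝓝 z, MDifferentiableAt 𝓘(ℂ, V) 𝓘(ℂ, V) f z')
    (hfR : ∀ z' ∈ ball z₀ σ, f =ᶠ[𝓝 z'] fun x => R (x, w₀))
    (hR : ∀ y ∈ ball z₀ σ ×ˢ ({w₀} : Set V), ∀ᶠ q in 𝓝 y, PT V V p R q) :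
    LocExt p R (ball z₀ σ ×ˢ {w₀}) (z, w₀) := by
  set ψ := chartAt V (f z) with hψ
  obtain ⟨r, hr, hb⟩ := Metric.isOpen_iff.1 ψ.open_target _ (mem_chart_target V (f z))
  obtain ⟨r₁, hr₁, h1⟩ := patch_nbhd (ψ := ψ)
    ((patch_open p (ψ (f z)) (r / 2)).inter (patch_open (1 - p) (ψ (f z)) (r / 2))) hf
    (mem_chart_source V (f z)) (by simpa using hr)
  rw [← closure_ball z₀ hσ.ne'] at hz
  obtain ⟨z', hz1, hz2⟩ := mem_closure_iff_nhds.1 hz _ (ball_mem_nhds z hr₁)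
  have e : R (z', w₀) = f z' := (hfR z' hz2).eq_of_nhds.symm
  have hd : ∀ᶠ w in 𝓝 w₀, MDifferentiableAt 𝓘(ℂ, V) 𝓘(ℂ, V) (fun w => R (z', w)) w :=
    (((Continuous.prodMk_right z').tendsto w₀).eventually (hR (z', w₀) ⟨hz2, rfl⟩)).mono
      fun w hw => hw.md2
  obtain ⟨r₂, hr₂, h2⟩ := patch_nbhd (ψ := ψ) (patch_open (1 - p) (ψ (f z)) (r / 2)) hd
    (e ▸ (h1 z' hz1).1.2) (e ▸ (h1 z' hz1).2.2)
  exact patch hP hp isOpen_ball isOpen_ball (convex_ball z r₁) (convex_ball w₀ r₂)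
    ((convex_ball z₀ σ).prod (convex_singleton w₀)) (q' := (z', w₀)) ⟨hz1, mem_ball_self hr₂⟩
    ⟨hz2, rfl⟩ ⟨mem_ball_self hr₁, mem_ball_self hr₂⟩ hR (chart_mem_atlas V (f z))
    (fun x hx => (h1 x hx).1) (fun x hx => (h2 x hx).1)
    (fun x hx y hy => hb (patch_mem (h1 x hx).2.1 (h2 y hy).2)) (hfR z' hz2)
    Filter.EventuallyEq.rfl

theorem axis2 (hP : PAtl p X) (hp : IsIdempotentElem p) {z₀ w₀ w : V} {ρ : ℝ} (hρ : 0 < ρ)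
    (hw : w ∈ closedBall w₀ ρ) {g : V → X}
    (hg : ∀ᶠ w' in 𝓝 w, MDifferentiableAt 𝓘(ℂ, V) 𝓘(ℂ, V) g w')
    (hgR : ∀ w' ∈ ball w₀ ρ, g =ᶠ[𝓝 w'] fun y => R (z₀, y))
    (hR : ∀ y ∈ ({z₀} : Set V) ×ˢ ball w₀ ρ, ∀ᶠ q in 𝓝 y, PT V V p R q) :
    LocExt p R ({z₀} ×ˢ ball w₀ ρ) (z₀, w) := by
  set ψ := chartAt V (g w) with hψ
  obtain ⟨r, hr, hb⟩ := Metric.isOpen_iff.1 ψ.open_target _ (mem_chart_target V (g w))
  obtain ⟨r₁, hr₁, h1⟩ := patch_nbhd (ψ := ψ)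
    ((patch_open p (ψ (g w)) (r / 2)).inter (patch_open (1 - p) (ψ (g w)) (r / 2))) hg
    (mem_chart_source V (g w)) (by simpa using hr)
  rw [← closure_ball w₀ hρ.ne'] at hw
  obtain ⟨w', hw1, hw2⟩ := mem_closure_iff_nhds.1 hw _ (ball_mem_nhds w hr₁)
  have e : R (z₀, w') = g w' := (hgR w' hw2).eq_of_nhds.symm
  have hd : ∀ᶠ x in 𝓝 z₀, MDifferentiableAt 𝓘(ℂ, V) 𝓘(ℂ, V) (fun x => R (x, w')) x :=
    (((Continuous.prodMk_left w').tendsto z₀).eventually (hR (z₀, w') ⟨rfl, hw2⟩)).mono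
      fun x hx => hx.md1
  obtain ⟨r₂, hr₂, h2⟩ := patch_nbhd (ψ := ψ) (patch_open p (ψ (g w)) (r / 2)) hd
    (e ▸ (h1 w' hw1).1.2) (e ▸ (h1 w' hw1).2.1)
  exact patch hP hp isOpen_ball isOpen_ball (convex_ball z₀ r₂) (convex_ball w r₁)
    ((convex_singleton z₀).prod (convex_ball w₀ ρ)) (q' := (z₀, w')) ⟨mem_ball_self hr₂, hw1⟩
    ⟨rfl, hw2⟩ ⟨mem_ball_self hr₂, mem_ball_self hr₁⟩ hR (chart_mem_atlas V (g w))
    (fun x hx => (h2 x hx).1) (fun x hx => (h1 x hx).1)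
    (fun x hx y hy => hb (patch_mem (h2 x hx).2 (h1 y hy).2.2)) Filter.EventuallyEq.rfl
    (hgR w' hw2)

end Vale.Agent.P278
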