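import Vale.Agent.P278.Basic
import Vale.Agent.P278.Pull
import Vale.Agent.P278.Osg2

/-!
P278 task Pb: the pull-back of the tamed form under a holomorphic map from a vector space.

Plan. `pb_eq`: with `φ = chartAt V (Q z)`, `ψ ∘ Q =ᶠ (ψ ∘ φ.symm) ∘ (φ ∘ Q)`, chain rule, `K.compat`
for the pair `φ, ψ` at `y = φ (Q z)`. For the other two: fix `ψ = chartAt V (Q (ℓ x))`; near `ℓ x` the map
`g = ψ ∘ Q` is complex differentiable, so analytic at `ℓ x` (`osgood_at`), and `h = g ∘ ℓ` is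
`ContDiffAt ℝ 2` (`AnalyticAt.contDiffAt`, `ContDiffAt.restrict_scalars`); near `x`,
`pb K Q (ℓ z) (ℓ a) (ℓ b) = K.w ψ (h z) (fderiv ℝ h z a) (fderiv ℝ h z b)` by `pb_eq` and
`fderiv ℝ h z a = fderiv ℂ g (ℓ z) (ℓ a)`. Apply `pull_contDiffAt`, `pull_closed`.
Auxiliary names: start with `pb_`.
-/

namespace Vale.Agent.P278

open scoped Manifold ContDiff Topology

variable {V : Type*} [NormedAddCommGroup V] [NormedSpace ℂ V]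
  {X : Type*} [TopologicalSpace X] [ChartedSpace V X]
  {A : Type*} [NormedAddCommGroup A] [NormedSpace ℂ A]

/-- The pulled-back form. -/
noncomputable def pb (K : Kah V X) (Q : A → X) (z a b : A) : ℝ :=
  K.w (chartAt V (Q z)) (chartAt V (Q z) (Q z)) (fderiv ℂ (chartAt V (Q z) ∘ Q) z a)
    (fderiv ℂ (chartAt V (Q z) ∘ Q) z b)

variable [IsManifold 𝓘(ℂ, V) ω X]

theorem pb_diff {Q : A → X} {z : A} (hQ : MDifferentiableAt 𝓘(ℂ, A) 𝓘(ℂ, V) Q z)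
    {ψ : OpenPartialHomeomorph X V} (hψ : ψ ∈ atlas V X) (hz : Q z ∈ ψ.source) :
    DifferentiableAt ℂ (ψ ∘ Q) z :=
  mdifferentiableAt_iff_differentiableAt.1 ((mdifferentiableAt_atlas (I := 𝓘(ℂ, V)) hψ hz).comp z hQ)

theorem pb_eq (K : Kah V X) {Q : A → X} {z : A} (hQ : MDifferentiableAt 𝓘(ℂ, A) 𝓘(ℂ, V) Q z)
    {ψ : OpenPartialHomeomorph X V} (hψ : ψ ∈ atlas V X) (hz : Q z ∈ ψ.source) (a b : A) :
    pb K Q z a b = K.w ψ (ψ (Q z)) (fderiv ℂ (ψ ∘ Q) z a) (fderiv ℂ (ψ ∘ Q) z b) := by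
  have hφ := chart_mem_atlas V (Q z)
  have hs := mem_chart_source V (Q z)
  set φ := chartAt V (Q z) with hφ'
  have e : φ.symm (φ (Q z)) = Q z := φ.left_inv hs
  have h1 : ψ ∘ Q =ᶠ[𝓝 z] (ψ ∘ φ.symm) ∘ (φ ∘ Q) := by
    filter_upwards [hQ.continuousAt (φ.open_source.mem_nhds hs)] with w hw
    simp only [Function.comp, φ.left_inv hw]
  have h2 : DifferentiableAt ℂ (ψ ∘ φ.symm) (φ (Q z)) :=
    pb_diff (mdifferentiableAt_atlas_symm hφ (φ.map_source hs)) hψ (e.symm ▸ hz)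
  rw [h1.fderiv_eq, fderiv_comp z h2 (pb_diff hQ hφ hs), pb,
    K.compat φ hφ ψ hψ _ (φ.map_source hs) (e.symm ▸ hz), e]
  rfl

theorem pb_loc [FiniteDimensional ℂ A] [CompleteSpace V] (K : Kah V X) {Q : A → X}
    {T : Type*} [NormedAddCommGroup T] [NormedSpace ℝ T] (ℓ : T →L[ℝ] A) {x : T}
    (hQ : ∀ᶠ z in 𝓝 (ℓ x), MDifferentiableAt 𝓘(ℂ, A) 𝓘(ℂ, V) Q z) :
    ∃ ψ ∈ atlas V X, ∃ h : T → V, h x ∈ ψ.target ∧ ContDiffAt ℝ 2 h x ∧ ∀ a b,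
      (fun t => pb K Q (ℓ t) (ℓ a) (ℓ b)) =ᶠ[𝓝 x]
        fun t => K.w ψ (h t) (fderiv ℝ h t a) (fderiv ℝ h t b) := by
  have hψ := chart_mem_atlas V (Q (ℓ x))
  have h1 : ∀ᶠ z in 𝓝 (ℓ x), Q z ∈ (chartAt V (Q (ℓ x))).source :=
    hQ.self_of_nhds.continuousAt (chart_source_mem_nhds V _)
  refine ⟨_, hψ, (chartAt V (Q (ℓ x)) ∘ Q) ∘ ℓ, mem_chart_target V _, ?_, fun a b => ?_⟩
  · exact ((osgood_at ((hQ.and h1).mono fun z hz =>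
      pb_diff hz.1 hψ hz.2)).contDiffAt.restrict_scalars ℝ).comp x ℓ.contDiff.contDiffAt
  · filter_upwards [ℓ.continuous.continuousAt.tendsto.eventually (hQ.and h1)] with t ht
    rw [pb_eq K ht.1 hψ ht.2,
      (((pb_diff ht.1 hψ ht.2).hasFDerivAt.restrictScalars ℝ).comp t ℓ.hasFDerivAt).fderiv]
    rfl

theorem pb_contDiffAt [FiniteDimensional ℂ A] [CompleteSpace V] (K : Kah V X) {Q : A → X}
    {T : Type*} [NormedAddCommGroup T] [NormedSpace ℝ T] (ℓ : T →L[ℝ] A) {x : T}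
    (hQ : ∀ᶠ z in 𝓝 (ℓ x), MDifferentiableAt 𝓘(ℂ, A) 𝓘(ℂ, V) Q z) (a b : T) :
    ContDiffAt ℝ 1 (fun t => pb K Q (ℓ t) (ℓ a) (ℓ b)) x := by
  obtain ⟨ψ, hψ, h, h1, h2, h3⟩ := pb_loc K ℓ hQ
  exact (pull_contDiffAt h2 ((K.smooth ψ hψ).contDiffAt (ψ.open_target.mem_nhds h1))
    a b).congr_of_eventuallyEq (h3 a b)

theorem pb_closed [FiniteDimensional ℂ A] [CompleteSpace V] (K : Kah V X) {Q : A → X}
    {T : Type*} [NormedAddCommGroup T] [NormedSpace ℝ T] (ℓ : T →L[ℝ] A) {x : T}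
    (hQ : ∀ᶠ z in 𝓝 (ℓ x), MDifferentiableAt 𝓘(ℂ, A) 𝓘(ℂ, V) Q z) (a b c : T) :
    fderiv ℝ (fun t => pb K Q (ℓ t) (ℓ b) (ℓ c)) x a +
      fderiv ℝ (fun t => pb K Q (ℓ t) (ℓ c) (ℓ a)) x b +
      fderiv ℝ (fun t => pb K Q (ℓ t) (ℓ a) (ℓ b)) x c = 0 := by
  obtain ⟨ψ, hψ, h, h1, h2, h3⟩ := pb_loc K ℓ hQ
  rw [(h3 b c).fderiv_eq, (h3 c a).fderiv_eq, (h3 a b).fderiv_eq]
  exact pull_closed h2 ((K.smooth ψ hψ).contDiffAt (ψ.open_target.mem_nhds h1))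
    (K.alt ψ hψ _ h1) (K.closed ψ hψ _ h1) a b c

end Vale.Agent.P278
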