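import Mathlib

/-!
P278 task PiM: differentiability of maps into a finite product of manifolds.

Plan. Unfold with `mdifferentiableAt_iff` and `mfderiv`; `continuousAt_pi`;
`writtenInExtChartAt I (ModelWithCorners.pi _) x h = fun t i => writtenInExtChartAt I 𝓘(ℂ, W i) x (h · i) t`
holds by `rfl`/`ext` (`piChartedSpace_chartAt`); then `differentiableWithinAt_pi`, `fderivWithin_pi` or
`hasFDerivWithinAt_pi` with `HasMFDerivAt.mfderiv`.
Auxiliary names: start with `pim_`.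
-/

namespace Vale.Agent.P278

open scoped Manifold

variable {ι : Type*} [Fintype ι] {W : ι → Type*} [∀ i, NormedAddCommGroup (W i)]
  [∀ i, NormedSpace ℂ (W i)] {Y : ι → Type*} [∀ i, TopologicalSpace (Y i)]
  [∀ i, ChartedSpace (W i) (Y i)] {A H N : Type*} [NormedAddCommGroup A] [NormedSpace ℂ A]
  [TopologicalSpace H] {I : ModelWithCorners ℂ A H} [TopologicalSpace N] [ChartedSpace H N]

theorem pim_iff {h : N → ∀ i, Y i} {x : N} {f : A →L[ℂ] ∀ i, W i} :
    HasMFDerivAt I (ModelWithCorners.pi fun i => 𝓘(ℂ, W i)) h x f ↔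
      ∀ i, HasMFDerivAt I 𝓘(ℂ, W i) (fun z => h z i) x ((ContinuousLinearMap.proj i).comp f) :=
  ⟨fun a i => ⟨continuousAt_pi.1 a.1 i, hasFDerivWithinAt_pi'.1 a.2 i⟩, fun a =>
    ⟨continuousAt_pi.2 fun i => (a i).1, hasFDerivWithinAt_pi'.2 fun i => (a i).2⟩⟩

theorem pi_md_iff {h : N → ∀ i, Y i} {x : N} :
    MDifferentiableAt I (ModelWithCorners.pi fun i => 𝓘(ℂ, W i)) h x ↔
      ∀ i, MDifferentiableAt I 𝓘(ℂ, W i) (fun z => h z i) x :=
  ⟨fun a i => (pim_iff.1 a.hasMFDerivAt i).mdifferentiableAt, fun a =>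
    (pim_iff (f := ContinuousLinearMap.pi (M := A) (φ := W) fun i =>
      mfderiv I 𝓘(ℂ, W i) (fun z => h z i) x)).2
      (fun i => (a i).hasMFDerivAt) |>.mdifferentiableAt⟩

theorem pi_mfderiv {h : N → ∀ i, Y i} {x : N}
    (hh : MDifferentiableAt I (ModelWithCorners.pi fun i => 𝓘(ℂ, W i)) h x) (v : A) (i : ι) :
    (mfderiv I (ModelWithCorners.pi fun i => 𝓘(ℂ, W i)) h x v : ∀ j, W j) i =
      mfderiv I 𝓘(ℂ, W i) (fun z => h z i) x v := by
  rw [(pim_iff.1 hh.hasMFDerivAt i).mfderiv]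
  rfl

theorem md_eval (i : ι) :
    MDifferentiable (ModelWithCorners.pi fun i => 𝓘(ℂ, W i)) 𝓘(ℂ, W i) fun y : ∀ j, Y j => y i :=
  fun _ => (pi_md_iff (h := id)).1 mdifferentiableAt_id i

end Vale.Agent.P278
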