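import Vale.Agent.P278.Glob
import Vale.Agent.P278.Ids2
import Vale.Agent.P278.Factor
import Vale.Agent.P278.PiM

/-!
P278 task Phi: the product decomposition for a product atlas with rectangles.

Plan. `V = ∀ j, W j`, `p i = pr W i` (idempotent, `p i * p j = 0`, `∑ p i = 1`; prove these first). Fix
`x₀`, choose `S i` by `exists_brk`. `Z i = {x | S i (x, x₀) = x}`, `r i x = ⟨S i (x, x₀), Brk.left ..⟩ : Z i`,
charted by `exists_factor` with `j = ContinuousLinearMap.single ℂ W i`, `π = ContinuousLinearMap.proj i`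
and `Brk.plaque`; simply connected by `sc_retract` (so connected). `Φ x i = r i x`, inverse
`G y = (List.finRange k).foldr (fun j m => S j ((y j).1, m)) x₀`: `G (Φ x) = x` by `Brk.left` (induction on
the list) and `brk_fold`; `Φ (G y) = y` by `brk_unfold`. `Φ` is differentiable by `pi_md_iff`, `G` by
induction on the list with `md_eval`, `Brk.md`; continuity follows (`MDifferentiable.continuous`).
Last claim: `(dΦ v) j = (mfderiv (S j (·, x₀)) m v) j` (`pi_mfderiv`), which vanishes if `p j v = 0`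
(`Brk.kill`). So `p i v = v` gives `(dΦ v) j = 0` for `j ≠ i`. Conversely `dΦ` is onto (chain rule for
`Φ ∘ G = id` at `Φ m`, `G (Φ m) = m`); if `dΦ u = w` and `w j = 0` for `j ≠ i`, take `v = p i u`
(`u - v` is killed by `p i`).
Auxiliary names: start with `phi_`.
-/

namespace Vale.Agent.P278

open scoped Manifold ContDiff Topology

theorem vprod {k : ℕ} (W : Fin k → Type) [∀ i, NormedAddCommGroup (W i)]
    [∀ i, NormedSpace ℂ (W i)] [∀ i, FiniteDimensional ℂ (W i)] {M : Type*} [TopologicalSpace M]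
    [T2Space M] [SecondCountableTopology M] [SimplyConnectedSpace M] [ChartedSpace (∀ j, W j) M]
    [IsManifold 𝓘(ℂ, ∀ j, W j) ω M] (hP : ∀ i, PAtl (pr W i) M) (hE : ∀ i, EXT (pr W i) M) :
    Decomp W (∀ j, W j) (M := M) fun i _ v => pr W i v = v := by
  have hp : ∀ i, IsIdempotentElem (pr W i) := fun i => by
    ext v j
    simp [pr]
  have hpp : ∀ i j, i ≠ j → pr W i * pr W j = 0 := fun i j hij => by
    refine ContinuousLinearMap.ext fun v => ?_
    simp [pr, Pi.single_eq_of_ne hij]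
  have hsum : ∑ i, pr W i = 1 := by
    refine ContinuousLinearMap.ext fun v => ?_
    simp [pr, Finset.univ_sum_single]
  obtain ⟨x₀⟩ : Nonempty M := inferInstance
  choose S hS using fun i => exists_brk (hP i) (hp i) (hE i) x₀
  choose cs hman hval hh using fun i => exists_factor (p := pr W i)
    (ContinuousLinearMap.single ℂ W i) (ContinuousLinearMap.proj i) (by simp) (fun _ => rfl)
    {x | S i (x, x₀) = x} fun y hy => (hS i).plaque (hP i) (hp i) hy
  obtain ⟨r, hr⟩ : ∃ r : ∀ i, M → {x | S i (x, x₀) = x}, ∀ i,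
      Subtype.val ∘ r i = fun x => S i (x, x₀) :=
    ⟨fun i x => ⟨S i (x, x₀), (hS i).left (hp i) x x₀ x₀⟩, fun _ => rfl⟩
  have hr' : ∀ i x, (r i x).1 = S i (x, x₀) := fun i x => congrFun (hr i) x
  have hmd : ∀ i, MDifferentiable 𝓘(ℂ, ∀ j, W j) 𝓘(ℂ, ∀ j, W j) (Subtype.val ∘ r i) := fun i => by
    rw [hr]
    exact (hS i).md.comp (mdifferentiable_id.prodMk mdifferentiable_const)
  have hΦ : MDifferentiable 𝓘(ℂ, ∀ j, W j) (ModelWithCorners.pi fun i => 𝓘(ℂ, W i))
      fun x i => r i x := fun x => pi_md_iff.2 fun i => (hh i (r i) x (hmd i x)).1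
  have hG : ∀ l : List (Fin k), MDifferentiable (ModelWithCorners.pi fun i => 𝓘(ℂ, W i))
      𝓘(ℂ, ∀ j, W j) fun y : ∀ i, {x | S i (x, x₀) = x} =>
        l.foldr (fun j m => S j ((y j).1, m)) x₀ := by
    intro l
    induction l with
    | nil => exact mdifferentiable_const
    | cons j l ih => exact (hS j).md.comp (((hval j).comp (md_eval j)).prodMk ih)
  obtain ⟨Φ, h1, h2⟩ : ∃ Φ : M ≃ₜ ∀ i, {x | S i (x, x₀) = x}, (⇑Φ = fun x i => r i x) ∧
      ⇑Φ.symm = fun y => (List.finRange k).foldr (fun j m => S j ((y j).1, m)) x₀ := by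
    refine ⟨⟨⟨fun x i => r i x, fun y => (List.finRange k).foldr (fun j m => S j ((y j).1, m)) x₀,
      fun x => ?_, fun y => funext fun i => Subtype.ext ?_⟩, hΦ.continuous,
      (hG _).continuous⟩, rfl, rfl⟩
    · simp only [hr', fun i => (hS i).left (hp i)]
      exact brk_fold hS hpp hsum x
    · rw [hr']
      exact (brk_unfold hS hp hpp (fun j => (y j).1) i _ (List.mem_finRange i)).trans (y i).2
  have hG' := hG (List.finRange k)
  rw [← h2] at hG'
  have key : ∀ m j (v : ∀ j, W j), pr W j v = 0 → (mfderiv 𝓘(ℂ, ∀ j, W j)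
      (ModelWithCorners.pi fun i => 𝓘(ℂ, W i)) Φ m v : ∀ j, W j) j = 0 := by
    intro m j v hv
    rw [h1, pi_mfderiv (hΦ m) v j]
    refine ((hh j (r j) m (hmd j m)).2 v).trans ?_
    rw [hr, (hS j).kill (hP j) (hp j) m hv]
    rfl
  rw [← h1] at hΦ
  refine ⟨fun i => {x | S i (x, x₀) = x}, fun _ => inferInstance, cs, fun i => ?_, Φ, hΦ, hG',
    fun m i w => ⟨?_, fun hw => ?_⟩⟩
  · have : SimplyConnectedSpace {x | S i (x, x₀) = x} :=
      sc_retract (r := r i) continuous_subtype_val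
        (continuous_induced_rng.2 (hmd i).continuous) fun b => Subtype.ext ((hr' i b).trans b.2)
    exact ⟨hman i, inferInstance, inferInstance, inferInstance, this⟩
  · rintro ⟨v, hv, rfl⟩ j hj
    refine key m j v ?_
    rw [← hv]
    exact DFunLike.congr_fun (hpp j i hj) v
  · obtain ⟨D, hD⟩ : ∃ D : (∀ j, W j) →L[ℂ] ∀ j, W j, D = mfderiv 𝓘(ℂ, ∀ j, W j)
        (ModelWithCorners.pi fun i => 𝓘(ℂ, W i)) Φ m := ⟨_, rfl⟩
    obtain ⟨u, hu⟩ : ∃ u, D u = w := by
      have e := mfderiv_comp_apply_of_eq (Φ m) (hΦ m) (hG' (Φ m)) (Φ.symm_apply_apply m) w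
      rw [Φ.self_comp_symm, mfderiv_id] at e
      exact ⟨_, hD ▸ e.symm⟩
    have hk := key m
    rw [← hD] at hk
    have hi : pr W i (pr W i u) = pr W i u := DFunLike.congr_fun (hp i) u
    refine ⟨pr W i u, hi, ?_⟩
    rw [← hD]
    refine funext fun j => ?_
    by_cases hj : j = i
    · subst hj
      have e : D (u - pr W j u) j = 0 := hk j _ (by rw [map_sub, hi, sub_self])
      rw [map_sub, hu, Pi.sub_apply, sub_eq_zero] at e
      exact e.symm
    · exact (hk j _ (DFunLike.congr_fun (hpp j i hj) u)).trans (hw j hj).symm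

theorem pr_idem {ι : Type*} [Fintype ι] [DecidableEq ι] (W : ι → Type*)
    [∀ i, NormedAddCommGroup (W i)] [∀ i, NormedSpace ℂ (W i)] (i : ι) :
    IsIdempotentElem (pr W i) := by
  ext v j
  simp [pr]

end Vale.Agent.P278
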