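import Mathlib

/-!
P278 task Proj: holomorphic frames of a splitting give holomorphic projector fields.

Plan. Let `C = (i : ι) → Fin (r i) → ℂ` and `B y : C →L[ℂ] E`, `c ↦ ∑ i, ∑ j, c i j • s i j y`
(a finite sum of `ContinuousLinearMap.smulRight` of coordinate projections, differentiable in `y`).
For `y ∈ W` it is bijective (`DirectSum.IsInternal.submodule_iSupIndep`, `.submodule_iSup_eq_top`,
or `DirectSum.IsInternal.collectedBasis`), hence a continuous linear equivalence
(`ContinuousLinearEquiv.ofBijective`/`LinearEquiv.toContinuousLinearEquiv`). Put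
`P i y = (B y) ∘ (single i ∘ proj i) ∘ (B y).inverse`; differentiability from
`contDiffAt_map_inverse` (or `IsInvertible.contDiffAt_map_inverse`) and `clm_comp`.
Auxiliary names: start with `proj_`.
-/

namespace Vale.Agent.P278

theorem exists_proj {ι E : Type*} [Fintype ι] [DecidableEq ι] [NormedAddCommGroup E]
    [NormedSpace ℂ E] [FiniteDimensional ℂ E] {D : ι → E → Submodule ℂ E} {W : Set E}
    (hW : IsOpen W) {r : ι → ℕ} (s : ∀ i, Fin (r i) → E → E)
    (hs : ∀ i j, DifferentiableOn ℂ (s i j) W)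
    (hli : ∀ y ∈ W, ∀ i, LinearIndependent ℂ (fun j => s i j y))
    (hsp : ∀ y ∈ W, ∀ i, Submodule.span ℂ (Set.range fun j => s i j y) = D i y)
    (hint : ∀ y ∈ W, DirectSum.IsInternal (fun i => D i y)) :
    ∃ P : ι → E → E →L[ℂ] E, (∀ i, DifferentiableOn ℂ (P i) W) ∧ ∀ y ∈ W, ∑ i, P i y = 1 ∧
      (∀ i v, P i y v ∈ D i y) ∧ (∀ i, ∀ v ∈ D i y, P i y v = v) ∧
      ∀ i j, i ≠ j → ∀ v ∈ D j y, P i y v = 0 := by
  obtain ⟨B, hB, hB'⟩ : ∃ B : ι → E → ((Σ i, Fin (r i)) → ℂ) →L[ℂ] E,
      (∀ i, DifferentiableOn ℂ (B i) W) ∧ ∀ i y c, B i y c = ∑ j, c ⟨i, j⟩ • s i j y := by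
    refine ⟨fun i y => ∑ j, ContinuousLinearMap.smulRightL ℂ ((Σ i, Fin (r i)) → ℂ) E
      (ContinuousLinearMap.proj ⟨i, j⟩) (s i j y), fun i => ?_, fun i y c => ?_⟩
    · exact DifferentiableOn.fun_sum fun j _ =>
        (ContinuousLinearMap.differentiable _).comp_differentiableOn (hs i j)
    · rw [ContinuousLinearMap.sum_apply]
      rfl
  have hb : ∀ y ∈ W, ∃ b : Module.Basis (Σ i, Fin (r i)) ℂ E, (∀ i j, b ⟨i, j⟩ = s i j y) ∧
      ((b.equivFun.symm.toContinuousLinearEquiv : ((Σ i, Fin (r i)) → ℂ) ≃L[ℂ] E) :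
        ((Σ i, Fin (r i)) → ℂ) →L[ℂ] E) = ∑ i, B i y := fun y hy => by
    have h1 : ∀ i j, (hint y hy).collectedBasis (fun i => (Module.Basis.span (hli y hy i)).map
        (LinearEquiv.ofEq _ _ (hsp y hy i))) ⟨i, j⟩ = s i j y := fun i j => by
      rw [DirectSum.IsInternal.collectedBasis_coe]
      exact Module.Basis.coe_span_apply (hli y hy i) j
    refine ⟨_, h1, ContinuousLinearMap.ext fun c => ?_⟩
    rw [ContinuousLinearMap.sum_apply]
    refine (Module.Basis.equivFun_symm_apply _ c).trans ?_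
    rw [Fintype.sum_sigma]
    simp only [h1, hB']
  refine ⟨fun i y => (B i y).comp (∑ i, B i y).inverse, fun i => (hB i).clm_comp fun y hy => ?_,
    fun y hy => ?_⟩
  · obtain ⟨b, -, h2⟩ := hb y hy
    have h3 := (contDiffAt_map_inverse (n := 1)
      b.equivFun.symm.toContinuousLinearEquiv).differentiableAt one_ne_zero
    rw [h2] at h3
    exact h3.comp_differentiableWithinAt y (DifferentiableOn.fun_sum (fun i _ => hB i) y hy)
  obtain ⟨b, h1, h2⟩ := hb y hy
  have h3 : ∀ i v, (B i y).comp (∑ i, B i y).inverse v = ∑ j, b.repr v ⟨i, j⟩ • s i j y :=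
    fun i v => by
      rw [ContinuousLinearMap.comp_apply, hB', ← h2, ContinuousLinearMap.inverse_equiv]
      rfl
  have h4 : ∀ i k, ∀ v ∈ D k y, (B i y).comp (∑ i, B i y).inverse v = if i = k then v else 0 := by
    intro i k v hv
    rw [← hsp y hy k] at hv
    induction hv using Submodule.span_induction with
    | mem v hv =>
      obtain ⟨l, rfl⟩ := hv
      rw [h3]
      beta_reduce
      rw [← h1 k l, b.repr_self]
      split_ifs with h
      · subst h
        rw [Finset.sum_eq_single l, Finsupp.single_eq_same, one_smul, h1]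
        · intro j _ hj
          have h5 : (⟨i, j⟩ : Σ i, Fin (r i)) ≠ ⟨i, l⟩ := fun h =>
            hj (sigma_mk_injective (β := fun i => Fin (r i)) h)
          rw [Finsupp.single_eq_of_ne h5, zero_smul]
        · exact fun h => absurd (Finset.mem_univ l) h
      · exact Finset.sum_eq_zero fun j _ => by
          rw [Finsupp.single_eq_of_ne fun h' => h (Sigma.mk.inj h').1, zero_smul]
    | zero => rw [map_zero, ite_self]
    | add u v _ _ hu hv =>
      rw [map_add, hu, hv]
      split_ifs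
      · rfl
      · exact add_zero 0
    | smul c v _ hv =>
      rw [map_smul, hv]
      split_ifs
      · rfl
      · exact smul_zero c
  refine ⟨ContinuousLinearMap.ext fun v => ?_, fun i v => ?_, fun i v hv => ?_,
    fun i j hij v hv => ?_⟩
  · rw [ContinuousLinearMap.sum_apply, ContinuousLinearMap.one_apply]
    simp only [h3, ← h1]
    rw [← Fintype.sum_sigma (fun a => b.repr v a • b a), b.sum_repr]
  · rw [h3, ← hsp y hy i]
    exact Submodule.sum_mem _ fun j _ => Submodule.smul_mem _ _ (Submodule.subset_span ⟨j, rfl⟩)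
  · rw [h4 i i v hv, if_pos rfl]
  · rw [h4 i j v hv, if_neg hij]

end Vale.Agent.P278
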