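import Vale.Agent.P278.Esc
import Vale.Agent.P278.Split0
import Vale.Agent.P278.Ann3

/-!
P278 task Step: one decay step for the scale-invariant derivative on a thick cone.

Plan. Let `r = ‖u‖ > 0` (as `0 < K s ≤ r`), `s' = r/(K L)`, `x = c.Q (pt u s')`, `ψ = c.ch x`,
`g = ψ ∘ c.Q`, `a z = fderiv ℂ g z (1,0)`, `b z = fderiv ℂ g z (0,1)`.
(1) For `r/L ≤ ‖v‖ ≤ r L`: `pt v s'` maps into the source with `‖g (pt v s') - ψ x‖ ≤ Λ (L+4) η < δ`: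
`Ctx.escape` along `γ t = pt (u * exp (t * k)) s'`, `k = Complex.log (v/u)`,
`‖k‖ ≤ |log (‖v‖/r)| + π ≤ L + 4`, `‖u exp (t k)‖ = r exp (t log (‖v‖/r)) ∈ [r/L, r L]`,
`‖γ'‖ = ‖k‖ ‖u exp (t k)‖`; these points satisfy `K s' ≤ ‖·‖ ≤ K L² s'` and `‖·‖ ≤ ρ`.
(2) `h v = c.p (g (pt v s'))` and `k v = (1 - c.p) (g (pt v s'))` are analytic at each point of the closed
annulus (differentiable nearby: `D` open, `Q` continuous, source open; `DifferentiableOn.analyticAt`),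
`deriv h v = c.p (a - b) = a (pt v s')`, `deriv k v = -b (pt v s')` (`tan1`, `tan2`), and
`‖v‖ ‖deriv h v‖ ≤ Λ² τ`, same for `k` (`np`, `nq`, `up`, `hτ`). `three_annulus` gives
`r ‖a (pt u s')‖ ≤ 8Λ²τ/L` and `‖u'‖ ‖b (pt u' s')‖ ≤ 8Λ²τ/L` for `u' = u + s - s'`, where
`|s - s'| ≤ r/K ≤ r/2`, so `r/2 ≤ ‖u'‖ ≤ 3r/2`.
(3) `Ctx.escape_seg` from `pt u s'` in direction `(0, -(s - s'))` (points `pt u σ`, `σ` between `s`
and `s'`, `μ = η`) and then from `pt u s` in direction `(s - s', 0)` (points `pt (u + t(s-s')) (s - t(s-s'))`,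
which satisfy the hypotheses of `hη`, `μ = η`); `Ctx.d1_const`, `Ctx.d2_const` give
`a (pt u s) = a (pt u s')`, `b (pt u s) = b (pt u' s')`.
(4) `c.lo`: `r m ≤ Λ r (‖a‖ + ‖b‖) ≤ 24 Λ³ τ / L ≤ τ/2`.
Auxiliary names: start with `step_`.
-/

namespace Vale.Agent.P278

open Set Filter

section

variable {X V : Type*} [TopologicalSpace X] [NormedAddCommGroup V] [NormedSpace ℂ V]

theorem step_pt (s : ℝ) (v : ℂ) : HasDerivAt (fun v => pt v s) (1, -1) v :=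
  (hasDerivAt_id v).prodMk ((hasDerivAt_neg v).sub_const _)

theorem step_deriv (c : Ctx X V) (q : V →L[ℂ] V) {x : X} {s : ℝ} {v : ℂ} (h : pt v s ∈ c.D)
    (h' : c.Q (pt v s) ∈ (c.ch x).source) : HasDerivAt (fun v => q (c.ch x (c.Q (pt v s))))
      (q (fderiv ℂ (c.ch x ∘ c.Q) (pt v s) (1, -1))) v := by
  have := (c.diff x _ h h').hasFDerivAt.comp_hasDerivAt v (step_pt s v)
  exact q.hasFDerivAt.comp_hasDerivAt v this

theorem step_ann [FiniteDimensional ℂ V] (c : Ctx X V) {q : V →L[ℂ] V} (hq : ‖q‖ ≤ c.Λ) {x : X}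
    {s r L τ : ℝ} (hr : 0 < r) (hL : 4 ≤ L)
    (h : ∀ v : ℂ, r / L ≤ ‖v‖ → ‖v‖ ≤ r * L → pt v s ∈ c.D ∧ c.Q (pt v s) ∈ (c.ch x).source ∧
      ‖c.ch x (c.Q (pt v s)) - c.ch x x‖ ≤ c.δ ∧ ‖v‖ * c.m (pt v s) ≤ τ)
    {w : ℂ} (h₁ : r / 2 ≤ ‖w‖) (h₂ : ‖w‖ ≤ 2 * r) :
    ‖w‖ * ‖q (fderiv ℂ (c.ch x ∘ c.Q) (pt w s) (1, -1))‖ ≤ 8 * (c.Λ ^ 2 * τ) / L := by
  have := FiniteDimensional.complete ℂ V
  have hΛ := c.Λge
  obtain ⟨a, b, -⟩ := h w (le_trans (by gcongr; linarith) h₁) (h₂.trans (by nlinarith))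
  rw [← (step_deriv c q a b).deriv]
  refine three_annulus hr hL (fun v v1 v2 => ?_) (fun v v1 v2 => ?_) h₁ h₂
  · obtain ⟨a, b, -⟩ := h v v1 v2
    rw [Complex.analyticAt_iff_eventually_differentiableAt]
    filter_upwards [(step_pt s v).continuousAt.eventually (c.split a b)] with z hz
    exact (step_deriv c q hz.1 hz.2.1).differentiableAt
  · obtain ⟨a, b, d, e⟩ := h v v1 v2
    rw [(step_deriv c q a b).deriv]
    have h3 : ‖fderiv ℂ (c.ch x ∘ c.Q) (pt v s) (1, -1)‖ ≤ c.Λ * c.m (pt v s) :=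
      (ContinuousLinearMap.le_opNorm _ _).trans (by simpa using c.up x _ a b d)
    calc _ ≤ ‖v‖ * (c.Λ * (c.Λ * c.m (pt v s))) := by
          gcongr
          exact (q.le_opNorm _).trans (by gcongr)
      _ = c.Λ ^ 2 * (‖v‖ * c.m (pt v s)) := by ring
      _ ≤ _ := by gcongr

theorem step_p (c : Ctx X V) {x : X} {z : ℂ × ℂ} (h : z ∈ c.D) (h' : c.Q z ∈ (c.ch x).source) :
    c.p (fderiv ℂ (c.ch x ∘ c.Q) z (1, -1)) = fderiv ℂ (c.ch x ∘ c.Q) z (1, 0) ∧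
    (1 - c.p) (fderiv ℂ (c.ch x ∘ c.Q) z (1, -1)) = -fderiv ℂ (c.ch x ∘ c.Q) z (0, 1) ∧
    fderiv ℂ (c.ch x ∘ c.Q) z (1, -1) =
      fderiv ℂ (c.ch x ∘ c.Q) z (1, 0) - fderiv ℂ (c.ch x ∘ c.Q) z (0, 1) := by
  have e : fderiv ℂ (c.ch x ∘ c.Q) z (1, -1) =
      fderiv ℂ (c.ch x ∘ c.Q) z (1, 0) - fderiv ℂ (c.ch x ∘ c.Q) z (0, 1) := by
    rw [← map_sub]
    simp
  have e' : c.p (fderiv ℂ (c.ch x ∘ c.Q) z (1, -1)) = fderiv ℂ (c.ch x ∘ c.Q) z (1, 0) := by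
    rw [e, map_sub, c.tan1 x z h h', c.tan2 x z h h', sub_zero]
  refine ⟨e', ?_, e⟩
  change _ - c.p _ = _
  rw [e', e]
  simp

theorem step_spiral [T2Space X] [FiniteDimensional ℂ V] (c : Ctx X V) {L η s : ℝ} {u : ℂ}
    (hu : 0 < ‖u‖) (hL : 1 ≤ L) (hηδ : c.Λ * ((L + 4) * η) < c.δ)
    (h : ∀ v : ℂ, ‖u‖ / L ≤ ‖v‖ → ‖v‖ ≤ ‖u‖ * L → pt v s ∈ c.D ∧ ‖v‖ * c.m (pt v s) ≤ η)
    {v : ℂ} (h₁ : ‖u‖ / L ≤ ‖v‖) (h₂ : ‖v‖ ≤ ‖u‖ * L) :
    c.Q (pt v s) ∈ (c.ch (c.Q (pt u s))).source ∧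
      ‖c.ch (c.Q (pt u s)) (c.Q (pt v s)) - c.ch (c.Q (pt u s)) (c.Q (pt u s))‖ ≤ c.δ := by
  have hL0 : 0 < L := by linarith
  have hv : 0 < ‖v‖ := lt_of_lt_of_le (by positivity) h₁
  have hu0 := norm_pos_iff.1 hu
  set k := Complex.log (v / u) with hk
  have e1 : |k.re| ≤ Real.log L := by
    rw [hk, Complex.log_re, norm_div, abs_le, ← Real.log_inv]
    constructor <;> refine Real.log_le_log (by positivity) ?_
    · rwa [le_div_iff₀ hu, inv_mul_eq_div]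
    · rwa [div_le_iff₀' hu]
  have e2 : ‖k‖ ≤ L + 4 := by
    have := Complex.norm_le_abs_re_add_abs_im k
    have h3 : |k.im| ≤ Real.pi := by rw [hk, Complex.log_im]; exact Complex.abs_arg_le_pi _
    linarith [Real.log_le_sub_one_of_pos hL0, Real.pi_le_four]
  have key := c.escape (γ := fun t : ℝ => pt (u * Complex.exp (t * k)) s)
    (γ' := fun t : ℝ => (u * Complex.exp (t * k) * k, -(u * Complex.exp (t * k) * k)))
    (μ := (L + 4) * η) (x := c.Q (pt u s)) (fun t ht => ?_) (by simpa using c.mem _)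
    (by simpa using hηδ) 1 ⟨zero_le_one, le_rfl⟩
  · have e : u * Complex.exp k = v := by
      rw [hk, Complex.exp_log (div_ne_zero (norm_pos_iff.1 hv) hu0), mul_div_cancel₀ _ hu0]
    simp only [Complex.ofReal_one, one_mul, e, Complex.ofReal_zero, zero_mul, Complex.exp_zero,
      mul_one] at key
    exact ⟨key.1, key.2.trans hηδ.le⟩
  have e3 : |t * k.re| ≤ Real.log L := by
    rw [abs_mul, abs_of_nonneg ht.1]
    exact (mul_le_of_le_one_left (abs_nonneg _) ht.2).trans e1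
  have e4 : ‖u * Complex.exp (t * k)‖ = ‖u‖ * Real.exp (t * k.re) := by
    rw [norm_mul, Complex.norm_exp, Complex.re_ofReal_mul]
  obtain ⟨a, b⟩ := h (u * Complex.exp (t * k))
    (by
      rw [e4, div_eq_mul_inv, ← Real.exp_log hL0, ← Real.exp_neg]
      gcongr
      exact (abs_le.1 e3).1)
    (by
      rw [e4, ← Real.exp_log hL0]
      gcongr
      exact (abs_le.1 e3).2)
  have d : HasDerivAt (fun t : ℝ => u * Complex.exp (t * k)) (u * Complex.exp (t * k) * k) t := by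
    simpa [mul_assoc] using (((hasDerivAt_id (t : ℂ)).mul_const k).cexp.const_mul u).comp_ofReal
  refine ⟨d.prodMk (d.neg.sub_const _), a, ?_⟩
  rw [Prod.norm_mk, norm_neg, max_self, norm_mul, mul_right_comm, mul_comm]
  exact mul_le_mul e2 b (mul_nonneg (norm_nonneg _) (c.mnn _)) (by linarith)

end

theorem step_ar1 {K M r s d t : ℝ} (hs : 0 < s) (hd : 0 < s + d) (a : K * s ≤ r)
    (b : K * (s + d) ≤ r) (a' : r ≤ M * s) (b' : r ≤ M * (s + d)) (ht : t ∈ Icc (0 : ℝ) 1) :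
    0 < s + t * d ∧ K * (s + t * d) ≤ r ∧ r ≤ M * (s + t * d) := by
  have t1 := sub_nonneg.2 ht.2
  have t0 := ht.1
  refine ⟨?_, ?_, ?_⟩
  · rcases le_total 0 d with h | h <;> nlinarith
  · linarith [mul_le_mul_of_nonneg_left a t1, mul_le_mul_of_nonneg_left b t0]
  · linarith [mul_le_mul_of_nonneg_left a' t1, mul_le_mul_of_nonneg_left b' t0]

theorem step_ar2 {K r s d : ℝ} (hK : 2 ≤ K) (hs : 0 < s) (hd : 0 < s + d) (a : K * s ≤ r)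
    (b : K * (s + d) ≤ r) : |d| ≤ r / 2 :=
  abs_le.2 ⟨by nlinarith, by nlinarith⟩

theorem step_ar3 {Λ L τ r r' A B m : ℝ} (hΛ : 1 ≤ Λ) (hL : 48 * Λ ^ 3 ≤ L) (hτ : 0 ≤ τ)
    (hr : 0 ≤ r) (hr' : r ≤ 2 * r') (hB : 0 ≤ B) (a : r * A ≤ 8 * (Λ ^ 2 * τ) / L)
    (b : r' * B ≤ 8 * (Λ ^ 2 * τ) / L) (h : m ≤ Λ * (A + B)) : r * m ≤ τ / 2 := by
  have hL0 : 0 < L := lt_of_lt_of_le (by positivity) hL
  calc _ ≤ r * (Λ * (A + B)) := by gcongr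
    _ = Λ * (r * A + r * B) := by ring
    _ ≤ Λ * (3 * (8 * (Λ ^ 2 * τ) / L)) := by
      gcongr
      linarith [mul_le_mul_of_nonneg_right hr' hB]
    _ ≤ _ := by
      rw [← mul_div_assoc, ← mul_div_assoc, div_le_iff₀ hL0]
      linarith [mul_le_mul_of_nonneg_left hL hτ]

theorem Ctx.step {X V : Type*} [TopologicalSpace X] [T2Space X] [NormedAddCommGroup V]
    [NormedSpace ℂ V] [FiniteDimensional ℂ V] (c : Ctx X V) {K L η ρ₀ ρ τ : ℝ} (hK : 2 ≤ K)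
    (hL : 48 * c.Λ ^ 3 ≤ L) (hηδ : c.Λ * ((L + 4) * η) < c.δ) (hρ : ρ ≤ ρ₀) (hτ0 : 0 ≤ τ)
    (hη : ∀ (v : ℂ) (σ : ℝ), 0 < σ → ‖v‖ ≤ 2 * ρ₀ → K / 2 * σ ≤ ‖v‖ → ‖v‖ ≤ 2 * K * L ^ 2 * σ →
      pt v σ ∈ c.D ∧ ‖v‖ * c.m (pt v σ) ≤ η)
    (hτ : ∀ (v : ℂ) (σ : ℝ), 0 < σ → ‖v‖ ≤ ρ → K * σ ≤ ‖v‖ → ‖v‖ ≤ K * L ^ 2 * σ →
      ‖v‖ * c.m (pt v σ) ≤ τ)
    {u : ℂ} {s : ℝ} (hs : 0 < s) (hu : ‖u‖ ≤ ρ / L) (h₁ : K * s ≤ ‖u‖)
    (h₂ : ‖u‖ ≤ K * L ^ 2 * s) : ‖u‖ * c.m (pt u s) ≤ τ / 2 := by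
  have hΛ := c.Λge
  have hΛ3 : 1 ≤ c.Λ ^ 3 := one_le_pow₀ hΛ
  have hL0 : 0 < L := by linarith
  have hL1 : 1 ≤ L := by linarith
  have hK0 : 0 < K := by linarith
  have hr : 0 < ‖u‖ := lt_of_lt_of_le (by positivity) h₁
  rw [le_div_iff₀ hL0] at hu
  obtain ⟨s', hs', e⟩ : ∃ s', 0 < s' ∧ K * s' = ‖u‖ / L :=
    ⟨‖u‖ / (K * L), by positivity, by field_simp⟩
  have e' : K * L ^ 2 * s' = ‖u‖ * L := by
    rw [mul_right_comm, e]
    field_simp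
  have hr1 : ‖u‖ / L ≤ ‖u‖ := div_le_self hr.le hL1
  have hr2 : ‖u‖ ≤ ‖u‖ * L := le_mul_of_one_le_right hr.le hL1
  have hA : ∀ v : ℂ, ‖u‖ / L ≤ ‖v‖ → ‖v‖ ≤ ‖u‖ * L →
      pt v s' ∈ c.D ∧ ‖v‖ * c.m (pt v s') ≤ η := fun v v1 v2 =>
    hη v s' hs' (by linarith) (by linarith [mul_pos hK0 hs']) (by linarith)
  have hη0 : 0 ≤ η := (mul_nonneg hr.le (c.mnn _)).trans (hA u hr1 hr2).2
  have hB := fun (q : V →L[ℂ] V) (hq : ‖q‖ ≤ c.Λ) (w : ℂ) =>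
    step_ann c hq (x := c.Q (pt u s')) (s := s') (τ := τ) (w := w) hr (show 4 ≤ L by linarith)
      fun v v1 v2 => ⟨(hA v v1 v2).1, (step_spiral c hr hL1 hηδ hA v1 v2).1,
        (step_spiral c hr hL1 hηδ hA v1 v2).2, hτ v s' hs' (by linarith) (e ▸ v1) (e' ▸ v2)⟩
  obtain ⟨d, rfl⟩ : ∃ d, s = s' + d := ⟨s - s', by ring⟩
  have hd : |d| ≤ ‖u‖ / 2 := step_ar2 hK hs' hs (e ▸ hr1) h₁
  have hσ : ∀ t ∈ Icc (0 : ℝ) 1, ∀ v : ℂ, ‖v - u‖ ≤ ‖u‖ / 2 →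
      pt v (s' + t * d) ∈ c.D ∧ |d| * c.m (pt v (s' + t * d)) ≤ η := fun t ht v hv => by
    have v1 := norm_sub_norm_le v u
    have v2 := norm_sub_norm_le u v
    rw [norm_sub_rev] at v2
    obtain ⟨t0, t1, t2⟩ := step_ar1 hs' hs (e ▸ hr1) h₁ (e' ▸ hr2) h₂ ht
    obtain ⟨a, b⟩ := hη v (s' + t * d) t0 (by linarith) (by linarith) (by linarith)
    exact ⟨a, (mul_le_mul_of_nonneg_right (by linarith) (c.mnn _)).trans b⟩
  have hΛη := mul_nonneg (zero_le_one.trans hΛ) hη0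
  have hδ : c.Λ * η + c.Λ * η < c.δ := by linarith [mul_nonneg hL0.le hΛη]
  have p1 : ∀ t : ℝ, pt u s' + t • ((0, -d) : ℂ × ℂ) = pt u (s' + t * d) := fun t => by
    ext <;> simp [pt]
    ring
  have p2 : ∀ t : ℝ, pt u (s' + d) + t • ((d, 0) : ℂ × ℂ) =
      pt (u + t * d) (s' + (1 - t) * d) := fun t => by
    ext <;> simp [pt]
    ring
  have n2 : ∀ t ∈ Icc (0 : ℝ) 1, ‖u + t * d - u‖ ≤ ‖u‖ / 2 := fun t ht => by
    rw [add_sub_cancel_left, norm_mul, Complex.norm_real, Complex.norm_real, Real.norm_eq_abs,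
      Real.norm_eq_abs, abs_of_nonneg ht.1]
    exact (mul_le_of_le_one_left (abs_nonneg _) ht.2).trans hd
  have D1 : ∀ t ∈ Icc (0 : ℝ) 1, _ := fun t ht => hσ t ht u (by simp; positivity)
  have D2 : ∀ t ∈ Icc (0 : ℝ) 1, _ := fun t ht =>
    hσ (1 - t) ⟨sub_nonneg.2 ht.2, sub_le_self _ ht.1⟩ _ (n2 t ht)
  have E1 := c.escape_seg (z := pt u s') (v := (0, -d)) (μ := η) (x := c.Q (pt u s'))
    (fun t ht => by rw [p1]; simpa using D1 t ht) (c.mem _)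
    (by rw [sub_self, norm_zero]; linarith)
  have E11 := E1 1 ⟨zero_le_one, le_rfl⟩
  rw [p1, one_mul] at E11
  have E2 := c.escape_seg (z := pt u (s' + d)) (v := (d, 0)) (μ := η) (x := c.Q (pt u s'))
    (fun t ht => by rw [p2]; simpa using D2 t ht) E11.1 (by linarith [E11.2])
  have hD := (D1 1 ⟨zero_le_one, le_rfl⟩).1
  have hD' := (D2 1 ⟨zero_le_one, le_rfl⟩).1
  have hS' := (E2 1 ⟨zero_le_one, le_rfl⟩).1
  have n := n2 1 ⟨zero_le_one, le_rfl⟩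
  rw [p2] at hS'
  simp only [one_mul, sub_self, zero_mul, add_zero, Complex.ofReal_one] at hD hD' hS' n
  have C1 := c.d1_const (x := c.Q (pt u s')) (Z := u)
    (isPreconnected_Icc.image (fun t : ℝ => -u - (s' + t * d : ℝ)) (by fun_prop))
    (by
      rintro _ ⟨t, ht, rfl⟩
      exact ⟨(D1 t ht).1, (p1 t ▸ E1 t ht).1⟩)
    ⟨1, ⟨zero_le_one, le_rfl⟩, rfl⟩ ⟨0, ⟨le_rfl, zero_le_one⟩, rfl⟩
  have C2 := c.d2_const (x := c.Q (pt u s')) (W := -u - (s' + d : ℝ))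
    (isPreconnected_Icc.image (fun t : ℝ => u + t * d) (by fun_prop))
    (by
      rintro _ ⟨t, ht, rfl⟩
      have : (u + t * d, -u - (s' + d : ℝ)) = pt u (s' + d) + t • ((d, 0) : ℂ × ℂ) := by
        ext <;> simp [pt]
      rw [this]
      exact ⟨p2 t ▸ (D2 t ht).1, (E2 t ht).1⟩)
    ⟨0, ⟨le_rfl, zero_le_one⟩, rfl⟩ ⟨1, ⟨zero_le_one, le_rfl⟩, rfl⟩
  have q2 : ((u + d, -u - (s' + d : ℝ)) : ℂ × ℂ) = pt (u + d) s' := by
    ext <;> simp [pt]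
    ring
  simp only [one_mul, zero_mul, add_zero, Complex.ofReal_one, Complex.ofReal_zero, q2] at C1 C2
  have v1 := norm_sub_norm_le (u + d) u
  have v2 := norm_sub_norm_le u (u + d)
  rw [norm_sub_rev] at v2
  have B1 := hB _ c.np u (by linarith) (by linarith)
  have B2 := hB _ c.nq (u + d) (by linarith) (by linarith)
  rw [(step_p c (hA u hr1 hr2).1 (c.mem _)).1] at B1
  rw [(step_p c hD' hS').2.1, norm_neg] at B2
  have h3 := c.lo _ _ hD E11.1 (by linarith [E11.2])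
  rw [(step_p c hD E11.1).2.2] at h3
  change fderiv ℂ _ (pt u (s' + d)) _ = fderiv ℂ _ (pt u s') _ at C1
  change fderiv ℂ _ (pt u (s' + d)) _ = _ at C2
  rw [C1, C2] at h3
  exact step_ar3 hΛ hL hτ0 hr.le (by linarith) (norm_nonneg _) B1 B2
    (h3.trans (mul_le_mul_of_nonneg_left (norm_sub_le _ _) (by linarith)))

end Vale.Agent.P278
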