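import Vale.Agent.P278.Base

/-!
P278 task VCov: adapted charts pull back under a local biholomorphism.

Plan. `IsLocalDiffeomorphAt.mfderivToContinuousLinearEquiv` (with `_coe`) shows that `mfderiv π m` is
bijective, which gives `spans_cov`. `adapted_cov`: `hπ m` provides `Φ : PartialDiffeomorph ..` with
`m ∈ Φ.source`, `EqOn π Φ Φ.source`; put `φ = Φ.toOpenPartialHomeomorph.trans ψ`. On `φ.source`,
`φ = ψ ∘ Φ`, `Φ =ᶠ π`, `Φ.contMDiffOn_toFun`, `Φ.contMDiffOn_invFun` give differentiability of `φ` and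
`φ.symm = Φ.symm ∘ ψ.symm`; `mfderiv φ x = mfderiv ψ (π x) ∘ mfderiv π x`.
`spans_of_internal`: `DirectSum.IsInternal.submodule_iSup_eq_top`, `Submodule.mem_iSup_iff_exists_finsupp`
or surjectivity of `DirectSum.coeAddMonoidHom`.
Auxiliary names: start with `vcov_`.
-/

namespace Vale.Agent.P278

open scoped Manifold ContDiff Topology

variable {ι : Type*} [Fintype ι] [DecidableEq ι] {W : ι → Type*}
  [∀ i, NormedAddCommGroup (W i)] [∀ i, NormedSpace ℂ (W i)] {E : Type*} [NormedAddCommGroup E]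
  [NormedSpace ℂ E] {M X : Type*} [TopologicalSpace M] [ChartedSpace E M] [TopologicalSpace X]
  [ChartedSpace E X] {π : M → X} {D : ι → X → Submodule ℂ E}

/-- The pulled-back subspaces. -/
noncomputable def pullD (D : ι → X → Submodule ℂ E) (π : M → X) (i : ι) (m : M) : Submodule ℂ E :=
  (D i (π m)).comap (mfderiv 𝓘(ℂ, E) 𝓘(ℂ, E) π m).toLinearMap

omit [TopologicalSpace X] [ChartedSpace E X] in
theorem spans_of_internal (h : ∀ x, DirectSum.IsInternal fun i => D i x) : Spans D := by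
  classical
  intro x v
  obtain ⟨u, hu⟩ := (h x).2 v
  refine ⟨fun i => (u i : E), fun i => (u i).2, ?_⟩
  rw [← hu, DirectSum.coeAddMonoidHom_eq_dfinsuppSum, DFinsupp.sum]
  exact (Finset.sum_subset (Finset.subset_univ _) fun i _ hi => by
    rw [DFinsupp.notMem_support_iff.1 hi]; rfl).symm

omit [DecidableEq ι] in
theorem spans_cov (hπ : IsLocalDiffeomorph 𝓘(ℂ, E) 𝓘(ℂ, E) ω π) (h : Spans D) :
    Spans (pullD D π) := by
  intro m v
  obtain ⟨A, hA⟩ : ∃ A : E ≃L[ℂ] E, ∀ a, A a = mfderiv 𝓘(ℂ, E) 𝓘(ℂ, E) π m a :=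
    ⟨(hπ m).mfderivToContinuousLinearEquiv (by simp), fun _ => rfl⟩
  obtain ⟨u, h1, h2⟩ := h (π m) (A v)
  refine ⟨fun i => A.symm (u i), fun i => ?_, ?_⟩
  · have : A (A.symm (u i)) ∈ D i (π m) := by rw [A.apply_symm_apply]; exact h1 i
    rw [hA] at this
    exact this
  · rw [← map_sum, h2, A.symm_apply_apply]

theorem adapted_cov (hπ : IsLocalDiffeomorph 𝓘(ℂ, E) 𝓘(ℂ, E) ω π)
    {ψ : OpenPartialHomeomorph X (∀ j, W j)} (hψ : Adapted D ψ) {m : M} (hm : π m ∈ ψ.source) :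
    ∃ φ : OpenPartialHomeomorph M (∀ j, W j), Adapted (pullD D π) φ ∧ m ∈ φ.source ∧
      ∀ m' ∈ φ.source, π m' ∈ ψ.source ∧ φ m' = ψ (π m') := by
  obtain ⟨Φ, h1, h2⟩ := hπ m
  have hω : (ω : WithTop ℕ∞) ≠ 0 := by simp
  have k1 : ∀ x ∈ (Φ.toOpenPartialHomeomorph.trans ψ).source, x ∈ Φ.source ∧ π x ∈ ψ.source :=
    fun x hx => ⟨hx.1, by rw [h2 hx.1]; exact hx.2⟩
  have k2 : ∀ x ∈ (Φ.toOpenPartialHomeomorph.trans ψ).source,
      (Φ.toOpenPartialHomeomorph.trans ψ) =ᶠ[𝓝 x] ψ ∘ π := fun x hx =>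
    Filter.eventually_of_mem (Φ.open_source.mem_nhds (k1 x hx).1) fun y hy =>
      congrArg ψ (h2 hy).symm
  refine ⟨Φ.toOpenPartialHomeomorph.trans ψ, ⟨fun x hx => ?_, fun y hy => ?_, fun x hx i v hv => ?_⟩,
    ⟨h1, ?_⟩, fun x hx => ⟨(k1 x hx).2, (k2 x hx).self_of_nhds⟩⟩
  · exact ((hψ.1 _ (k1 x hx).2).comp x ((hπ x).mdifferentiableAt hω)).congr_of_eventuallyEq (k2 x hx)
  · exact ((Φ.contMDiffOn_invFun.contMDiffAt (Φ.open_target.mem_nhds hy.2)).mdifferentiableAt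
      hω).comp y (hψ.2.1 y hy.1)
  · have k3 := (k2 x hx).mfderiv_eq (I := 𝓘(ℂ, E)) (I' := 𝓘(ℂ, ∀ j, W j))
    rw [mfderiv_comp x (hψ.1 _ (k1 x hx).2) ((hπ x).mdifferentiableAt hω)] at k3
    rw [k3]
    exact hψ.2.2 _ (k1 x hx).2 i _ hv
  · show Φ m ∈ ψ.source
    rw [← h2 h1]; exact hm

end Vale.Agent.P278
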