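import Vale.Agent.P278.Base
import Vale.Agent.P278.Osg2

/-!
P278 task VStr: an atlas of adapted charts is a holomorphic product atlas.

Plan. `V = ∀ j, W j`. For adapted `ψ, φ` and `y ∈ ψ.target` with `ψ.symm y ∈ φ.source`, `φ ∘ ψ.symm` is
differentiable at `y` (`MDifferentiableAt.comp`, `mdifferentiableAt_iff_differentiableAt`) with
`fderiv = Tφ ∘ Sψ`, `Tφ = mfderiv φ x`, `Sψ = mfderiv ψ.symm y`, and `Sψ ∘ Tψ = id`, `Tψ ∘ Sψ = id`
(chain rule for `ψ.symm ∘ ψ =ᶠ id`, `ψ ∘ ψ.symm =ᶠ id`).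
`vstr_manifold`: `isManifold_of_contDiffOn`, `osgood`, `AnalyticOnNhd.contDiffOn_of_completeSpace`.
`vstr_patl`: write `Sψ v = ∑ u j` with `u j ∈ D j x`; then `v = ∑ Tψ (u j)`, `pr W i v = Tψ (u i)`
(`pr W i * pr W j = 0` for `i ≠ j`), so both sides are `Tφ (u i)`.
`vstr_decomp`: keep `Y`, `Φ`. The identity map `N → N` is differentiable from the `E`-structure to the
`V`-structure at `x` (it is `ψ.symm ∘ ψ` with `ψ = chartAt V x`: by `mdifferentiableAt_iff_target`-type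
unfolding, `writtenInExtChartAt` of `id` is that of `ψ`), with `mfderiv = T = mfderiv ψ x`, and from `V` to
`E` (it is `ψ.symm ∘ ψ` with `ψ` differentiable for the `V`-structure by `vstr_manifold`). `T` is bijective
and `v ∈ D i x ↔ pr W i (T v) = T v`; chain rule `mfderiv_comp` for `Φ ∘ id`, `id ∘ Φ.symm`.
Auxiliary names: start with `vstr_aux`.
-/

namespace Vale.Agent.P278

open scoped Manifold ContDiff Topology

theorem exists_adaptedCS {ι : Type*} [Fintype ι] [DecidableEq ι] {W : ι → Type*}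
    [∀ i, NormedAddCommGroup (W i)] [∀ i, NormedSpace ℂ (W i)] {E : Type*} [NormedAddCommGroup E]
    [NormedSpace ℂ E] {N : Type*} [TopologicalSpace N] [ChartedSpace E N]
    {D : ι → N → Submodule ℂ E}
    (h : ∀ x, ∃ ψ : OpenPartialHomeomorph N (∀ j, W j), Adapted D ψ ∧ x ∈ ψ.source) :
    ∃ _ : ChartedSpace (∀ j, W j) N, atlas (∀ j, W j) N = {ψ | Adapted D ψ} := by
  choose c hc using h
  exact ⟨⟨{ψ | Adapted D ψ}, c, fun x => (hc x).2, fun x => (hc x).1⟩, rfl⟩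

variable {ι : Type} [Fintype ι] [DecidableEq ι] {W : ι → Type}
  [∀ i, NormedAddCommGroup (W i)] [∀ i, NormedSpace ℂ (W i)] [∀ i, FiniteDimensional ℂ (W i)]
  {E : Type*} [NormedAddCommGroup E] [NormedSpace ℂ E] {N : Type*} [TopologicalSpace N]
  [ChartedSpace E N] [ChartedSpace (∀ j, W j) N] {D : ι → N → Submodule ℂ E}

section

omit [∀ i, FiniteDimensional ℂ (W i)] [ChartedSpace (∀ j, W j) N]

variable (E) in
noncomputable def vstr_auxT (ψ : OpenPartialHomeomorph N (∀ j, W j)) (x : N) : E →L[ℂ] ∀ j, W j :=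
  mfderiv 𝓘(ℂ, E) 𝓘(ℂ, ∀ j, W j) ψ x

variable (E) in
noncomputable def vstr_auxS (ψ : OpenPartialHomeomorph N (∀ j, W j)) (y : ∀ j, W j) :
    (∀ j, W j) →L[ℂ] E :=
  mfderiv 𝓘(ℂ, ∀ j, W j) 𝓘(ℂ, E) ψ.symm y

variable {ψ φ : OpenPartialHomeomorph N (∀ j, W j)}

theorem vstr_aux1 (h : Adapted D ψ) {x : N} (hx : x ∈ ψ.source) :
    (∀ v, vstr_auxS E ψ (ψ x) (vstr_auxT E ψ x v) = v) ∧
      ∀ v, vstr_auxT E ψ x (vstr_auxS E ψ (ψ x) v) = v := by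
  have m : ψ.MDifferentiable 𝓘(ℂ, E) 𝓘(ℂ, ∀ j, W j) :=
    ⟨fun x hx => (h.1 x hx).mdifferentiableWithinAt,
      fun y hy => (h.2.1 y hy).mdifferentiableWithinAt⟩
  refine ⟨fun v => DFunLike.congr_fun (m.symm_comp_deriv hx) v, fun v => ?_⟩
  have : vstr_auxT E ψ (ψ.symm (ψ x)) (vstr_auxS E ψ (ψ x) v) = v :=
    DFunLike.congr_fun (m.comp_symm_deriv (ψ.map_source hx)) v
  rwa [ψ.left_inv hx] at this

theorem vstr_aux2 (h : Adapted D ψ) {x : N} (hx : x ∈ ψ.source) {u : ι → E}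
    (hu : ∀ i, u i ∈ D i x) (i : ι) :
    pr W i (vstr_auxT E ψ x (∑ j, u j)) = vstr_auxT E ψ x (u i) := by
  have a : ∀ j, pr W j (vstr_auxT E ψ x (u j)) = vstr_auxT E ψ x (u j) := fun j =>
    h.2.2 x hx j _ (hu j)
  rw [map_sum, map_sum, Finset.sum_eq_single i _ (by simp), a]
  intro j _ hj
  rw [← a j]
  simp [pr, Pi.single_eq_of_ne hj.symm]

theorem vstr_aux3 (hψ : Adapted D ψ) (hφ : Adapted D φ) {y : ∀ j, W j} (hy : y ∈ ψ.target)
    (hx : ψ.symm y ∈ φ.source) :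
    HasFDerivAt (φ ∘ ψ.symm) ((vstr_auxT E φ (ψ.symm y)).comp (vstr_auxS E ψ y)) y :=
  hasMFDerivAt_iff_hasFDerivAt.1 ((hφ.1 _ hx).hasMFDerivAt.comp y (hψ.2.1 y hy).hasMFDerivAt)

end

theorem vstr_manifold (hA : ∀ ψ ∈ atlas (∀ j, W j) N, Adapted D ψ) :
    IsManifold 𝓘(ℂ, ∀ j, W j) ω N := by
  refine isManifold_of_contDiffOn _ _ _ fun ψ φ hψ hφ => ?_
  simp only [mfld_simps]
  refine (osgood (ψ.symm.continuousOn_toFun.isOpen_inter_preimage ψ.open_target φ.open_source)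
    fun y hy => ?_).contDiffOn_of_completeSpace
  exact (vstr_aux3 (hA ψ hψ) (hA φ hφ) hy.1 hy.2).differentiableAt.differentiableWithinAt

theorem vstr_patl (hA : ∀ ψ ∈ atlas (∀ j, W j) N, Adapted D ψ) (hs : Spans D) (i : ι) :
    PAtl (pr W i) N := by
  intro ψ hψ φ hφ y hy hx v
  obtain ⟨x, hx', rfl⟩ : ∃ x ∈ ψ.source, ψ x = y := ⟨_, ψ.map_target hy, ψ.right_inv hy⟩
  have e := (vstr_aux3 (hA ψ hψ) (hA φ hφ) hy hx).fderiv
  rw [ψ.left_inv hx'] at e hx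
  obtain ⟨a, b⟩ := vstr_aux1 (hA ψ hψ) hx'
  obtain ⟨u, hu, hv⟩ := hs x (vstr_auxS E ψ (ψ x) v)
  have c := vstr_aux2 (hA ψ hψ) hx' hu i
  rw [hv, b] at c
  rw [e, ContinuousLinearMap.comp_apply, ContinuousLinearMap.comp_apply, c, a, ← hv,
    vstr_aux2 (hA φ hφ) hx hu i]

theorem vstr_decomp (hA : ∀ ψ ∈ atlas (∀ j, W j) N, Adapted D ψ) (hs : Spans D)
    (h : Decomp W (∀ j, W j) (M := N) fun i _ v => pr W i v = v) :
    Decomp W E (M := N) fun i m v => v ∈ D i m := by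
  obtain ⟨Y, _, _, hY, Φ, h1, h2, h3⟩ := h
  have hc := fun x : N => hA _ (chart_mem_atlas (∀ j, W j) x)
  have hx := fun x : N => mem_chart_source (∀ j, W j) x
  have i1 : ∀ x : N, HasMFDerivAt 𝓘(ℂ, E) 𝓘(ℂ, ∀ j, W j) (id : N → N) x
      (vstr_auxT E (chartAt (∀ j, W j) x) x) := fun x =>
    ⟨continuousAt_id, ((hc x).1 x (hx x)).hasMFDerivAt.2⟩
  have i2 : ∀ x : N, MDifferentiableAt 𝓘(ℂ, ∀ j, W j) 𝓘(ℂ, E) (id : N → N) x := fun x => by
    have a := ((mdifferentiableAt_iff _ _).1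
      ((hc x).2.1 _ ((chartAt (∀ j, W j) x).map_source (hx x)))).2
    unfold writtenInExtChartAt at a
    rw [(chartAt (∀ j, W j) x).left_inv (hx x)] at a
    exact (mdifferentiableAt_iff _ _).2 ⟨continuousAt_id, a⟩
  have i3 := fun x : N => (h1 x).hasMFDerivAt.comp x (i1 x)
  refine ⟨Y, _, _, hY, Φ, fun x => (i3 x).mdifferentiableAt, fun y => (i2 _).comp y (h2 y),
    fun m i w => Iff.trans ?_ (h3 m i w)⟩
  have e : ∀ v, mfderiv 𝓘(ℂ, E) (ModelWithCorners.pi fun i => 𝓘(ℂ, W i)) Φ m v =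
      mfderiv 𝓘(ℂ, ∀ j, W j) (ModelWithCorners.pi fun i => 𝓘(ℂ, W i)) Φ m
        (vstr_auxT E (chartAt (∀ j, W j) m) m v) := fun v =>
    DFunLike.congr_fun (i3 m).mfderiv v
  obtain ⟨a, b⟩ := vstr_aux1 (hc m) (hx m)
  refine ⟨fun ⟨v, c, d⟩ => ⟨_, (hc m).2.2 m (hx m) i v c, (e v).symm.trans d⟩,
    fun ⟨v, c, d⟩ => ⟨vstr_auxS E (chartAt (∀ j, W j) m) (chartAt (∀ j, W j) m m) v, ?_,
      (e _).trans ((congrArg _ (b v)).trans d)⟩⟩
  obtain ⟨u, hu, hv⟩ := hs m (vstr_auxS E (chartAt (∀ j, W j) m) (chartAt (∀ j, W j) m m) v)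
  have f := vstr_aux2 (hc m) (hx m) hu i
  rw [hv, b, c] at f
  rw [f, a]
  exact hu i

end Vale.Agent.P278
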